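import Crest.Statements.S0010
import Crest.Agent.R9.Hom
import Crest.Agent.R9.FG

set_option autoImplicit false
open Crest.NumberTheoryR.MilnorK
open Crest Crest.NumberTheoryR

namespace Crest.Agent.S0010

/-- Let K and L be fields of characteristic p that are finitely generated and of transcendence degree at least 2 over algebraically closed subfields k and l. Let Θ be a linear isomorphism, over the integers mod p, from Kˣ/(Kˣ)^p to Lˣ/(Lˣ)^p that maps the span of the Steinberg elements [f] ⊗ [1 - f] (f ≠ 0, 1) of K exactly onto that of L. Then there is exactly one field isomorphism α from K to L with α(k) = l such that, for some non-zero scalar c, Θ[u] = c · [α(u)] for every unit u of K. -/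
theorem result {p : ℕ} [Fact p.Prime]
    {K L : Type*} [Field K] [Field L] [CharP K p] [CharP L p] (k : Subfield K) (l : Subfield L)
    [IsAlgClosed k] [IsAlgClosed l]
    (hK : ∃ s : Finset K, Subfield.closure ((k : Set K) ∪ (s : Set K)) = ⊤)
    (hL : ∃ s : Finset L, Subfield.closure ((l : Set L) ∪ (s : Set L)) = ⊤)
    (hK2 : 2 ≤ Algebra.trdeg k K) (hL2 : 2 ≤ Algebra.trdeg l L)
    (Θ : KOne K p ≃ₗ[ZMod p] KOne L p) (hΘ : IsCompatible Θ) :
    ∃! α : K ≃+* L, k.map α.toRingHom = l ∧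
      ∃ c : ZMod p, c ≠ 0 ∧ ∀ u : Kˣ, Θ (cls K p u) = c • cls L p (Units.map α.toRingHom.toMonoidHom u) := by
  open Crest.Agent.R9 in
  have := essFiniteType_of_closure k hK
  have := essFiniteType_of_closure l hL
  have hK' := exists_not_mem_adj p k hK2
  have hL' := exists_not_mem_adj p l hL2
  have hKne : ∃ y, y ∉ pw K p := by
    obtain ⟨y, hy⟩ := hK' 0
    exact ⟨y, fun h => hy (le_adj _ _ h)⟩
  have hLne : ∃ y, y ∉ pw L p := by
    obtain ⟨y, hy⟩ := hL' 0
    exact ⟨y, fun h => hy (le_adj _ _ h)⟩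
  have hSt : ∀ f : K, f ≠ 0 → 1 - f ≠ 0 → Par p (Θ (cc p f)) (Θ (cc p (1 - f))) := by
    intro f hf hf1
    apply par_of_steinberg
    rw [← hΘ]
    refine ⟨TensorProduct.tmul (ZMod p) (cc p f) (cc p (1 - f)), ?_, by simp⟩
    exact Submodule.subset_span ⟨f, hf, hf1, by rw [cc_mk0 p hf, cc_mk0 p hf1]⟩
  have hSt' : ∀ g : L, g ≠ 0 → 1 - g ≠ 0 →
      Par p (Θ.symm (cc p g)) (Θ.symm (cc p (1 - g))) := by
    intro g hg hg1
    apply par_of_steinberg
    have h1 : TensorProduct.tmul (ZMod p) (cc p g) (cc p (1 - g)) ∈ steinberg L p :=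
      Submodule.subset_span ⟨g, hg, hg1, by rw [cc_mk0 p hg, cc_mk0 p hg1]⟩
    rw [← hΘ] at h1
    obtain ⟨t, ht, hte⟩ := h1
    have h2 : t = TensorProduct.tmul (ZMod p) (Θ.symm (cc p g)) (Θ.symm (cc p (1 - g))) := by
      apply (TensorProduct.congr Θ Θ).injective
      rw [TensorProduct.congr_tmul, Θ.apply_symm_apply, Θ.apply_symm_apply, ← hte]
      rfl
    exact h2 ▸ ht
  have hpar : ∀ a b, Par p a b ↔ Par p (Θ a) (Θ b) := fun a b =>
    ⟨par_map p Θ hSt, fun h => by simpa using par_map p Θ.symm hSt' h⟩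
  have hpar' : ∀ a b, Par p a b ↔ Par p (Θ.symm a) (Θ.symm b) := fun a b => by
    rw [hpar (Θ.symm a), Θ.apply_symm_apply, Θ.apply_symm_apply]
  obtain ⟨j, hj, α, hα⟩ := exists_hom_of_par Θ hpar hK'
  obtain ⟨j', hj', α', hα'⟩ := exists_hom_of_par Θ.symm hpar' hL'
  have hcomp : ∀ v : L, cc p (α (α' v)) = (j * j') • cc p v := fun v => by
    rw [← hα, ← hα', map_smul, Θ.apply_symm_apply, smul_smul]
  have hid : α.comp α' = RingHom.id L := by
    refine hom_unique (p := p) _ _ (j := j * j') (j' := 1) (mul_ne_zero hj hj') hLne ?_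
      (fun x hx => hx) (fun x => by rw [one_smul]; exact hcomp x)
    intro x hx h
    have h1 := hcomp x
    rw [show cc p (α (α' x)) = 0 from cc_pw p h, eq_comm,
      smul_eq_zero_iff_right (mul_ne_zero hj hj'),
      cc_eq_zero_iff p (ne_zero_of_not_mem hx)] at h1
    exact hx h1
  have hsurj : Function.Surjective α := fun v => ⟨α' v, RingHom.congr_fun hid v⟩
  let e : K ≃+* L := RingEquiv.ofBijective α ⟨α.injective, hsurj⟩
  have he : ∀ x, e x = α x := fun x => rfl
  have hroot : ∀ {F : Type _} [Field F] (m : Subfield F) [IsAlgClosed m] (a : F), a ∈ m →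
      ∀ n : ℕ, ∃ s : F, s ^ p ^ n = a := by
    intro F _ m _ a ha n
    obtain ⟨s, hs⟩ := IsAlgClosed.exists_pow_nat_eq (⟨a, ha⟩ : m)
      (pow_pos (Fact.out : p.Prime).pos n)
    exact ⟨s, by simpa using congrArg Subtype.val hs⟩
  have hroot' : ∀ (a : L), a ∈ l → ∀ n : ℕ, ∃ s : L, s ^ p ^ n = a := by
    intro a ha n
    obtain ⟨s, hs⟩ := IsAlgClosed.exists_pow_nat_eq (⟨a, ha⟩ : l)
      (pow_pos (Fact.out : p.Prime).pos n)
    exact ⟨s, by simpa using congrArg Subtype.val hs⟩
  have hunit : ∀ (f : K ≃+* L) (u : Kˣ),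
      cls L p (Units.map f.toRingHom.toMonoidHom u) = cc p (f (u : K)) := fun f u => by
    rw [← cc_unit]
    rfl
  refine ⟨e, ⟨?_, j⁻¹, inv_ne_zero hj, fun u => ?_⟩, ?_⟩
  · ext b
    constructor
    · rintro ⟨a, ha, rfl⟩
      apply mem_of_forall_pow p l
      intro n
      obtain ⟨s, hs⟩ := hroot k a ha n
      exact ⟨e s, by rw [← map_pow, hs]; rfl⟩
    · intro hb
      refine ⟨e.symm b, ?_, e.apply_symm_apply b⟩
      apply mem_of_forall_pow p k
      intro n
      obtain ⟨s, hs⟩ := hroot' b hb n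
      exact ⟨e.symm s, by rw [← map_pow, hs]⟩
  · rw [hunit, he, ← hα, smul_smul, inv_mul_cancel₀ hj, one_smul, cc_unit]
  · rintro f ⟨-, c, hc, hf⟩
    have hsz : c • (0 : KOne L p) = 0 := (smul_eq_zero_iff_right hc).2 rfl
    have hf' : ∀ x : K, Θ (cc p x) = c • cc p (f x) := fun x => by
      by_cases hx : x = 0
      · rw [hx, map_zero f, cc_zero, cc_zero, map_zero, hsz]
      · have := hf (Units.mk0 x hx)
        rwa [hunit, ← cc_mk0] at this
    have hne : ∀ x, x ∉ pw K p → Θ (cc p x) ≠ 0 := fun x hx h => by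
      rw [map_eq_zero_iff _ Θ.injective, cc_eq_zero_iff p (ne_zero_of_not_mem hx)] at h
      exact hx h
    have key : (f : K →+* L) = α := by
      refine hom_unique (p := p) _ _ (j := 1) (j' := j * c) one_ne_zero hKne ?_ ?_ ?_
      · intro x hx h
        apply hne x hx
        rw [hf', show cc p (f x) = 0 from cc_pw p h, hsz]
      · intro x hx h
        apply hne x hx
        have h1 := hα x
        rwa [cc_pw p h, smul_eq_zero_iff_right hj] at h1
      · intro x
        rw [one_smul, ← hα, hf', smul_smul]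
        rfl
    ext x
    exact RingHom.congr_fun key x

end Crest.Agent.S0010
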