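import Crest.Statements.S0012
import Crest.Agent.R11.Final

set_option autoImplicit false
open Crest Crest.NumberTheoryR

namespace Crest.Agent.S0012

/-- For every real exponent ν > 2 there is a natural number Q such that, for every integer p and every natural number q ≥ Q, the distance from π to p / q is at least 1 / q ^ ν (the fraction need not be in lowest terms). Equivalently, the irrationality exponent of π is at most 2. -/
theorem result (ν : ℝ) (hν : 2 < ν) :
    ∃ Q : ℕ, ∀ (p : ℤ) (q : ℕ), Q ≤ q → 1 / (q : ℝ) ^ ν ≤ |Real.pi - (p : ℝ) / (q : ℝ)| := by
  exact Crest.Agent.R11.main hν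

end Crest.Agent.S0012
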