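import Crest.Statements.S0024
import Crest.Agent.R18.Final

set_option autoImplicit false
open Crest.NumberTheoryR
open Crest Crest.NumberTheoryR

namespace Crest.Agent.S0024

/-- Let F₁, F₂ be number fields and E₁/F₁, E₂/F₂ Galois extensions (possibly infinite) with E₁ and E₂ solvably closed. Every continuous group homomorphism α from Gal(E₁/F₁) to Gal(E₂/F₂) (Krull topologies) with open image is induced by a field embedding j of E₂ into E₁, in the sense that g ∘ j = j ∘ α(g) for every g in Gal(E₁/F₁). -/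
theorem result
    (F₁ F₂ E₁ E₂ : Type*) [Field F₁] [NumberField F₁] [Field F₂] [NumberField F₂]
    [Field E₁] [Algebra F₁ E₁] [IsGalois F₁ E₁] [Field E₂] [Algebra F₂ E₂] [IsGalois F₂ E₂]
    (h₁ : IsSolvablyClosed E₁) (h₂ : IsSolvablyClosed E₂)
    (α : (E₁ ≃ₐ[F₁] E₁) →* (E₂ ≃ₐ[F₂] E₂)) (hα : Continuous α) (hopen : IsOpen (Set.range α)) :
    ∃ j : E₂ →+* E₁, ∀ g : E₁ ≃ₐ[F₁] E₁, ∀ x : E₂, g (j x) = j (α g x) :=
  Crest.Agent.R18.final F₁ F₂ E₁ E₂ h₂ α hα hopen

end Crest.Agent.S0024
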