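import Crest.Statements.S0050
import Crest.Agent.R37.Main50

set_option autoImplicit false
open Crest.CombinatoricsR.Multigraph
open Crest Crest.CombinatoricsR

namespace Crest.Agent.S0050

/-- There is a universal constant C > 0 such that for every k ≥ 1, every finite loopless multigraph (edge indices with two endpoint maps src, tgt into the vertex type, src e ≠ tgt e) with at least two vertices, in which every nonempty proper vertex set S is left by at least k edges, has a spanning tree — a set T of (number of vertices − 1) edges whose adjacency graph is connected — containing at most (C / k) · (size of the cut) edges of the cut of every nonempty proper S. -/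
theorem result :
    ∃ C : ℝ, 0 < C ∧ ∀ k : ℕ, 1 ≤ k →
      ∀ (V E : Type) [Fintype V] [DecidableEq V] [Fintype E] (src tgt : E → V),
        (∀ e, src e ≠ tgt e) → 2 ≤ Fintype.card V →
        (∀ S : Finset V, S.Nonempty → S ≠ Finset.univ → k ≤ (cutEdges src tgt Finset.univ S).card) →
        ∃ T : Finset E, T.card + 1 = Fintype.card V ∧ (adjGraph src tgt T).Connected ∧
          ∀ S : Finset V, S.Nonempty → S ≠ Finset.univ →
            ((cutEdges src tgt T S).card : ℝ) ≤ C / k * (cutEdges src tgt Finset.univ S).card := by
  exact Crest.Agent.R37.main50

end Crest.Agent.S0050
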