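import Crest.Statements.S0070
import Crest.Agent.R51.Part3
import Crest.Agent.R51.Narrow
import Crest.Agent.R51.Core
import Crest.Agent.R51.Top
import Crest.Agent.R51.Ksets
import Crest.Agent.R51.Window
import Crest.Agent.R51.Tokens
import Crest.Agent.R51.Sweep
import Crest.Agent.R51.Meet
import Crest.Agent.R51.Cut
import Crest.Agent.R51.Wall
import Crest.Agent.R51.Cor
import Crest.Agent.R51.Descend
import Crest.Agent.R51.Gamma
import Crest.Agent.R51.Excess
import Crest.Agent.R51.Alpha
import Crest.Agent.R51.LevelB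
import Crest.Agent.R51.LevelB2
import Crest.Agent.R51.Flat
import Crest.Agent.R51.Box
import Crest.Agent.R51.HWcount
import Crest.Agent.R51.HWgeom
import Crest.Agent.R51.Cherry

set_option autoImplicit false
open Classical
open Crest Crest.CombinatoricsR

namespace Crest.Agent.S0070

/-- There are real constants ε₀ > 0 and C₀ such that for every natural number n ≥ 2, every natural number k with 1 ≤ k and 2k ≤ n, and every set Q of n points in the plane no three of which are collinear, the number of k-element subsets S of Q that are strictly separated from the rest of Q by a line (some a, b, c with (a, b) ≠ (0, 0), a·x + b·y + c < 0 on S and > 0 on Q outside S) is at most C₀ · n · (k + 1) ^ (1/3 - ε₀). -/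
theorem result :
    ∃ ε₀ : ℝ, 0 < ε₀ ∧ ∃ C₀ : ℝ, ∀ n : ℕ, 2 ≤ n → ∀ k : ℕ, 1 ≤ k → 2 * k ≤ n →
      ∀ Q : Finset (ℝ × ℝ), Q.card = n →
        (∀ p ∈ Q, ∀ q ∈ Q, ∀ r ∈ Q, p ≠ q → p ≠ r → q ≠ r →
          (q.1 - p.1) * (r.2 - p.2) - (q.2 - p.2) * (r.1 - p.1) ≠ 0) →
        (((Q.powersetCard k).filter (fun S => ∃ a b c : ℝ, (a ≠ 0 ∨ b ≠ 0) ∧
            (∀ p ∈ S, a * p.1 + b * p.2 + c < 0) ∧
            (∀ p ∈ Q, p ∉ S → 0 < a * p.1 + b * p.2 + c))).card : ℝ)
          ≤ C₀ * (n : ℝ) * ((k : ℝ) + 1) ^ ((1 : ℝ) / 3 - ε₀) := by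
  open Crest.Agent.R51 in
  obtain ⟨C₁, han⟩ := part3
  open Crest.Agent.R51 in
  have hcut : CutStmt := cutLemma meet
  open Crest.Agent.R51 in
  have hi : IStarStmt := istar hcut
  open Crest.Agent.R51 in
  have hp : PartStmt := part' (pstar hcut)
  open Crest.Agent.R51 in
  have hg : GammaStmt := gamma (heavy hi) (card hi) hp
  open Crest.Agent.R51 in
  have hf : FlatStmt := flat hp (long hi)
  open Crest.Agent.R51 in
  have hcore : CoreStmt := core
    (levelB (card hi) hp (descend hi) hg (deg hi) alpha narrow)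
    (levelB2 (card hi) hp (descend hi) hg (excess (heavy hi))) C₁
    (cherry (hwcount hf (box hf) (long hi)) hwgeom (box hf) C₁ han)
  open Crest.Agent.R51 in
  exact ksets (window sweep (top (tokens sweep) hi hcore))

end Crest.Agent.S0070
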