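import Crest.Statements.S0072
import Crest.Agent.R52.Convex

set_option autoImplicit false
open Crest Crest.CombinatoricsR

namespace Crest.Agent.S0072

/-- Let N ≥ 1, 0 < p < 1, k = 2^75, and let D be any family of subsets of an N-element set whose probability under the product measure with density p (each element present independently with probability p) is at least 1 - 1/k. Then the family of all sets S that are contained in no union of k members of D (members may repeat) is p-small: there is a family G of sets such that every such S contains a member of G and Σ_{I ∈ G} p^(card I) ≤ 1/2. -/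
theorem result (N : ℕ) (hN : 1 ≤ N) (p : ℝ)
    (hp0 : 0 < p) (hp1 : p < 1) (D : Finset (Finset (Fin N)))
    (hD : 1 - 1 / 2 ^ 75 ≤ ∑ S ∈ D, p ^ S.card * (1 - p) ^ (N - S.card)) :
    ∃ G : Finset (Finset (Fin N)),
      (∀ S : Finset (Fin N),
        (∀ f : Fin (2 ^ 75) → Finset (Fin N), (∀ i, f i ∈ D) → ¬ S ⊆ Finset.univ.biUnion f) →
          ∃ I ∈ G, I ⊆ S) ∧
      ∑ I ∈ G, p ^ I.card ≤ 1 / 2 := by
  classical
  obtain ⟨G, hG, hc⟩ := Crest.Agent.R52.discrete_convexity p hp0 hp1 D 10000000 (by norm_num)
    (by rw [Fintype.card_fin]; refine le_trans ?_ hD; norm_num)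
    (Finset.univ.filter (fun S => ∀ f : Fin (2 ^ 75) → Finset (Fin N), (∀ i, f i ∈ D) →
      ¬ S ⊆ Finset.univ.biUnion f)) (by
      intro S hS f₁ f₂ h₁ h₂ hcov
      refine (Finset.mem_filter.mp hS).2 (fun j =>
        if h : (j : ℕ) < 10000000 then f₁ ⟨j, h⟩
        else f₂ ⟨(j : ℕ) % 10000000, Nat.mod_lt _ (by norm_num)⟩) ?_ ?_
      · intro j
        split_ifs
        · exact h₁ _
        · exact h₂ _
      · intro a ha
        rw [Finset.mem_biUnion]
        rcases hcov a ha with ⟨i, hi⟩ | ⟨i, hi⟩
        · have hlt : (i : ℕ) < 2 ^ 75 := lt_trans i.2 (by norm_num)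
          refine ⟨⟨i, hlt⟩, Finset.mem_univ _, ?_⟩
          rw [dif_pos i.2]
          exact hi
        · have hlt : (i : ℕ) + 10000000 < 2 ^ 75 := by have := i.2; omega
          refine ⟨⟨i + 10000000, hlt⟩, Finset.mem_univ _, ?_⟩
          rw [dif_neg (by simp)]
          have : (⟨((i : ℕ) + 10000000) % 10000000, Nat.mod_lt _ (by norm_num)⟩ :
              Fin 10000000) = i := by
            apply Fin.ext
            have := i.2
            simp only
            omega
          simp only [this]
          exact hi)
  exact ⟨G, fun S hS => hG S (Finset.mem_filter.mpr ⟨Finset.mem_univ _, hS⟩), hc⟩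

end Crest.Agent.S0072
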