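import Crest.Statements.S0074
import Crest.Agent.R53.Assembly

set_option autoImplicit false
open Crest Crest.CombinatoricsR

namespace Crest.Agent.S0074

/-- There are two matroids M₀, M₁ on the whole of ℕ (a countably infinite ground set), each equal to its own dual on the same labelled ground set, such that no independent set of M₀ together with an independent set of M₁ covers ℕ, and the pair has no packing/covering partition: no splitting ℕ = P ⊔ C allows disjoint S₀, S₁ ⊆ P with Sᵢ spanning the restriction of Mᵢ to P, and sets I₀, I₁ with union C, Iᵢ independent in the contraction of Mᵢ onto C (the complement of C contracted). -/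
theorem result :
    ∃ M₀ M₁ : Matroid ℕ, M₀.E = Set.univ ∧ M₁.E = Set.univ ∧ M₀.dual = M₀ ∧ M₁.dual = M₁ ∧
      (∀ I₀ I₁ : Set ℕ, M₀.Indep I₀ → M₁.Indep I₁ → I₀ ∪ I₁ ≠ Set.univ) ∧
      ¬ ∃ P C S₀ S₁ I₀ I₁ : Set ℕ, P ∪ C = Set.univ ∧ Disjoint P C ∧
          S₀ ⊆ P ∧ S₁ ⊆ P ∧ Disjoint S₀ S₁ ∧
          (M₀.restrict P).closure S₀ = P ∧ (M₁.restrict P).closure S₁ = P ∧
          I₀ ⊆ C ∧ I₁ ⊆ C ∧ (M₀.contract Cᶜ).Indep I₀ ∧ (M₁.contract Cᶜ).Indep I₁ ∧
          I₀ ∪ I₁ = C := by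
  obtain ⟨M₀, M₁, e0, e1, d0, d1, h⟩ := Crest.Agent.R53.exists_pair
  refine ⟨M₀, M₁, e0, e1, d0, d1, fun I₀ I₁ h0 h1 hu => ?_, ?_⟩
  · have s0 : M₀.Spanning (M₀.E \ I₀) := by
      have := h0.coindep.compl_spanning
      rwa [d0] at this
    have s1 : M₁.Spanning (M₁.E \ I₁) := by
      have := h1.coindep.compl_spanning
      rwa [d1] at this
    refine h _ _ s0 s1 (Set.disjoint_left.2 fun x hx0 hx1 => ?_)
    have hx : x ∈ I₀ ∪ I₁ := hu ▸ Set.mem_univ x
    exact hx.elim hx0.2 hx1.2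
  · rintro ⟨P, C, S₀, S₁, I₀, I₁, hPC, hd, hS0, hS1, hS, c0, c1, -, -, i0, i1, hI⟩
    refine h _ _ (Crest.Agent.R53.spanning_of_partition e0 d0 hPC hS0 c0 i0)
      (Crest.Agent.R53.spanning_of_partition e1 d1 hPC hS1 c1 i1)
      (Set.disjoint_left.2 ?_)
    rintro x (hx0 | hx0) (hx1 | hx1)
    · exact Set.disjoint_left.1 hS hx0 hx1
    · exact Set.disjoint_left.1 hd (hS0 hx0) hx1.1
    · exact Set.disjoint_left.1 hd (hS1 hx1) hx0.1
    · have hx : x ∈ I₀ ∪ I₁ := hI ▸ hx0.1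
      exact hx.elim hx0.2 hx1.2

end Crest.Agent.S0074
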