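import Crest.Statements.S0075
import Crest.Agent.R54.Main

set_option autoImplicit false
open Crest Crest.CombinatoricsR

namespace Crest.Agent.S0075

/-- Let m ≥ n ≥ 3 be natural numbers with (m, n) ≠ (3, 3), and let G be a simple graph on a finite vertex type with exactly (m - 1)(n - 1) + 1 vertices. Then G contains a cycle of length exactly m (a closed walk of length m repeating no vertex or edge) or n vertices that are pairwise non-adjacent in G. -/
theorem result (m n : ℕ) (hn : 3 ≤ n) (hnm : n ≤ m)
    (h33 : ¬ (m = 3 ∧ n = 3)) (V : Type) [Fintype V] [DecidableEq V]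
    (hV : Fintype.card V = (m - 1) * (n - 1) + 1) (G : SimpleGraph V) :
    (∃ v : V, ∃ p : G.Walk v v, p.IsCycle ∧ p.length = m) ∨ (∃ s : Finset V, Gᶜ.IsNClique n s) := by
  have hm : 4 ≤ m := by omega
  rcases Crest.Agent.R54.ramsey (m - 1) (by omega) (n - 1) (by omega) V G Finset.univ
    (by rw [Finset.card_univ, hV]) with h | ⟨I, -, hI, hc⟩
  · left
    have h' := h.walk
    rwa [Nat.sub_add_cancel (by omega : 1 ≤ m)] at h'
  · right
    refine ⟨I, ?_⟩
    have h' := hI.isNClique
    rwa [hc, Nat.sub_add_cancel (by omega : 1 ≤ n)] at h'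

end Crest.Agent.S0075
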