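import Crest.Statements.S0077
import Crest.Agent.R56.Russo

set_option autoImplicit false
open Crest Crest.CombinatoricsR

namespace Crest.Agent.S0077

/-- Let n ≥ 2 and let P be a family of simple graphs on n labelled vertices that is invariant under renaming vertices, closed under adding edges, non-empty and not everything; let 0 < ε < 1/2. If the binomial random graph with edge probability p ∈ [0, 1] lies in P with probability at least ε, then at every edge probability q ∈ [0, 1] with q ≥ p + 2^19 · log(1/(2ε)) / (log n)² it lies in P with probability at least 1 - ε: the threshold interval from ε to 1 - ε is at most that long. -/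
theorem result (n : ℕ) (hn : 2 ≤ n)
    (P : Set (SimpleGraph (Fin n)))
    (hsymm : ∀ σ : Equiv.Perm (Fin n), ∀ G : SimpleGraph (Fin n), G ∈ P → G.map σ.toEmbedding ∈ P)
    (hmono : ∀ G G' : SimpleGraph (Fin n), G ≤ G' → G ∈ P → G' ∈ P)
    (hne : P.Nonempty) (hnu : P ≠ Set.univ) (ε : ℝ) (hε0 : 0 < ε) (hε : ε < 1 / 2)
    (p q : ℝ) (hp0 : 0 ≤ p) (hp1 : p ≤ 1) (hq0 : 0 ≤ q) (hq1 : q ≤ 1)
    (hp : ε ≤ Crest.CombinatoricsR.RandomGraph.gnpProb n p P)
    (hq : p + 2 ^ 19 / Real.log n ^ 2 * Real.log (1 / (2 * ε)) ≤ q) :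
    1 - ε ≤ Crest.CombinatoricsR.RandomGraph.gnpProb n q P := by
  classical
  set F : (RandomGraph.EdgeSlot n → Bool) → ℝ :=
    fun x => if RandomGraph.graphOf x ∈ P then 1 else 0 with hF
  have hadj : ∀ (x : RandomGraph.EdgeSlot n → Bool) (a b : Fin n),
      (RandomGraph.graphOf x).Adj a b ↔ ∃ h : ¬ (s(a, b) : Sym2 (Fin n)).IsDiag,
        x ⟨s(a, b), h⟩ = true := by
    intro x a b
    simp only [RandomGraph.graphOf, SimpleGraph.fromEdgeSet_adj, Set.mem_setOf_eq]
    constructor
    · exact fun h => h.1
    · rintro ⟨h, hx⟩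
      exact ⟨⟨h, hx⟩, by simpa using h⟩
  have H : R56.SymData (fun e : RandomGraph.EdgeSlot n => e.1.toFinset) 2 F := by
    refine ⟨fun e => ?_, fun e e' h => ?_, fun x => ?_, fun u v => ?_⟩
    · exact Sym2.card_toFinset_of_not_isDiag _ e.2
    · apply Subtype.ext
      apply Sym2.ext
      intro w
      have h' : e.1.toFinset = e'.1.toFinset := h
      rw [← Sym2.mem_toFinset, h', Sym2.mem_toFinset]
    · simp only [hF]; split_ifs <;> simp
    · let m : RandomGraph.EdgeSlot n → RandomGraph.EdgeSlot n := fun e =>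
        ⟨e.1.map (Equiv.swap u v), by
          rw [Sym2.isDiag_map (Equiv.swap u v).injective]; exact e.2⟩
      have inv : ∀ e, m (m e) = e := by
        intro e
        apply Subtype.ext
        simp only [m, Sym2.map_map]
        have : (Equiv.swap u v) ∘ (Equiv.swap u v) = id := by
          funext w; simp
        rw [this, Sym2.map_id]; rfl
      have hg : ∀ x : RandomGraph.EdgeSlot n → Bool, RandomGraph.graphOf (x ∘ m)
          = (RandomGraph.graphOf x).map (Equiv.swap u v).toEmbedding := by
        intro x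
        ext a b
        rw [SimpleGraph.map_adj, hadj]
        constructor
        · rintro ⟨h, hx⟩
          refine ⟨Equiv.swap u v a, Equiv.swap u v b, ?_, by simp, by simp⟩
          rw [hadj]
          exact ⟨(m ⟨s(a, b), h⟩).2, hx⟩
        · rintro ⟨a', b', hab, rfl, rfl⟩
          rw [hadj] at hab
          obtain ⟨h, hx⟩ := hab
          refine ⟨(m ⟨s(a', b'), h⟩).2, ?_⟩
          have := inv ⟨s(a', b'), h⟩
          change x (m (m ⟨s(a', b'), h⟩)) = true
          rw [this]; exact hx
      refine ⟨⟨m, m, inv, inv⟩, fun e => ?_, fun x => ?_⟩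
      · ext w
        change w ∈ (e.1.map (Equiv.swap u v)).toFinset ↔ _
        simp only [Sym2.mem_toFinset, Sym2.mem_map, Finset.mem_map, Equiv.coe_toEmbedding]
      · change F (x ∘ m) = F x
        have hiff : RandomGraph.graphOf (x ∘ m) ∈ P ↔ RandomGraph.graphOf x ∈ P := by
          constructor
          · intro h
            have h2 := hsymm (Equiv.swap u v) _ h
            rw [← hg] at h2
            have : (x ∘ m) ∘ m = x := by funext e; simp [inv]
            rwa [this] at h2
          · intro h
            rw [hg]; exact hsymm _ _ h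
        simp only [hF, hiff]
  have e1 : ∀ t, RandomGraph.gnpProb n t P = Lib.BiasedCube.ex t F := by
    intro t
    unfold RandomGraph.gnpProb
    rw [R56.prob_eq_ex]
    refine Lib.BiasedCube.ex_congr t fun x => ?_
    simp [hF]
  have hn' : (2 : ℝ) ≤ n := by exact_mod_cast hn
  have hL : 0 < Real.log n := Real.log_pos (by linarith)
  have hmon : ∀ i x, 0 ≤ Lib.BiasedCube.dv i F x := by
    intro i x
    have hle : RandomGraph.graphOf (Function.update x i false)
        ≤ RandomGraph.graphOf (Function.update x i true) := by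
      intro a b hab
      rw [hadj] at hab ⊢
      obtain ⟨h, hx⟩ := hab
      refine ⟨h, ?_⟩
      by_cases hi : (⟨s(a, b), h⟩ : RandomGraph.EdgeSlot n) = i
      · rw [hi]; simp
      · rwa [Function.update_of_ne hi] at hx ⊢
    simp only [Lib.BiasedCube.dv, hF]
    have := hmono _ _ hle
    split_ifs <;> simp_all
  rw [e1] at hp ⊢
  refine R56.window hmon (c := Real.log n ^ 2 / 2 ^ 17) (by positivity) ?_ hε0 hε hp0 hq1 hp ?_
  · intro t h0 h1
    have key := R56.var_le H h0 h1 le_rfl hn
    have hI : 0 ≤ ∑ e, Lib.BiasedCube.infl t F e :=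
      Finset.sum_nonneg fun e _ => Lib.BiasedCube.infl_nonneg h0.le h1.le _ _
    have e : ((2 : ℕ) : ℝ) / (((2 : ℕ) : ℝ) - 1) = 2 := by norm_num
    rw [e, Real.rpow_two] at key
    calc _ ≤ Real.log n ^ 2 / 2 ^ 17 * (2048 * ((2 : ℕ) : ℝ) * 2 ^ 2 / Real.log n ^ 2 *
          ∑ e, Lib.BiasedCube.infl t F e) := mul_le_mul_of_nonneg_left key (by positivity)
      _ = 1 / 8 * ∑ e, Lib.BiasedCube.infl t F e := by
          field_simp; push_cast; ring
      _ ≤ _ := by linarith
  · have : 4 / (Real.log n ^ 2 / 2 ^ 17) = 2 ^ 19 / Real.log n ^ 2 := by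
      field_simp; norm_num
    rw [this]; exact hq

end Crest.Agent.S0077
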