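import Crest.Statements.S0078
import Crest.Agent.R56.Russo

set_option autoImplicit false
open Crest Crest.CombinatoricsR

namespace Crest.Agent.S0078

/-- For every r ≥ 3 there is a real constant C such that for all n ≥ r, all 0 < p < 1 and every Boolean function f of the simple r-uniform hypergraph on n labelled vertices that is invariant under renaming the vertices (no monotonicity assumed), the variance of f under independent edge-coins of bias p, namely P(f = true) · (1 - P(f = true)), is at most C · (log n)^(-r/(r-1)) times the total pivotal influence of f at bias p (natural logarithm). -/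
theorem result (r : ℕ) (hr : 3 ≤ r) :
    ∃ C : ℝ, ∀ n : ℕ, r ≤ n → ∀ p : ℝ, 0 < p → p < 1 →
      ∀ f : (Crest.CombinatoricsR.HypergraphCube.HyperedgeSlot n r → Bool) → Bool,
        Crest.CombinatoricsR.HypergraphCube.IsSymmetric f →
          Crest.CombinatoricsR.HypergraphCube.probTrue p f *
              (1 - Crest.CombinatoricsR.HypergraphCube.probTrue p f) ≤
            C / Real.log n ^ ((r : ℝ) / ((r : ℝ) - 1)) *
              Crest.CombinatoricsR.HypergraphCube.totalInfluence p f := by
  classical
  refine ⟨2048 * r * 2 ^ r, fun n hn p h0 h1 f hf => ?_⟩
  set F : (HypergraphCube.HyperedgeSlot n r → Bool) → ℝ := fun x => if f x = true then 1 else 0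
    with hF
  have H : R56.SymData (fun e : HypergraphCube.HyperedgeSlot n r => e.1) r F := by
    refine ⟨fun e => e.2, Subtype.val_injective, fun x => ?_, fun u v => ?_⟩
    · simp only [hF]; split_ifs <;> simp
    · have inv : ∀ e : HypergraphCube.HyperedgeSlot n r,
          HypergraphCube.relabelSlot (Equiv.swap u v)
            (HypergraphCube.relabelSlot (Equiv.swap u v) e) = e := by
        intro e
        apply Subtype.ext
        ext w
        simp [HypergraphCube.relabelSlot]
      refine ⟨⟨HypergraphCube.relabelSlot (Equiv.swap u v),
        HypergraphCube.relabelSlot (Equiv.swap u v), inv, inv⟩, fun e => rfl, fun x => ?_⟩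
      have := hf (Equiv.swap u v) x
      simp only [hF]
      rw [← this]
      rfl
  have key := R56.var_le H h0 h1 (by omega) (by omega)
  have e1 : HypergraphCube.probTrue p f = Lib.BiasedCube.ex p F := by
    unfold HypergraphCube.probTrue
    rw [R56.prob_eq_ex]
    refine Lib.BiasedCube.ex_congr p fun x => ?_
    simp [hF]
  have e2 : HypergraphCube.totalInfluence p f = ∑ e, Lib.BiasedCube.infl p F e := by
    unfold HypergraphCube.totalInfluence HypergraphCube.pivotalInfluence
    refine Finset.sum_congr rfl fun e _ => ?_
    rw [R56.prob_eq_ex]
    refine Lib.BiasedCube.ex_congr p fun x => ?_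
    simp only [Lib.BiasedCube.dv, hF, Set.mem_setOf_eq]
    cases f (Function.update x e true) <;> cases f (Function.update x e false) <;> simp
  rw [e1, e2]
  exact key

end Crest.Agent.S0078
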