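import Crest.Statements.S0079
import Crest.Agent.R57.Square

set_option autoImplicit false
open Crest Crest.CombinatoricsR

namespace Crest.Agent.S0079

/-- Every finite oriented graph (an irreflexive adjacency relation with no pair of opposite arcs) on a nonempty vertex set has a vertex v whose first out-neighbourhood is no larger than its second out-neighbourhood, the set of vertices other than v that are not out-neighbours of v but are reached from v by a directed path of length two. -/
theorem result
    (V : Type*) [Fintype V] [Nonempty V] (G : Digraph V)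
    (hloop : ∀ v, ¬ G.Adj v v) (hopp : ∀ u v, G.Adj u v → ¬ G.Adj v u) :
    ∃ v : V, Set.ncard {u | G.Adj v u} ≤
      Set.ncard {w | w ≠ v ∧ ¬ G.Adj v w ∧ ∃ u, G.Adj v u ∧ G.Adj u w} := by
  classical
  by_contra h
  push Not at h
  refine R57.not_bad G.Adj hloop hopp fun v => ?_
  have h1 : {u | G.Adj v u} = ↑(R57.F G.Adj {v}) := by
    ext u
    simp [R57.mem_F]
  have h2 : {w | w ≠ v ∧ ¬ G.Adj v w ∧ ∃ u, G.Adj v u ∧ G.Adj u w}
      = ↑(R57.F G.Adj (R57.F G.Adj {v}) \ R57.F G.Adj {v}) := by
    ext w
    simp only [Set.mem_setOf_eq, Finset.coe_sdiff, Set.mem_diff, Finset.mem_coe, R57.mem_F,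
      Finset.mem_singleton, exists_eq_left]
    constructor
    · rintro ⟨-, h3, h4⟩
      exact ⟨h4, h3⟩
    · rintro ⟨⟨u, h3, h4⟩, h5⟩
      refine ⟨?_, h5, u, h3, h4⟩
      rintro rfl
      exact hopp _ _ h3 h4
  have := h v
  rw [h1, h2, Set.ncard_coe_finset, Set.ncard_coe_finset] at this
  exact this

end Crest.Agent.S0079
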