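import Crest.Statements.S0081
import Crest.Agent.R59.F3

set_option autoImplicit false
open Crest.CombinatoricsR.UnitInterval
open Crest Crest.CombinatoricsR

namespace Crest.Agent.S0081

/-- For every natural unit interval graph on Fin n (given by a weakly increasing h with i+1 ≤ h i ≤ n; a < b adjacent when b+1 ≤ h a) there is an assignment θ of a partition of n to each permutation in the graph's descent set (every adjacent descent joins adjacent vertices) such that, in any number N of variables, the chromatic quasisymmetric function equals Σ_σ q^(graph-inversions of σ) · e_(θ σ). In particular all its elementary-basis coefficients lie in ℕ[q]. -/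
theorem result :
    ∀ (n : ℕ) (h : Fin n → ℕ), IsHessenberg h →
      ∃ θ : {σ : Equiv.Perm (Fin n) // σ ∈ descentSet h} → Nat.Partition n,
        ∀ N : ℕ, chromaticQSym h N =
          ∑ σ : {σ : Equiv.Perm (Fin n) // σ ∈ descentSet h},
            MvPolynomial.C (Polynomial.X ^ ginv h σ.1) *
              MvPolynomial.esymmPart (Fin N) (Polynomial ℤ) (θ σ) :=
  fun n h hh => Crest.Agent.R59.main n h hh

end Crest.Agent.S0081
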