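import Crest.Statements.S0084
import Crest.Agent.R62.Main
import Crest.Agent.R62.AlgPT2

set_option autoImplicit false
open Classical
open scoped Matrix
open Crest Crest.CombinatoricsR

namespace Crest.Agent.S0084

/-- For every d ≥ 3 there are a threshold n₀ and a polynomial-time map F on bit strings such that for every even n ≥ n₀, reading the output of F on the unary string of length n as an n × n adjacency bit matrix gives a simple d-regular graph on n vertices all of whose adjacency eigenvalues on the space orthogonal to the constant vector lie strictly between -2√(d-1) and 2√(d-1): for every non-zero real vector x with zero coordinate sum, the absolute value of xᵀ A x is less than 2√(d-1) · xᵀ x. -/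
theorem result (d : ℕ) (hd : 3 ≤ d) :
    ∃ n₀ : ℕ, ∃ F : List Bool → List Bool, Crest.Complexity.PolyTime F ∧
      ∀ n : ℕ, n₀ ≤ n → Even n →
        (Crest.CombinatoricsR.GraphCode.adjGraph n
            (F (Crest.CombinatoricsR.GraphCode.unary n))).IsRegularOfDegree d ∧
        ∀ x : Fin n → ℝ, ∑ i, x i = 0 → x ≠ 0 →
          |x ⬝ᵥ ((Crest.CombinatoricsR.GraphCode.adjGraph n
              (F (Crest.CombinatoricsR.GraphCode.unary n))).adjMatrix ℝ *ᵥ x)| <
            2 * Real.sqrt ((d : ℝ) - 1) * (x ⬝ᵥ x) := by
  obtain ⟨k, rfl⟩ : ∃ k, d = k + 1 := ⟨d - 1, by omega⟩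
  have hk : 2 ≤ k := by omega
  refine ⟨2 ^ (12000 * (12000 + 2 * k + 4)), R62.outL k, R62.polyTime_outL k, fun n hn he => ?_⟩
  obtain ⟨h1, h2⟩ := R62.finE_spec (n := n) (k := k) hn he hk
  rw [R62.adjGraph_outL]
  refine ⟨h1.regular, fun x hx h0 => ?_⟩
  have h3 := h2.empty x hx h0
  rw [R62.qf_eq] at h3
  have e : ((k + 1 : ℕ) : ℝ) - 1 = k := by push_cast; ring
  rw [e]
  exact h3

end Crest.Agent.S0084
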