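import Crest.Statements.S0091
import Crest.Agent.R68.Fin3

set_option autoImplicit false
open MeasureTheory
open scoped ENNReal
open Crest.AnalysisR.VecCalc3 Crest.AnalysisR.PDE.Boltzmann
open Crest Crest.AnalysisR Crest.AnalysisR.PDE Crest.AnalysisR.PDE.Boltzmann

namespace Crest.Agent.S0091

/-- Nonuniqueness for the hard-sphere Boltzmann equation on ℝ³/ℤ³: a nonnegative periodic datum with bounded velocities and finite mass, energy, entropy admits two global solutions differing on a positive-measure set: nonnegative weak solutions (smooth periodic tests) with local conservation of mass, momentum, energy, conserved total momentum, ∫‖v‖²F(t) ≤ ∫‖v‖²F₀, H_M(F(t)) + ∫₀ᵗ D(F) ≤ H_M(F₀), locally bounded mass, energy, entropy, strong L¹ continuity, weighted-integrable gain and loss. -/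
theorem result :
    ∃ R : ℝ, ∃ F₀ : R3 → R3 → ℝ, IsAdmissibleDatum F₀ R ∧
      ∃ F₁ F₂ : ℝ → R3 → R3 → ℝ, IsGlobalSolution F₁ F₀ ∧ IsGlobalSolution F₂ F₀ ∧
        0 < volume {p : ℝ × R3 × R3 | p ∈ region ∧ F₁ p.1 p.2.1 p.2.2 ≠ F₂ p.1 p.2.1 p.2.2} :=
  Crest.Agent.R68.final

end Crest.Agent.S0091
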