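import Crest.Statements.S0094
import Crest.Agent.R71.Label

set_option autoImplicit false
open Pointwise Crest.AnalysisR
open Crest Crest.AnalysisR

namespace Crest.Agent.S0094

/-- the geometric part: a body built from finitely many vectors -/
lemma geom {n : ℕ} {U L : Type} [Fintype U] [Nonempty U] (f : U → EuclideanSpace ℝ (Fin n))
    {a : ℝ} (ha : 1 ≤ a) (Λ : Finset L) (label : EuclideanSpace ℝ (Fin n) → L)
    (h1 : ∀ y : EuclideanSpace ℝ (Fin n), ∑ i, |y i| ≤ 1 → label y ∈ Λ)
    (h2 : ∀ y y' : EuclideanSpace ℝ (Fin n), ∑ i, |y i| ≤ 1 → ∑ i, |y' i| ≤ 1 →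
      label y = label y' → ∀ u, |inner ℝ (f u) (y - y')| ≤ 1 / (2 * a)) :
    ∃ K : Set (EuclideanSpace ℝ (Fin n)),
      Convex ℝ K ∧ IsCompact K ∧ (interior K).Nonempty ∧ (∀ x ∈ K, -x ∈ K) ∧ (∀ u, f u ∈ K) ∧
      ∃ t₁ : Finset (EuclideanSpace ℝ (Fin n)), t₁.card ≤ Λ.card ∧
        polarSet {x : EuclideanSpace ℝ (Fin n) | ∀ i, |x i| ≤ 1} ⊆
          ⋃ y ∈ t₁, (y +ᵥ a⁻¹ • polarSet K) := by
  classical
  have ha0 : 0 < a := by linarith
  set P : Set (EuclideanSpace ℝ (Fin n)) := Set.range f ∪ Set.range (fun u => -f u) with hP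
  have hPfin : P.Finite := (Set.finite_range _).union (Set.finite_range _)
  set η : ℝ := 1 / (4 * a) with hη
  have hη0 : 0 < η := by positivity
  have hfP : ∀ u, f u ∈ convexHull ℝ P := fun u => subset_convexHull ℝ P (Or.inl ⟨u, rfl⟩)
  have hl1 : ∀ y : EuclideanSpace ℝ (Fin n),
      y ∈ polarSet {x : EuclideanSpace ℝ (Fin n) | ∀ i, |x i| ≤ 1} → ∑ i, |y i| ≤ 1 := by
    intro y hy
    have := hy (WithLp.toLp 2 (fun i => if 0 ≤ y i then (1 : ℝ) else -1)) (by
      intro i
      simp only
      split_ifs <;> simp)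
    rw [PiLp.inner_apply] at this
    refine le_trans (le_of_eq ?_) this
    apply Finset.sum_congr rfl
    intro i _
    simp only [RCLike.inner_apply, conj_trivial]
    split_ifs with h
    · rw [abs_of_nonneg h, mul_one]
    · rw [abs_of_neg (not_le.mp h)]; ring
  have hnorm : ∀ y : EuclideanSpace ℝ (Fin n), ∑ i, |y i| ≤ 1 → ‖y‖ ≤ 1 := by
    intro y hy
    rw [EuclideanSpace.norm_eq, Real.sqrt_le_left zero_le_one, one_pow]
    refine le_trans (Finset.sum_le_sum fun i _ => ?_) hy
    have : |y i| ≤ 1 := (Finset.single_le_sum (f := fun i => |y i|) (fun i _ => abs_nonneg _)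
      (Finset.mem_univ i)).trans hy
    rw [Real.norm_eq_abs]
    nlinarith [abs_nonneg (y i)]
  refine ⟨convexHull ℝ P + Metric.closedBall 0 η, (convex_convexHull ℝ P).add (convex_closedBall _ _),
    (hPfin.isCompact_convexHull ℝ).add (isCompact_closedBall _ _), ?_, ?_, ?_, ?_⟩
  · refine ⟨f (Classical.arbitrary U), mem_interior.mpr ⟨Metric.ball (f (Classical.arbitrary U)) η,
      fun x hx => ?_, Metric.isOpen_ball, Metric.mem_ball_self hη0⟩⟩
    refine ⟨_, hfP (Classical.arbitrary U), x - f (Classical.arbitrary U), ?_, by simp⟩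
    rw [mem_closedBall_zero_iff, ← dist_eq_norm]
    exact (Metric.mem_ball.mp hx).le
  · rintro _ ⟨p, hp, z, hz, rfl⟩
    refine ⟨-p, ?_, -z, by simpa using hz, by simp only; abel⟩
    have hneg : -P = P := by
      ext x
      simp only [hP, Set.mem_neg, Set.mem_union, Set.mem_range]
      constructor
      · rintro (⟨u, hu⟩ | ⟨u, hu⟩)
        · exact Or.inr ⟨u, by rw [hu, neg_neg]⟩
        · exact Or.inl ⟨u, neg_injective hu⟩
      · rintro (⟨u, hu⟩ | ⟨u, hu⟩)
        · exact Or.inr ⟨u, by rw [hu]⟩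
        · exact Or.inl ⟨u, by rw [← hu, neg_neg]⟩
    rw [← hneg, convexHull_neg]
    simpa using hp
  · intro u
    exact ⟨f u, hfP u, 0, Metric.mem_closedBall_self hη0.le, by simp⟩
  · let rep : L → EuclideanSpace ℝ (Fin n) := fun l =>
      if h : ∃ y : EuclideanSpace ℝ (Fin n), ∑ i, |y i| ≤ 1 ∧ label y = l then h.choose else 0
    refine ⟨Λ.image rep, Finset.card_image_le, fun y hy => ?_⟩
    have hy1 := hl1 y hy
    have hex : ∃ y' : EuclideanSpace ℝ (Fin n), ∑ i, |y' i| ≤ 1 ∧ label y' = label y := ⟨y, hy1, rfl⟩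
    have hrep : ∑ i, |rep (label y) i| ≤ 1 ∧ label (rep (label y)) = label y := by
      simp only [rep, dif_pos hex]
      exact hex.choose_spec
    set y' := rep (label y) with hy'
    refine Set.mem_iUnion₂.mpr ⟨y', Finset.mem_image_of_mem _ (h1 y hy1), a⁻¹ • (a • (y - y')),
      ⟨a • (y - y'), ?_, rfl⟩, ?_⟩
    · rintro _ ⟨p, hp, z, hz, rfl⟩
      have hp' : inner ℝ p (y - y') ≤ 1 / (2 * a) := by
        have hc : Convex ℝ {p : EuclideanSpace ℝ (Fin n) | inner ℝ p (y - y') ≤ 1 / (2 * a)} := by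
          apply convex_halfSpace_le
          exact ⟨fun x z => inner_add_left _ _ _, fun c x => real_inner_smul_left _ _ _⟩
        refine convexHull_min ?_ hc hp
        rintro _ (⟨u, rfl⟩ | ⟨u, rfl⟩)
        · exact (abs_le.mp (h2 y y' hy1 hrep.1 hrep.2.symm u)).2
        · have := (abs_le.mp (h2 y y' hy1 hrep.1 hrep.2.symm u)).1
          simp only [Set.mem_ofPred_eq, inner_neg_left]
          linarith
      have hz' : inner ℝ z (y - y') ≤ η * 2 := by
        refine (real_inner_le_norm _ _).trans ?_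
        have h3 : ‖y - y'‖ ≤ 2 := (norm_sub_le _ _).trans (by linarith [hnorm y hy1, hnorm y' hrep.1])
        rw [mem_closedBall_zero_iff] at hz
        gcongr
      simp only
      rw [real_inner_smul_right, inner_add_left]
      calc a * (inner ℝ p (y - y') + inner ℝ z (y - y')) ≤ a * (1 / (2 * a) + η * 2) := by gcongr
        _ = 1 := by rw [hη]; field_simp; norm_num
    · simp only [smul_smul, inv_mul_cancel₀ ha0.ne', one_smul, vadd_eq_add]
      abel


/-- For all real a, b ≥ 1 there are n ≥ 1 and a compact convex set K in Euclidean n-space with nonempty interior, symmetric about 0, such that, with L the cube of points having all coordinates in [-1, 1] and polars taken for the standard inner product (the y pairing to at most 1 with each point of the set): some m translates of a⁻¹ • (polar of K) cover the polar of L, while any k translates of L covering K satisfy b * log m < log k. So log N(K, L) > b log N(L°, a⁻¹K°) for covering numbers N. -/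
theorem result
    (a b : ℝ) (ha : 1 ≤ a) (hb : 1 ≤ b) :
    ∃ n : ℕ, 0 < n ∧ ∃ K : Set (EuclideanSpace ℝ (Fin n)),
      Convex ℝ K ∧ IsCompact K ∧ (interior K).Nonempty ∧ (∀ x ∈ K, -x ∈ K) ∧
      ∃ t₁ : Finset (EuclideanSpace ℝ (Fin n)),
        polarSet {x : EuclideanSpace ℝ (Fin n) | ∀ i, |x i| ≤ 1} ⊆ ⋃ y ∈ t₁, (y +ᵥ a⁻¹ • polarSet K) ∧
        ∀ t₂ : Finset (EuclideanSpace ℝ (Fin n)),
          K ⊆ ⋃ x ∈ t₂, (x +ᵥ {z : EuclideanSpace ℝ (Fin n) | ∀ i, |z i| ≤ 1}) →
          b * Real.log t₁.card < Real.log t₂.card := by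
  classical
  have ha0 : 0 < a := by linarith
  have hb0 : 0 < b := by linarith
  obtain ⟨A, hA⟩ := exists_nat_gt (36 * a)
  have hA0 : (0 : ℝ) < A := by linarith
  set δ : ℝ := 1 / (36 * a * A) with hδ
  set κ : ℝ := 1 / (2 * b * A * 2 ^ A) with hκ
  obtain ⟨E, S, _, _, _, alive, φ, h⟩ := R71.exists_sys (δ := δ) (κ := κ) (by positivity)
    (by positivity) A
  set N := Fintype.card E with hN
  have hN0 : 0 < N := Fintype.card_pos
  have hN0' : (0 : ℝ) < N := by exact_mod_cast hN0
  set r : ℕ := ⌊A * κ * N⌋₊ with hr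
  set w : ℕ := ⌈(N : ℝ) / 2 ^ A⌉₊ with hw
  have hw1 : (1 : ℝ) ≤ w := by
    have : 0 < w := Nat.ceil_pos.mpr (by positivity)
    exact_mod_cast this
  have hwN : w ≤ N := by
    rw [hw, Nat.ceil_le]
    exact div_le_self hN0'.le (one_le_pow₀ (by norm_num))
  have hrw : b * r ≤ w / 2 := by
    have h1 : (r : ℝ) ≤ A * κ * N := Nat.floor_le (by positivity)
    have h2 : (N : ℝ) / 2 ^ A ≤ w := Nat.le_ceil _
    calc b * r ≤ b * (A * κ * N) := by gcongr
      _ = (N / 2 ^ A) / 2 := by rw [hκ]; field_simp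
      _ ≤ _ := by gcongr
  set T := Fintype.card (S × Finset (Fin r)) with hT
  obtain ⟨M, hM⟩ := exists_nat_gt (18 * a * T)
  have hM0' : (0 : ℝ) < M := lt_of_le_of_lt (by positivity) hM
  have hM0 : 0 < M := by exact_mod_cast hM0'
  set D : ℝ := b * (r * Real.log N + T * Real.log (2 * M + 1)) + N * Real.log 2 with hD
  obtain ⟨q, hq⟩ := exists_nat_gt (Real.exp (2 * D))
  have hq0' : (0 : ℝ) < q := (Real.exp_pos _).trans hq
  have hq0 : 0 < q := by exact_mod_cast hq0'
  have hlogq : 2 * D < Real.log q := by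
    rw [Real.lt_log_iff_exp_lt hq0']; exact hq
  have : Nonempty (Fin q) := ⟨⟨0, hq0⟩⟩
  obtain ⟨L, Λ, label, hΛ, hlab1, hlab2⟩ := R71.exists_label h (Fin q) r
    (Nat.lt_floor_add_one _) M hM0
  have : Nonempty S := by
    obtain ⟨t, -⟩ := h.sep ∅ (by simpa using hN0)
    exact ⟨t⟩
  set n := Fintype.card (S × (E → Fin q)) with hn
  let eqv : S × (E → Fin q) ≃ Fin n := Fintype.equivFin _
  set c : ℝ := 3 / (A + 1) with hc
  have hc0 : 0 < c := by positivity
  let f : (E → Fin q) → EuclideanSpace ℝ (Fin n) := fun u =>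
    WithLp.toLp 2 (fun i => c * φ (eqv.symm i).1 {e | u e = (eqv.symm i).2 e})
  obtain ⟨K, hK1, hK2, hK3, hK4, hK5, t₁, ht1, ht2⟩ := geom f ha Λ
    (fun y => label (fun x => y (eqv x)))
    (fun y hy => hlab1 _ (by rw [eqv.sum_comp (fun i => |y i|)]; exact hy))
    (by
      intro y y' hy hy' hl u
      have h1 := hlab2 _ _ (by rw [eqv.sum_comp (fun i => |y i|)]; exact hy)
        (by rw [eqv.sum_comp (fun i => |y' i|)]; exact hy') hl u
      have h2 : inner ℝ (f u) (y - y') = c * ∑ x : S × (E → Fin q),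
          (φ x.1 {e | u e = x.2 e} : ℝ) * (y (eqv x) - y' (eqv x)) := by
        rw [PiLp.inner_apply, ← eqv.sum_comp, Finset.mul_sum]
        apply Finset.sum_congr rfl
        intro x _
        simp only [f, RCLike.inner_apply, conj_trivial, Equiv.symm_apply_apply, PiLp.sub_apply]
        ring
      rw [h2, abs_mul, abs_of_pos hc0]
      refine (mul_le_mul_of_nonneg_left h1 hc0.le).trans ?_
      have e1 : c * (2 * (1 + (A + 1) * (A * δ)) + (A + 1) * T / M) =
          6 / (A + 1) + 1 / (6 * a) + 3 * T / M := by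
        rw [hc, hδ]; field_simp; ring
      rw [e1]
      have e2 : 6 / ((A : ℝ) + 1) ≤ 1 / (6 * a) := by
        rw [div_le_div_iff₀ (by positivity) (by positivity)]; linarith
      have e3 : 3 * (T : ℝ) / M ≤ 1 / (6 * a) := by
        rw [div_le_div_iff₀ (by positivity) (by positivity)]; linarith
      have e4 : 1 / (2 * a) = 1 / (6 * a) + 1 / (6 * a) + 1 / (6 * a) := by field_simp; norm_num
      linarith)
  refine ⟨n, Fintype.card_pos, K, hK1, hK2, hK3, hK4, t₁, ht2, fun t₂ ht₂ => ?_⟩
  have hcov : ∀ u, ∃ x ∈ t₂, ∀ i, |f u i - x i| ≤ 1 := by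
    intro u
    obtain ⟨x, hx, z, hz, hzx⟩ := Set.mem_iUnion₂.mp (ht₂ (hK5 u))
    refine ⟨x, hx, fun i => ?_⟩
    have : f u i = x i + z i := by rw [← hzx]; rfl
    rw [this, add_sub_cancel_left]
    exact hz i
  choose ctr hctr1 hctr2 using hcov
  have hfib : ∀ x ∈ t₂, (Finset.univ.filter (fun v => ctr v = x)).card ≤ 2 ^ N * q ^ (N - w) := by
    intro x _
    by_cases hx : (Finset.univ.filter (fun v => ctr v = x)).Nonempty
    · obtain ⟨u, hu⟩ := hx
      have hu' := (Finset.mem_filter.mp hu).2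
      have h1 := R71.card_agree_le u w
      rw [Fintype.card_fin] at h1
      refine le_trans (Finset.card_le_card fun v hv => ?_) h1
      have hv' := (Finset.mem_filter.mp hv).2
      refine Finset.mem_filter.mpr ⟨Finset.mem_univ _, ?_⟩
      by_contra hcon
      rw [not_le, hw, Nat.lt_ceil, lt_div_iff₀ (by positivity)] at hcon
      have hcon' : (Finset.univ.filter (fun e => v e = u e)).card * 2 ^ A < N := by
        convert (show _ * 2 ^ A < N by exact_mod_cast hcon)
      obtain ⟨t, ht⟩ := h.sep (Finset.univ.filter (fun e => v e = u e)) hcon'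
      have e1 : f u (eqv (t, u)) = 3 := by
        simp only [f, Equiv.symm_apply_apply, Set.ofPred_true, h.top, hc]
        push_cast
        field_simp
      have e2 : f v (eqv (t, u)) = 0 := by
        have : φ t {e | v e = u e} = 0 := by
          by_contra h0
          obtain ⟨e, he1, he2⟩ := h.pos t _ (Nat.pos_of_ne_zero h0)
          exact ht e (Finset.mem_filter.mpr ⟨Finset.mem_univ _, he1⟩) he2
        simp only [f, Equiv.symm_apply_apply, this, Nat.cast_zero, mul_zero]
      have e3 := hctr2 u (eqv (t, u))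
      have e4 := hctr2 v (eqv (t, u))
      rw [e1, hu', abs_le] at e3
      rw [e2, hv', abs_le] at e4
      linarith [e3.2, e4.1]
    · rw [Finset.not_nonempty_iff_eq_empty.mp hx]; simp
  have hcount := Finset.card_le_mul_card_image_of_maps_to (s := Finset.univ) (t := t₂) (f := ctr)
    (fun u _ => hctr1 u) _ hfib
  rw [Finset.card_univ, Fintype.card_fun, Fintype.card_fin, ← hN] at hcount
  have hcount2 : q ^ w ≤ 2 ^ N * t₂.card := by
    apply Nat.le_of_mul_le_mul_right (c := q ^ (N - w)) _ (by positivity)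
    rw [← pow_add, Nat.add_sub_cancel' hwN]
    calc q ^ N ≤ _ := hcount
      _ = _ := by ring
  have hcount3 : (q : ℝ) ^ w ≤ 2 ^ N * t₂.card := by exact_mod_cast hcount2
  have ht20 : (0 : ℝ) < t₂.card := by
    by_contra hcon
    have h0 : (t₂.card : ℝ) = 0 := le_antisymm (not_lt.mp hcon) (Nat.cast_nonneg _)
    rw [h0, mul_zero] at hcount3
    exact absurd hcount3 (not_le.mpr (by positivity))
  have hlog2 : w * Real.log q ≤ N * Real.log 2 + Real.log t₂.card := by
    have := Real.log_le_log (by positivity) hcount3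
    rwa [Real.log_pow, Real.log_mul (by positivity) ht20.ne', Real.log_pow] at this
  have hlog1 : Real.log t₁.card ≤ r * (Real.log N + Real.log q) + T * Real.log (2 * M + 1) := by
    have h1 : (t₁.card : ℝ) ≤ ((N : ℝ) * q) ^ r * (2 * M + 1) ^ T := by
      rw [hΛ, Fintype.card_fin] at ht1
      exact_mod_cast ht1
    have h2 : Real.log t₁.card ≤ Real.log (((N : ℝ) * q) ^ r * (2 * M + 1) ^ T) := by
      rcases Nat.eq_zero_or_pos t₁.card with h0 | h0
      · rw [h0, Nat.cast_zero, Real.log_zero]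
        apply Real.log_nonneg
        have e1 : (1 : ℝ) ≤ N := by exact_mod_cast hN0
        have e2 : (1 : ℝ) ≤ q := by exact_mod_cast hq0
        apply one_le_mul_of_one_le_of_one_le
        · exact one_le_pow₀ (one_le_mul_of_one_le_of_one_le e1 e2)
        · exact one_le_pow₀ (by linarith)
      · exact Real.log_le_log (by exact_mod_cast h0) h1
    rwa [Real.log_mul (by positivity) (by positivity), Real.log_pow, Real.log_pow,
      Real.log_mul hN0'.ne' hq0'.ne'] at h2
  have hlq0 : 0 ≤ Real.log q := Real.log_nonneg (by exact_mod_cast hq0)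
  have h3 := mul_le_mul_of_nonneg_left hlog1 hb0.le
  have h4 := mul_le_mul_of_nonneg_right hrw hlq0
  have h5 := mul_le_mul_of_nonneg_right hw1 hlq0
  rw [hD] at hlogq
  nlinarith

end Crest.Agent.S0094
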