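import Crest.Statements.S0098
import Crest.Agent.R73.Main

set_option autoImplicit false
open Filter Crest.AnalysisR.CStarEmbedding
open Crest Crest.AnalysisR

namespace Crest.Agent.S0098

/-- There are a countable group `Γ`, a full group C⋆-algebra `(A, u)` of `Γ` and a universal C⋆-algebra `O` on two isometries with `s₁s₁⋆ + s₂s₂⋆ = 1`, each algebra given by generation and its universal property, such that for every free ultrafilter `ω` on `ℕ` no sequence of maps `A → O` induces a unital injective ⋆-homomorphism of `A` into the norm ultrapower `O^ω`. Thus some countable group's full group C⋆-algebra has no unital embedding into `O^ω`; the prover supplies the group. -/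
theorem result :
    ∃ (Γ : Type) (_ : Group Γ) (_ : Countable Γ) (A : Type) (_ : CStarAlgebra A) (u : Γ →* unitary A),
      IsFullGroupCStar A u ∧
      ∃ (O : Type) (_ : CStarAlgebra O) (s₁ s₂ : O), IsCuntzTwo O s₁ s₂ ∧
        ∀ ω : Ultrafilter ℕ, (∀ n : ℕ, (ω : Filter ℕ) ≠ pure n) →
          ¬ ∃ φ : ℕ → A → O, IsUltrapowerEmbedding ω A O φ := by
  refine ⟨R73.GG, inferInstance, inferInstance, R73.FullC R73.GG, inferInstance, R73.fullU R73.GG,
    R73.fullC_isFull R73.GG, R73.OO, inferInstance, _, _, R73.OO_isCuntzTwo, fun ω _ => ?_⟩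
  rintro ⟨φ, hφ⟩
  exact R73.no_embedding _ (R73.fullC_isFull R73.GG) ω φ hφ

end Crest.Agent.S0098
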