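import Crest.Statements.S0099
import Crest.Agent.R74.Final

set_option autoImplicit false
open Crest Crest.AnalysisR

namespace Crest.Agent.S0099

/-- Let X and Y be nonzero real Banach spaces and let f be a surjective distance-preserving map from the unit sphere of X onto the unit sphere of Y. Then there is a surjective real-linear isometry T from X to Y that agrees with f on the unit sphere, and every real-linear map from X to Y that agrees with f on the unit sphere coincides with T. -/
theorem result
    {X Y : Type*} [NormedAddCommGroup X] [NormedSpace ℝ X] [CompleteSpace X] [Nontrivial X]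
    [NormedAddCommGroup Y] [NormedSpace ℝ Y] [CompleteSpace Y] [Nontrivial Y]
    (f : Metric.sphere (0 : X) 1 → Metric.sphere (0 : Y) 1) (hf₁ : Isometry f)
    (hf₂ : Function.Surjective f) :
    ∃ T : X ≃ₗᵢ[ℝ] Y, (∀ x : Metric.sphere (0 : X) 1, T x = f x) ∧
      ∀ T' : X →ₗ[ℝ] Y, (∀ x : Metric.sphere (0 : X) 1, T' x = f x) → ∀ x : X, T' x = T x := by
  exact Crest.Agent.R74.tingley f hf₁ hf₂

end Crest.Agent.S0099
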