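import Crest.Statements.S0105
import Crest.Agent.R78F.NonConj

set_option autoImplicit false
open Crest Crest.AnalysisR Crest.AnalysisR.OperatorAlgebra

namespace Crest.Agent.S0105

/-- For every ε > 0 some separable complex Hilbert space H carries two norm-closed, norm-separable unital ⋆-subalgebras A and B of its bounded operators such that every element of norm at most 1 of either lies within distance less than ε of an element of norm at most 1 of the other, A and B have the same double commutant, and no unitary operator u on H satisfies u A u⋆ = B. -/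
theorem result (ε : ℝ) (hε : 0 < ε) :
    ∃ (H : Type) (_ : NormedAddCommGroup H) (_ : InnerProductSpace ℂ H) (_ : CompleteSpace H)
      (_ : TopologicalSpace.SeparableSpace H) (A B : StarSubalgebra ℂ (H →L[ℂ] H)),
      IsClosed (A : Set (H →L[ℂ] H)) ∧ IsClosed (B : Set (H →L[ℂ] H)) ∧
      TopologicalSpace.IsSeparable (A : Set (H →L[ℂ] H)) ∧
      TopologicalSpace.IsSeparable (B : Set (H →L[ℂ] H)) ∧
      (∀ a ∈ A, ‖a‖ ≤ 1 → ∃ b ∈ B, ‖b‖ ≤ 1 ∧ ‖a - b‖ < ε) ∧
      (∀ b ∈ B, ‖b‖ ≤ 1 → ∃ a ∈ A, ‖a‖ ≤ 1 ∧ ‖b - a‖ < ε) ∧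
      Set.centralizer (Set.centralizer (A : Set (H →L[ℂ] H))) =
        Set.centralizer (Set.centralizer (B : Set (H →L[ℂ] H))) ∧
      ¬ ∃ u : H →L[ℂ] H, u ∈ unitary (H →L[ℂ] H) ∧
          ∀ y : H →L[ℂ] H, y ∈ B ↔ ∃ x ∈ A, y = u * x * star u := by
  exact Crest.Agent.R78F.main5 ε hε

end Crest.Agent.S0105
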