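import Crest.Statements.S0109
import Crest.Agent.R82.Main

set_option autoImplicit false
open MeasureTheory
open scoped ENNReal NNReal
open Crest.AnalysisR.OT
open Crest Crest.AnalysisR Crest.AnalysisR.OT

namespace Crest.Agent.S0109

/-- Fix d ≥ 2, a compact convex K ⊆ ℝᵈ with nonempty interior, ρ the uniform probability measure on K, and a nonempty compact Y ⊆ ℝᵈ. There is a constant C such that for all probability measures μ, ν carried by Y, all quadratic optimal transport maps Tμ from ρ to μ and Tν from ρ to ν, and every coupling π of μ and ν, ∫ ‖Tμ - Tν‖² dρ ≤ C · (∫ ‖y - z‖² dπ)^(1/3). With the best coupling: the L²(ρ) distance of the maps is at most √C times the cube root of the Wasserstein-2 distance of the targets. -/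
theorem result
    (d : ℕ) (hd : 2 ≤ d) (K : Set (EuclideanSpace ℝ (Fin d))) (hKc : IsCompact K) (hKv : Convex ℝ K)
    (hKi : (interior K).Nonempty) (Y : Set (EuclideanSpace ℝ (Fin d))) (hYc : IsCompact Y) (hYn : Y.Nonempty) :
    ∃ C : ℝ≥0, ∀ μ ν : Measure (EuclideanSpace ℝ (Fin d)), IsProbabilityOn Y μ → IsProbabilityOn Y ν →
      ∀ Tμ Tν : EuclideanSpace ℝ (Fin d) → EuclideanSpace ℝ (Fin d),
        IsOptimalMap (uniformProbOn K) μ Tμ → IsOptimalMap (uniformProbOn K) ν Tν →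
        ∀ π : Measure (EuclideanSpace ℝ (Fin d) × EuclideanSpace ℝ (Fin d)), IsPairCoupling μ ν π →
          ∫⁻ x, ‖Tμ x - Tν x‖ₑ ^ 2 ∂(uniformProbOn K) ≤ C * quadCost π ^ (1 / 3 : ℝ) := by
  obtain ⟨C, hC, H⟩ := Crest.Agent.R82.main_real d (by omega) K hKc hKv hKi Y hYc
  obtain ⟨L, hL0, hLY⟩ : ∃ L : ℝ, 0 < L ∧ ∀ x ∈ Y, ‖x‖ ≤ L := hYc.isBounded.exists_pos_norm_le
  set B : ℝ := (2 * L) ^ 2 + 1 with hB
  have hB1 : 1 ≤ B := by rw [hB]; nlinarith [sq_nonneg (2 * L)]
  have hCB : 0 ≤ C * (1 + B) := by positivity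
  refine ⟨⟨C * (1 + B), hCB⟩, ?_⟩
  intro μ ν hμ hν Tμ Tν hTμ hTν π hπ
  have H1 := H μ ν hμ hν Tμ Tν hTμ hTν π hπ
  haveI : IsProbabilityMeasure (uniformProbOn K) := Crest.Agent.R82.unif_prob hKc hKi
  haveI := hμ.1
  haveI : IsProbabilityMeasure π := by
    constructor
    have := congrArg (fun ν : Measure _ => ν Set.univ) hπ.1
    simp only [Measure.map_apply measurable_fst MeasurableSet.univ, Set.preimage_univ,
      measure_univ] at this
    exact this
  have hμY : ∀ᵐ p ∂μ, p ∈ Y := hμ.2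
  have hνY : ∀ᵐ p ∂ν, p ∈ Y := hν.2
  have hπb : ∀ᵐ q ∂π, ‖q.1‖ ≤ L ∧ ‖q.2‖ ≤ L := by
    have h1 : ∀ᵐ q ∂π, q.1 ∈ Y := ae_of_ae_map measurable_fst.aemeasurable (hπ.1 ▸ hμY)
    have h2 : ∀ᵐ q ∂π, q.2 ∈ Y := ae_of_ae_map measurable_snd.aemeasurable (hπ.2 ▸ hνY)
    filter_upwards [h1, h2] with q h1 h2 using ⟨hLY _ h1, hLY _ h2⟩
  have hwi : Integrable (fun q : EuclideanSpace ℝ (Fin d) × EuclideanSpace ℝ (Fin d) =>
      ‖q.1 - q.2‖ ^ 2) π := Crest.Agent.R82.integrable_cont_prod hπb (by fun_prop)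
  set w := ∫ q, ‖q.1 - q.2‖ ^ 2 ∂π with hw
  have hw0 : 0 ≤ w := integral_nonneg fun q => by positivity
  have hsq : ∀ a b : EuclideanSpace ℝ (Fin d), ‖a‖ ≤ L → ‖b‖ ≤ L → ‖a - b‖ ^ 2 ≤ B := by
    intro a b ha hb
    have h1 : ‖a - b‖ ≤ 2 * L := by linarith [norm_sub_le a b]
    have h2 := pow_le_pow_left₀ (norm_nonneg _) h1 2
    linarith
  have hwB : w ≤ B := by
    have : w ≤ ∫ _, B ∂π := by
      refine integral_mono_ae hwi (integrable_const _) ?_
      filter_upwards [hπb] with q hq using hsq _ _ hq.1 hq.2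
    simpa using this
  have hq : quadCost π = ENNReal.ofReal w := by
    unfold quadCost
    rw [hw, ofReal_integral_eq_lintegral_ofReal hwi
      (Filter.Eventually.of_forall fun q => by positivity)]
    congr 1; funext q
    exact Crest.Agent.R82.enorm_sq_eq _
  have hVi : Integrable (fun x => ‖Tμ x - Tν x‖ ^ 2) (uniformProbOn K) := by
    have h1 : ∀ᵐ x ∂(uniformProbOn K), Tμ x ∈ Y := ae_of_ae_map hTμ.1.aemeasurable (hTμ.2.1 ▸ hμY)
    have h2 : ∀ᵐ x ∂(uniformProbOn K), Tν x ∈ Y := ae_of_ae_map hTν.1.aemeasurable (hTν.2.1 ▸ hνY)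
    refine Integrable.of_bound (by have := hTμ.1; have := hTν.1; fun_prop) B ?_
    filter_upwards [h1, h2] with x h1 h2
    rw [Real.norm_of_nonneg (by positivity)]
    exact hsq _ _ (hLY _ h1) (hLY _ h2)
  set V := ∫ x, ‖Tμ x - Tν x‖ ^ 2 ∂(uniformProbOn K) with hV
  have hL : ∫⁻ x, ‖Tμ x - Tν x‖ₑ ^ 2 ∂(uniformProbOn K) = ENNReal.ofReal V := by
    rw [hV, ofReal_integral_eq_lintegral_ofReal hVi
      (Filter.Eventually.of_forall fun q => by positivity)]
    congr 1; funext x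
    exact Crest.Agent.R82.enorm_sq_eq _
  have hfin : V ≤ C * (1 + B) * w ^ (1 / 3 : ℝ) := by
    rcases hw0.eq_or_lt with h0 | h0
    · rw [← h0] at H1 ⊢
      rw [Real.zero_rpow (by norm_num), mul_zero]
      refine le_of_forall_pos_le_add fun ε hε => ?_
      have h1 := H1 (min 1 (ε / C)) (by positivity) (min_le_left _ _)
      have h2 : C * min 1 (ε / C) ≤ ε := by
        calc _ ≤ C * (ε / C) := mul_le_mul_of_nonneg_left (min_le_right _ _) hC.le
          _ = ε := by field_simp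
      simp only [zero_div, add_zero] at h1
      linarith
    · set s := (w / B) ^ (1 / 3 : ℝ) with hs
      have hwB0 : 0 < w / B := by positivity
      have hs0 : 0 < s := Real.rpow_pos_of_pos hwB0 _
      have hs1 : s ≤ 1 := Real.rpow_le_one hwB0.le ((div_le_one (by positivity)).2 hwB) (by norm_num)
      have hs3 : s ^ 3 = w / B := by
        rw [hs, ← Real.rpow_natCast, ← Real.rpow_mul hwB0.le]; norm_num
      have hsw : s ≤ w ^ (1 / 3 : ℝ) :=
        Real.rpow_le_rpow hwB0.le (div_le_self hw0 hB1) (by norm_num)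
      have h1 := H1 s hs0 hs1
      have h2 : w / s ^ 2 = B * s := by
        have : w = B * s ^ 3 := by rw [hs3]; field_simp
        rw [this]; field_simp
      rw [h2] at h1
      calc V ≤ C * (1 + B) * s := by linarith
        _ ≤ _ := mul_le_mul_of_nonneg_left hsw hCB
  rw [hL, hq, ENNReal.ofReal_rpow_of_nonneg hw0 (by norm_num)]
  refine le_trans (ENNReal.ofReal_le_ofReal hfin) (le_of_eq ?_)
  rw [ENNReal.ofReal_mul hCB, ENNReal.ofReal_eq_coe_nnreal hCB]
  rfl

end Crest.Agent.S0109
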