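import Crest.Statements.S0112
import Crest.Agent.R84.Final

set_option autoImplicit false
open Crest Crest.AnalysisR Crest.AnalysisR.OperatorAlgebra

namespace Crest.Agent.S0112

/-- Bounded recovery. Let S be modular data on H (algebra M, cyclic separating unit vector ξ, D = log of the modular operator) with ergodic state, ω a free ultrafilter on ℕ, T a bounded operator, δₙ → 0 positive, hₙ unit vectors with D-spectral support in [s − δₙ, s + δₙ]. If some c > 0 bounds the ω-mean over t of ‖T exp(itD) hₙ‖² from below infinitely often, along a subsequence n_j there are v_j ∈ M, C and η > 0 with ‖v_j‖ ≤ C, ‖T (v_j ξ)‖ ≥ η, v_j ξ supported in [s − 4δ_{n_j}, s + 4δ_{n_j}]. -/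
theorem result
    {H : Type*} [NormedAddCommGroup H] [InnerProductSpace ℂ H] [CompleteSpace H]
    (S : Crest.OpAlg.ModularDatum H) (herg : S.Ergodic)
    (ω : Ultrafilter ℕ) (hω : (ω : Filter ℕ) ≤ Filter.atTop)
    (T : H →L[ℂ] H) (s : ℝ) (δ : ℕ → ℝ) (hδ : ∀ n, 0 < δ n)
    (hδ0 : Filter.Tendsto δ Filter.atTop (nhds 0))
    (h : ℕ → H) (hh : ∀ n, ‖h n‖ = 1)
    (hband : ∀ n, S.D.SupportedIn (Set.Icc (s - δ n) (s + δ n)) (h n))
    (hpos : ∃ c : ℝ, 0 < c ∧ ∃ᶠ n in Filter.atTop,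
      c ≤ Crest.OpAlg.ultraMean ω (fun t : ℝ => ‖T (S.D.wave t (h n))‖ ^ 2)) :
    ∃ (n' : ℕ → ℕ) (v : ℕ → (H →L[ℂ] H)) (C η : ℝ), StrictMono n' ∧ 0 < η ∧
      ∀ j : ℕ, v j ∈ S.M ∧ ‖v j‖ ≤ C ∧ η ≤ ‖T (v j S.vac)‖ ∧
        S.D.SupportedIn (Set.Icc (s - 4 * δ (n' j)) (s + 4 * δ (n' j))) (v j S.vac) := by
  obtain ⟨c, hc, hfreq⟩ := hpos
  obtain ⟨C, η, hη, hrec⟩ := Crest.Agent.R84.exists_recover S herg hω T s hc
  have hev : ∀ᶠ n in Filter.atTop, δ n ≤ 1 :=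
    (hδ0.eventually (gt_mem_nhds one_pos)).mono fun n hn => le_of_lt hn
  obtain ⟨n', hn', hP⟩ := Filter.extraction_of_frequently_atTop (hfreq.and_eventually hev)
  choose v hv using fun j => hrec (δ (n' j)) (hδ _) (hP j).2 (h (n' j)) (hh _) (hband _) (hP j).1
  exact ⟨n', v, C, η, hn', hη, hv⟩

end Crest.Agent.S0112
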