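import Crest.Statements.S0113
import Crest.Agent.R85.Main

set_option autoImplicit false
open Crest Crest.AnalysisR

namespace Crest.Agent.S0113

/-- Let d ≥ 4 and 2 ≤ n ≤ d - 2. For all real constants C_AD and C_R there are θ > 0 and M such that every measure μ on ℝᵈ that is n-Ahlfors–David regular with constant C_AD and whose truncated n-dimensional Riesz transforms are all bounded on L²(μ) with bound C_R is uniformly n-rectifiable with constants θ, M: each ball centred on the support with admissible radius r carries mass at least θ r ^ n on the image of an M-Lipschitz map from the r-ball of ℝⁿ. -/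
theorem result (d n : ℕ) (hd : 4 ≤ d)
    (hn : 2 ≤ n) (hnd : n + 2 ≤ d) (C_AD C_R : ℝ) :
    ∃ θ : ℝ, 0 < θ ∧ ∃ M : NNReal, ∀ μ : MeasureTheory.Measure (EuclideanSpace ℝ (Fin d)),
      Crest.AnalysisR.IsADRegular n C_AD μ → Crest.AnalysisR.HasRieszBound n C_R μ →
        Crest.AnalysisR.IsUniformlyRectifiable n θ M μ := by
  exact Crest.Agent.R85.main d n (by omega) (by omega) C_AD C_R

end Crest.Agent.S0113
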