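import Crest.Statements.S0118
import Crest.Agent.R89.Main

set_option autoImplicit false
open Crest Crest.AnalysisR Crest.AnalysisR.OperatorAlgebra

namespace Crest.Agent.S0118

open scoped ComplexOrder

/-- There are a unital complex C⋆-algebra with a faithful tracial state τ, an integer n ≥ 2, a self-adjoint n-tuple X and a standard semicircular n-tuple S (Catalan moments) such that X, S₁, …, S_n are free, the free Fisher information of X + √s S is finite for every s > 0 with s ↦ n/(1+s) − Φ*(X + √s S) integrable on (0, ∞), and the microstates free entropy χ(X) (operator-norm cutoff, limsup over matrix sizes) satisfies −∞ < χ(X) ≤ χ*(X) − 1/2, where χ* is the non-microstates free entropy. -/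
theorem result :
    ∃ (A : Type) (_ : CStarAlgebra A) (τ : A →ₗ[ℂ] ℂ) (n : ℕ) (X S : Fin n → A),
      Crest.OpAlg.IsFaithfulTracialState τ ∧ 2 ≤ n ∧ (∀ i, IsSelfAdjoint (X i)) ∧
      Crest.OpAlg.IsStandardSemicircular τ S ∧ Crest.OpAlg.IsFreeFamily τ (Crest.OpAlg.withNoise X S) ∧
      (∀ s : ℝ, 0 < s → Crest.OpAlg.freeFisher τ (Crest.OpAlg.heatTuple X S s) < ⊤) ∧
      MeasureTheory.IntegrableOn
        (fun s : ℝ => (n : ℝ) / (1 + s) - (Crest.OpAlg.freeFisher τ (Crest.OpAlg.heatTuple X S s)).toReal)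
        (Set.Ioi 0) ∧
      ⊥ < Crest.OpAlg.chi τ X ∧ Crest.OpAlg.chi τ X ≤ ((Crest.OpAlg.chiStar τ X S - 1 / 2 : ℝ) : EReal) := by
  classical
  obtain ⟨K, hK⟩ : ∃ K : ℕ, 10 ^ 6 ≤ K := ⟨_, le_rfl⟩
  obtain ⟨B, _, _, _, ⟨F⟩⟩ := R89.exists_fock (R89.JJ (Fin (K ^ 4)) ⊕ R89.JJ (Fin (K ^ 4)))
  obtain ⟨n, ⟨e⟩⟩ : ∃ n, Nonempty (Fin n ≃ R89.JJ (Fin (K ^ 4))) :=
    ⟨_, ⟨(Fintype.equivFin _).symm⟩⟩
  have hk : (10 : ℝ) ^ 6 ≤ K := by exact_mod_cast hK
  have hk0 : (0 : ℝ) < K := by linarith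
  obtain ⟨lam, hl⟩ : ∃ lam : ℝ, lam * (4 * K) = 1 := ⟨_, inv_mul_cancel₀ (by positivity)⟩
  obtain ⟨gam, hg⟩ : ∃ gam : ℝ, gam * (100 * K ^ 3) = 1 := ⟨_, inv_mul_cancel₀ (by positivity)⟩
  have hg0 := R89.Fock.pos_of_mul_one hg (by positivity)
  have hg1 : gam ^ 2 ≤ 1 / 2 := by
    have : (1 : ℝ) ≤ K ^ 3 := one_le_pow₀ (by linarith)
    nlinarith
  obtain ⟨h1, h2, h3, h4⟩ := F.core hk (by simp) hl hg
    (Real.le_sqrt_of_sq_le (by linarith : (1 / 2 : ℝ) ^ 2 ≤ 1 - gam ^ 2))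
    (Real.sq_sqrt (by linarith)) e _ _ rfl rfl
  set sig := √(1 - gam ^ 2)
  have := R120.isClosed_gen (Set.range F.s)
  let φ : R120.gen (Set.range F.s) →ₐ[ℂ] B := (R120.gen (Set.range F.s)).subtype.toAlgHom
  have hs : ∀ i, F.s i ∈ R120.gen (Set.range F.s) := fun i => R120.subset_gen _ ⟨i, rfl⟩
  let Z : Fin n → R120.gen (Set.range F.s) := fun i => ⟨F.ZZ lam sig gam (e i),
    add_mem (SMulMemClass.smul_mem _ (hs _)) (F.YY_mem _ _ _)⟩
  let S : Fin n → R120.gen (Set.range F.s) := fun i => ⟨F.s (.inr (e i)), hs _⟩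
  have hF : ∀ s, OpAlg.freeFisher (F.ω.toLinearMap ∘ₗ φ.toLinearMap) (OpAlg.heatTuple Z S s) =
      OpAlg.freeFisher F.ω.toLinearMap (OpAlg.heatTuple (fun i => F.ZZ lam sig gam (e i))
        (fun i => F.s (.inr (e i))) s) := fun s => R89.freeFisher_map φ _ _
  refine ⟨R120.gen (Set.range F.s), inferInstance, F.ω.toLinearMap ∘ₗ φ.toLinearMap, n, Z, S,
    ⟨F.one, fun a => ?_, fun a h => Subtype.ext (F.faithful _ a.2 h), fun a b => F.tr_comm a.2 b.2⟩,
    ?_, fun i => Subtype.ext (F.ZZ_sa _ _ _ _), ⟨fun i => Subtype.ext (F.sa _), fun i k => ?_⟩,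
    fun l hl hc h0 => ?_, ?_⟩
  · have h := Complex.le_def.1 (F.ω.map_nonneg (star_mul_self_nonneg (a : B)))
    exact ⟨h.2.symm, h.1⟩
  · have := Fintype.card_congr e
    simp only [Fintype.card_fin, Fintype.card_sum] at this
    have : K ≤ K ^ 4 := Nat.le_self_pow (by norm_num) K
    omega
  · simpa [S, φ] using F.catalan_moments (.inr (e i)) k
  · let cls : R89.JJ (Fin (K ^ 4)) ⊕ R89.JJ (Fin (K ^ 4)) → Option (Fin n) :=
      Sum.elim (fun _ => none) fun β => some (e.symm β)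
    have h := F.free cls (l.map fun p => (p.1, φ (OpAlg.polyEval (OpAlg.withNoise Z S p.1) p.2)))
      (by simpa using hl) (by simpa [List.isChain_map] using hc) ?_
      (List.forall_mem_map.2 fun p hp => by simpa using h0 p hp)
    · simpa [map_list_prod, Function.comp_def] using h
    simp only [List.mem_map, forall_exists_index, and_imp, forall_apply_eq_imp_iff₂]
    rintro ⟨o, P⟩ -
    have hx : ∀ i, F.s i ∈ Algebra.adjoin ℂ (F.s '' {j | cls j = cls i}) := fun i =>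
      Algebra.subset_adjoin ⟨i, rfl, rfl⟩
    rw [R89.map_polyEval, R89.polyEval_apply]
    refine Subalgebra.sum_mem _ fun w _ => Subalgebra.smul_mem _ ?_ _
    rw [R89.wordEval_eq_wv]
    refine list_prod_mem fun x hx' => ?_
    obtain ⟨i, -, rfl⟩ := List.mem_map.1 hx'
    rcases o with _ | j
    · refine add_mem (Subalgebra.smul_mem _ (hx (.inl (e i))) _) ?_
      have h := fun l => hx (.inl (.inl l))
      rcases e i with l | ⟨a, b, c⟩
      · exact Subalgebra.smul_mem _ (h l) _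
      · exact Subalgebra.smul_mem _ (add_mem (mul_mem (h a) (mul_mem (h b) (mul_mem (h c)
          (one_mem _)))) (mul_mem (h c) (mul_mem (h b) (mul_mem (h a) (one_mem _))))) _
    · simpa [cls, S, φ, OpAlg.withNoise] using hx (.inr (e j))
  · simp only [OpAlg.chiStar, hF, R89.chi_map]
    exact ⟨h1, h2, h3, h4⟩

end Crest.Agent.S0118
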