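import Crest.Statements.S0121
import Crest.Agent.R91.Final

set_option autoImplicit false
open Crest Crest.AnalysisR

namespace Crest.Agent.S0121

/-- There is a separable real Banach space Z with no closed linear subspace linearly homeomorphic to c₀ and a map F from Z ⊕_∞ c₀ onto Z that is bi-Lipschitz: c‖u − v‖ ≤ ‖F u − F v‖ ≤ C‖u − v‖ for some constants 0 < c ≤ C and all u, v. Here c₀ is the space of real sequences tending to zero with the supremum norm, and Z ⊕_∞ c₀ is the product with the maximum norm. -/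
theorem result :
    ∃ (Z : Type) (_ : NormedAddCommGroup Z) (_ : NormedSpace ℝ Z),
      CompleteSpace Z ∧ TopologicalSpace.SeparableSpace Z ∧
      (∀ S : Submodule ℝ Z, IsClosed (S : Set Z) →
        IsEmpty (S ≃L[ℝ] ZeroAtInftyContinuousMap ℕ ℝ)) ∧
      ∃ F : Z × ZeroAtInftyContinuousMap ℕ ℝ → Z, Function.Surjective F ∧
        ∃ c C : ℝ, 0 < c ∧
          ∀ u v : Z × ZeroAtInftyContinuousMap ℕ ℝ,
            c * ‖u - v‖ ≤ ‖F u - F v‖ ∧ ‖F u - F v‖ ≤ C * ‖u - v‖ := by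
  obtain ⟨e⟩ : Nonempty (ℕ ≃ Unit ⊕ ℕ) := inferInstance
  obtain ⟨J⟩ := R91.exists_J (OrthonormalBasis.singleton Unit ℝ).toHilbertBasis.repr e
  obtain ⟨X, _, _, Y, _, _, -, -, h3, h4, h5, ⟨Ψ, hΨ, hb⟩, -, T, hT, hT'⟩ := R91.main J
  refine ⟨Y, inferInstance, inferInstance, h3, h4, fun S _ => h5.isEmpty_sub one_ne_zero S,
    Ψ ∘ T, hΨ.2.comp hT, 4 / 21, 76 / 25 * 2, by norm_num, fun u v => ?_⟩
  have h1 := hb (T u) (T v)
  have h2 := hT' u v
  simp only [Function.comp_apply]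
  constructor <;> linarith [h1.1, h1.2, h2.1, h2.2]

end Crest.Agent.S0121
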