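import Crest.Statements.S0122
import Crest.Agent.R92.Main

set_option autoImplicit false
open Crest.AnalysisR.MassAction
open Crest Crest.AnalysisR Crest.AnalysisR.MassAction

namespace Crest.Agent.S0122

/-- For a finite reaction network on `d ≥ 1` species that is weakly reversible, with positive rate constants and mass-action kinetics, every positive stoichiometric class `P` contains a nonempty compact convex set `K` that is forward invariant and absorbing: from every point of `P` there is a solution defined for all forward time, it is unique, it stays coordinatewise positive, and it lies in `K` from some finite time on. -/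
theorem result
    (d : ℕ) (hd : 1 ≤ d) (R : Network d) (hR : IsWeaklyReversible R)
    (k : (Fin d → ℕ) × (Fin d → ℕ) → ℝ) (hk : ∀ r ∈ R, 0 < k r)
    (c : Fin d → ℝ) (hc : ∀ i, 0 < c i) :
    ∃ K : Set (Fin d → ℝ), K ⊆ positiveClass R c ∧ K.Nonempty ∧ IsCompact K ∧ Convex ℝ K ∧
      (∀ x : ℝ → (Fin d → ℝ), IsForwardSolution (field R k) x → x 0 ∈ K →
        ∀ t : ℝ, 0 ≤ t → x t ∈ K) ∧
      (∀ x₀ ∈ positiveClass R c,
        (∃ x : ℝ → (Fin d → ℝ), IsForwardSolution (field R k) x ∧ x 0 = x₀) ∧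
        (∀ x x' : ℝ → (Fin d → ℝ), IsForwardSolution (field R k) x →
          IsForwardSolution (field R k) x' → x 0 = x₀ → x' 0 = x₀ →
          ∀ t : ℝ, 0 ≤ t → x t = x' t) ∧
        (∀ x : ℝ → (Fin d → ℝ), IsForwardSolution (field R k) x → x 0 = x₀ →
          (∀ t : ℝ, 0 ≤ t → ∀ i, 0 < x t i) ∧
          ∃ T : ℝ, 0 ≤ T ∧ ∀ t : ℝ, T ≤ t → x t ∈ K)) := by
  obtain ⟨G, β, ρ, hρ, hcvx, hGc, hbox, hinv, habs⟩ :=
    Crest.Agent.R92.exists_class_barrier hR k hk (c := c) hc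
  have hS := Crest.Agent.R92.field_mem R k
  refine ⟨{y | y ∈ positiveClass R c ∧ G y ≤ 0}, fun y hy => hy.1,
    ⟨c, ⟨hc, by simp⟩, hGc.le⟩, ?_, ?_, ?_, ?_⟩
  · have h1 : IsClosed ({y : Fin d → ℝ | (∀ i, ρ ≤ y i) ∧ G y ≤ 0} ∩
        (fun y => y - c) ⁻¹' (stoichSubspace R : Set (Fin d → ℝ))) :=
      (Crest.Agent.R92.isClosed_sublevel hcvx hρ).inter
        ((stoichSubspace R).closed_of_finiteDimensional.preimage (by fun_prop))
    have h2 : {y | y ∈ positiveClass R c ∧ G y ≤ 0} =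
        {y : Fin d → ℝ | (∀ i, ρ ≤ y i) ∧ G y ≤ 0} ∩
          (fun y => y - c) ⁻¹' (stoichSubspace R : Set (Fin d → ℝ)) := by
      ext y
      constructor
      · rintro ⟨⟨h1, h2⟩, h3⟩
        exact ⟨⟨fun i => (hbox y h1 h3 i).1, h3⟩, h2⟩
      · rintro ⟨⟨h1, h2⟩, h3⟩
        exact ⟨⟨fun i => hρ.trans_le (h1 i), h3⟩, h2⟩
    refine (isCompact_univ_pi fun _ : Fin d => isCompact_Icc (a := ρ) (b := β)).of_isClosed_subset
      (h2 ▸ h1) ?_
    rintro y ⟨⟨h3, -⟩, h4⟩ i -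
    exact hbox y h3 h4 i
  · intro y hy z hz a b ha hb hab
    refine ⟨⟨Crest.Agent.R92.convex_pos hy.1.1 hz.1.1 ha hb hab, ?_⟩, ?_⟩
    · have h1 : a • y + b • z - c = a • (y - c) + b • (z - c) := by
        have h2 : c = a • c + b • c := by rw [← add_smul, hab, one_smul]
        rw [smul_sub, smul_sub]
        conv_lhs => rw [h2]
        abel
      rw [h1]
      exact Submodule.add_mem _ (Submodule.smul_mem _ _ hy.1.2) (Submodule.smul_mem _ _ hz.1.2)
    · have h1 := hcvx.convexOn.2 hy.1.1 hz.1.1 ha hb hab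
      simp only [smul_eq_mul] at h1
      nlinarith [mul_nonneg ha (neg_nonneg.2 hy.2), mul_nonneg hb (neg_nonneg.2 hz.2)]
  · intro x hx hx0 t ht
    obtain ⟨h1, h2, h3⟩ := hinv _ x hS (fun _ _ => rfl) hx hx0.1.2 hx0.1.1 hx0.2 t ht
    exact ⟨⟨h1, h3⟩, h2⟩
  · intro x₀ hx₀
    obtain ⟨G₀, β₀, ρ₀, hρ₀, -, hG₀, hbox₀, hinv₀, -⟩ :=
      Crest.Agent.R92.exists_class_barrier hR k hk (c := x₀) hx₀.1
    have hstay : ∀ x : ℝ → (Fin d → ℝ), IsForwardSolution (field R k) x → x 0 = x₀ →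
        ∀ t, 0 ≤ t → (∀ i, ρ₀ ≤ x t i ∧ x t i ≤ β₀) ∧ x t - c ∈ stoichSubspace R := by
      intro x hx hx0 t ht
      obtain ⟨h1, h2, h3⟩ := hinv₀ _ x hS (fun _ _ => rfl) hx (by simp [hx0]) (hx0 ▸ hx₀.1)
        (hx0 ▸ hG₀.le) t ht
      refine ⟨hbox₀ _ h1 h2, ?_⟩
      have h4 := (stoichSubspace R).add_mem h3 hx₀.2
      rwa [sub_add_sub_cancel] at h4
    refine ⟨?_, ?_, ?_⟩
    · obtain ⟨x, hx, hx0⟩ := Crest.Agent.R92.exists_clipped_solution R k ρ₀ β₀ x₀
      refine ⟨x, fun t ht => ?_, hx0⟩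
      obtain ⟨h1, h2, -⟩ := hinv₀ _ x (fun y => hS _)
        (fun y hy => by rw [Crest.Agent.R92.clip_eq hy]) hx (by simp [hx0]) (hx0 ▸ hx₀.1)
        (hx0 ▸ hG₀.le) t ht
      have h3 := hx t ht
      simp only [Crest.Agent.R92.clip_eq (hbox₀ _ h1 h2)] at h3
      exact h3
    · intro x x' hx hx' hx0 hx0' t ht
      obtain ⟨K, hK⟩ := Crest.Agent.R92.field_lipschitzOn R k
        (isCompact_univ_pi fun _ : Fin d => isCompact_Icc (a := ρ₀) (b := β₀))
      exact ODE_solution_unique_of_mem_Icc_right (v := fun _ => field R k)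
        (s := fun _ => Set.pi Set.univ fun _ : Fin d => Set.Icc ρ₀ β₀) (a := 0) (b := t)
        (fun _ _ => hK)
        ((Crest.Agent.R92.sol_continuousOn hx).mono fun s hs => hs.1)
        (fun s hs => Crest.Agent.R92.sol_right hx hs.1)
        (fun s hs i _ => (hstay x hx hx0 s hs.1).1 i)
        ((Crest.Agent.R92.sol_continuousOn hx').mono fun s hs => hs.1)
        (fun s hs => Crest.Agent.R92.sol_right hx' hs.1)
        (fun s hs i _ => (hstay x' hx' hx0' s hs.1).1 i) (by rw [hx0, hx0']) ⟨ht, le_rfl⟩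
    · intro x hx hx0
      have hpos : ∀ t : ℝ, 0 ≤ t → ∀ i, 0 < x t i := fun t ht i =>
        hρ₀.trans_le ((hstay x hx hx0 t ht).1 i).1
      obtain ⟨T, hT, hGT⟩ := habs x ρ₀ β₀ hρ₀ hx (hstay x hx hx0)
      exact ⟨hpos, T, hT, fun t ht =>
        ⟨⟨hpos t (hT.trans ht), (hstay x hx hx0 t (hT.trans ht)).2⟩, hGT t ht⟩⟩

end Crest.Agent.S0122
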