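import Crest.Statements.S0129
import Crest.Agent.R98.Block

set_option autoImplicit false
open MeasureTheory Crest.AnalysisR
open Crest Crest.AnalysisR

namespace Crest.Agent.S0129

/-- For a finite nonempty indexed family of maps x ↦ rᵢx + tᵢ of the real line, each rᵢ nonzero with absolute value less than 1, and a strictly positive probability vector p, every probability measure μ equal to ∑ᵢ pᵢ · (μ pushed forward by map i) has lower Hausdorff dimension min(1, h/χ). Here h is the infimum over n ≥ 1 of 1/n times the entropy of the composed map of a p-random word of length n, words with equal maps being identified, and χ = -∑ᵢ pᵢ log(abs rᵢ); logarithms are natural. -/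
theorem result
    {ι : Type*} [Fintype ι] [Nonempty ι] (r t p : ι → ℝ)
    (hr : ∀ i, r i ≠ 0 ∧ |r i| < 1) (hp : ∀ i, 0 < p i) (hp₁ : ∑ i, p i = 1)
    (μ : Measure ℝ) (hμ : IsSelfSimilarMeasure r t p μ) :
    lowerHausdorffDim μ = ENNReal.ofReal (min 1 (rwEntropyRate r t p / lyapunovExp r p)) := by
  exact Crest.Agent.R98.main r t p hr hp hp₁ μ hμ

end Crest.Agent.S0129
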