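import Crest.Statements.S0145
import Crest.Agent.R110.Main

set_option autoImplicit false
open Crest Crest.AnalysisR Crest.AnalysisR.OperatorAlgebra

namespace Crest.Agent.S0145

/-- Let C be a complex C⋆-algebra, possibly without unit, in which every positive element h is properly infinite (for every ε > 0 some r, s satisfy ‖r⋆hr − h‖ < ε, ‖s⋆hs − h‖ < ε, ‖r⋆hs‖ < ε; this is h ⊕ h ≾ h written entrywise). Then for all positive a, b, every c and every ε > 0 there are s, t in C with ‖s⋆as − a‖ < ε, ‖t⋆bt − b‖ < ε and ‖s⋆ct‖ < ε. Positive elements are those of the form x⋆x. -/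
theorem result
    (C : Type*) [NonUnitalCStarAlgebra C]
    (hC : ∀ x : C, Crest.OpAlg.IsProperlyInfinite (star x * x))
    (a b c : C) (ha : ∃ x : C, a = star x * x) (hb : ∃ y : C, b = star y * y) (ε : ℝ) (hε : 0 < ε) :
    ∃ s t : C, ‖star s * a * s - a‖ < ε ∧ ‖star t * b * t - b‖ < ε ∧ ‖star s * c * t‖ < ε := by
  letI := CStarAlgebra.spectralOrder (Unitization ℂ C)
  haveI := CStarAlgebra.spectralOrderedRing (Unitization ℂ C)
  have hinr : ∀ z : Unitization ℂ C, z.fst = 0 → ∃ x : C, z = (x : Unitization ℂ C) :=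
    fun z hz => ⟨z.snd, by ext <;> simp [hz]⟩
  let P : Crest.Agent.R110.Ctx (Unitization ℂ C) :=
    { C := {z | z.fst = 0}
      zero_mem := by simp
      add_mem := fun {x y} hx hy => by
        have hx' : x.fst = 0 := hx
        have hy' : y.fst = 0 := hy
        show (x + y).fst = 0
        simp [hx', hy']
      mul_left := fun b {x} hx => by
        have hx' : x.fst = 0 := hx
        show (b * x).fst = 0
        simp [hx']
      mul_right := fun b {x} hx => by
        have hx' : x.fst = 0 := hx
        show (x * b).fst = 0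
        simp [hx']
      pi := by
        intro z hz η hη
        obtain ⟨x, rfl⟩ := hinr z hz
        obtain ⟨r, s, h1, h2, h3⟩ := hC x η hη
        refine ⟨r, s, ?_, ?_, ?_⟩
        · rw [← Unitization.norm_inr (𝕜 := ℂ)] at h1
          simpa [mul_assoc] using h1.le
        · rw [← Unitization.norm_inr (𝕜 := ℂ)] at h2
          simpa [mul_assoc] using h2.le
        · rw [← Unitization.norm_inr (𝕜 := ℂ)] at h3
          simpa [mul_assoc] using h3.le }
  obtain ⟨x, rfl⟩ := ha
  obtain ⟨y, rfl⟩ := hb
  obtain ⟨s, hs, t, ht, h1, h2, h3⟩ := P.main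
    (a := ((star x * x : C) : Unitization ℂ C)) (b := ((star y * y : C) : Unitization ℂ C))
    (by simpa using star_mul_self_nonneg (x : Unitization ℂ C)) (by show _ = _; simp)
    (by simpa using star_mul_self_nonneg (y : Unitization ℂ C)) (by show _ = _; simp)
    (c : Unitization ℂ C) hε
  obtain ⟨s, rfl⟩ := hinr s hs
  obtain ⟨t, rfl⟩ := hinr t ht
  refine ⟨s, t, ?_, ?_, ?_⟩
  · rw [← Unitization.norm_inr (𝕜 := ℂ)]
    simpa using h1
  · rw [← Unitization.norm_inr (𝕜 := ℂ)]
    simpa using h2
  · rw [← Unitization.norm_inr (𝕜 := ℂ)]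
    simpa using h3

end Crest.Agent.S0145
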