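import Crest.Statements.S0153
import Crest.Agent.R114.Phi

set_option autoImplicit false
open Crest.AnalysisR
open Crest Crest.AnalysisR

namespace Crest.Agent.S0153

/-- Assume that the continuum is real-valued measurable: some probability measure defined on all subsets of the real line vanishes on singletons and is additive over every pairwise disjoint family of fewer than continuum many sets. Then, over the real or the complex field, every infinite-dimensional Banach space has a closed linear subspace whose quotient is separable and infinite-dimensional. -/
theorem result
    (𝕜 : Type) [RCLike 𝕜] (hc : ContinuumRVM)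
    (X : Type*) [NormedAddCommGroup X] [NormedSpace 𝕜 X] [CompleteSpace X]
    (hX : ¬ FiniteDimensional 𝕜 X) :
    ∃ M : Submodule 𝕜 X, IsClosed (M : Set X) ∧
      TopologicalSpace.SeparableSpace (X ⧸ M) ∧ ¬ FiniteDimensional 𝕜 (X ⧸ M) := by
  exact Crest.Agent.R114.SQ_of_rvm hc hX

end Crest.Agent.S0153
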