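import Crest.Statements.S0158
import Crest.Agent.R118.Main
import Crest.Agent.R118.Ops
import Crest.Agent.R118.KConv

set_option autoImplicit false
open Crest.AnalysisR
open Crest Crest.AnalysisR

namespace Crest.Agent.S0158

/-- Let X be a nonzero real Banach space with the approximation property. If X has Rademacher cotype q with some constant and its dual space has Rademacher cotype r with some constant, for some q, r ≥ 2 (possibly different), then X is K-convex: its Rademacher projections are bounded on L₂ of the sign cubes uniformly in the dimension. Averages over signs are exact finite averages. -/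
theorem result
    (X : Type*) [NormedAddCommGroup X] [NormedSpace ℝ X] [CompleteSpace X] [Nontrivial X]
    (hAP : HasApproximationProperty X) (q r C D : ℝ) (hq : 2 ≤ q) (hr : 2 ≤ r)
    (hX : HasRademacherCotype X q C)
    (hX' : HasRademacherCotype (StrongDual ℝ X) r D) :
    IsKConvex X := by
  obtain ⟨Q, hQ⟩ := exists_nat_ge (max q r)
  obtain ⟨c₁, hc₁, h₁⟩ := R118.lift_dual hq hX Q ((le_max_left _ _).trans hQ) (2 * (2 * Q))
  obtain ⟨c₂, hc₂, h₂⟩ := R118.lift_primal hr hX' Q ((le_max_right _ _).trans hQ) (2 * (2 * Q))
  have hc : 0 < max c₁ c₂ := lt_max_of_lt_left hc₁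
  obtain ⟨n, hn⟩ := R118.exists_avg_small hAP (Q := Q) hc
    (fun t ht => (h₂ t ht).mono (by positivity) (by
      have : (0 : ℝ) < t := by exact_mod_cast ht
      gcongr; exact le_max_right _ _))
    (fun t ht => (h₁ t ht).mono (by positivity) (by
      have : (0 : ℝ) < t := by exact_mod_cast ht
      gcongr; exact le_max_left _ _))
    (β := 1 / 2 ^ 16) (by positivity)
  exact R118.isKConvex_of_avg X _ hn

end Crest.Agent.S0158
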