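import Crest.Statements.S0163
import Crest.Agent.R123.Core
import Crest.Agent.R123.Global
import Crest.Agent.R123.Entropy
import Crest.Agent.R123.Transport
import Crest.Agent.R123.Homology

set_option autoImplicit false
open scoped Manifold ContDiff
open Crest Crest.AnalysisR

namespace Crest.Agent.S0163

/-- There is a compact smooth manifold without boundary (of some finite dimension, modelled on Euclidean space, with a compatible metric) carrying a continuously differentiable self-map whose topological entropy is zero while the map it induces on second singular homology with real coefficients has `2` as an eigenvalue; so topological entropy can be strictly smaller than the logarithm of the homological spectral radius for `C¹` self-maps. -/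
theorem result :
    ∃ (n : ℕ) (M : Type) (_ : MetricSpace M) (_ : CompactSpace M) (_ : Nonempty M)
      (_ : ChartedSpace (EuclideanSpace ℝ (Fin n)) M)
      (_ : IsManifold (modelWithCornersSelf ℝ (EuclideanSpace ℝ (Fin n))) ∞ M)
      (f : C(M, M)),
      ContMDiff (modelWithCornersSelf ℝ (EuclideanSpace ℝ (Fin n)))
          (modelWithCornersSelf ℝ (EuclideanSpace ℝ (Fin n))) 1 ⇑f ∧
        Dynamics.coverEntropy ⇑f Set.univ = 0 ∧
        Module.End.HasEigenvalue
          (((AlgebraicTopology.singularHomologyFunctor (ModuleCat.{0} ℝ) 2).obj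
              (ModuleCat.of ℝ ℝ)).map (TopCat.ofHom f)).hom (2 : ℝ) := by
  obtain ⟨α, Ψ, r₁, hcore⟩ := R123.core
  obtain ⟨F, w, p₀, p₁, i, hF, hskew, htwo, hi, hhom⟩ := R123.global hcore
  obtain ⟨cs, hm, hF'⟩ := R123.transport R123.IM R123.M 9 (by simp) F hF
  refine ⟨9, R123.M, inferInstance, inferInstance, ⟨(1, p₀)⟩, cs, hm, F, hF', ?_, ?_⟩
  · refine R123.entropy_zero (fun τ : Circle => w * τ) ?_ F hskew p₀ p₁ htwo
    refine Isometry.of_dist_eq fun a b => ?_
    change dist ((w * a : Circle) : ℂ) ((w * b : Circle) : ℂ) = dist (a : ℂ) (b : ℂ)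
    rw [Circle.coe_mul, Circle.coe_mul, dist_eq_norm, dist_eq_norm, ← mul_sub, norm_mul,
      Circle.norm_coe, one_mul]
  · exact R123.hasEigenvalue_two F i ⟨fun p => p.2.1, by fun_prop⟩ hi hhom

end Crest.Agent.S0163
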