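import Crest.Statements.S0167
import Crest.Agent.R125.DaugKey
import Crest.Agent.R125.DaugL1

set_option autoImplicit false
open Crest Crest.AnalysisR

namespace Crest.Agent.S0167

/-- Let E be an infinite-dimensional closed subspace of the real L¹ of a probability space whose closed unit ball is totally bounded for convergence in measure and whose norm has the Daugavet property. Then at every unit x ∈ E and every t > 0 the averaged midpoint quantity sup_F inf_y ((‖x+ty‖+‖x-ty‖)/2 - 1) equals max(t/2, t-1) and the one-sided one sup_F inf_y (‖x+ty‖ - 1) equals max(0, t-2), as matching lower and upper bounds, and E admits no equivalent asymptotically uniformly convex norm. -/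
theorem result (Ω : Type) [MeasurableSpace Ω] (P : MeasureTheory.Measure Ω) [MeasureTheory.IsProbabilityMeasure P]
    (E : Submodule ℝ (MeasureTheory.Lp ℝ 1 P)) (hcl : IsClosed (E : Set (MeasureTheory.Lp ℝ 1 P)))
    (hinf : ¬ FiniteDimensional ℝ E)
    (htb : Crest.AnalysisR.L1Subspace.UnitBallTotallyBoundedInMeasure P E)
    (hD : Crest.AnalysisR.L1Subspace.HasDaugavetProperty E) :
    (∀ t : ℝ, 0 < t →
      (Crest.AnalysisR.L1Subspace.toRealBanach P E hcl).MidpointModulusGE
          (Crest.AnalysisR.L1Subspace.toRealBanach P E hcl).norm t (max (t / 2) (t - 1)) ∧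
        (Crest.AnalysisR.L1Subspace.toRealBanach P E hcl).MidpointModulusLE
          (Crest.AnalysisR.L1Subspace.toRealBanach P E hcl).norm t (max (t / 2) (t - 1)) ∧
        (Crest.AnalysisR.L1Subspace.toRealBanach P E hcl).OneSidedModulusGE
          (Crest.AnalysisR.L1Subspace.toRealBanach P E hcl).norm t (max 0 (t - 2)) ∧
        (Crest.AnalysisR.L1Subspace.toRealBanach P E hcl).OneSidedModulusLE
          (Crest.AnalysisR.L1Subspace.toRealBanach P E hcl).norm t (max 0 (t - 2))) ∧
      ∀ N : E → ℝ, (Crest.AnalysisR.L1Subspace.toRealBanach P E hcl).IsEquivNorm N →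
        ¬ (Crest.AnalysisR.L1Subspace.toRealBanach P E hcl).IsAUC N := by
  haveI : CompleteSpace E := hcl.completeSpace_coe
  have hnt : Nontrivial E := by
    by_contra h
    rw [not_nontrivial_iff_subsingleton] at h
    exact hinf inferInstance
  obtain ⟨x0, hx0⟩ := exists_norm_eq E (zero_le_one (α := ℝ))
  refine ⟨fun t ht => ⟨?_, ?_, ?_, ?_⟩, fun N hN => ?_⟩
  · intro x hx η hη
    exact Crest.Agent.R125.midpoint_ge P E htb t ht x hx η hη
  · intro x hx F hF η hη
    exact Crest.Agent.R125.daug_midpoint_le hD x hx F hF η hη t ht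
  · intro x hx η hη
    obtain ⟨F, hF, h⟩ := Crest.Agent.R125.oneSided_ge (X := E) x hx t ht
    refine ⟨F, hF, fun y hy hy1 => ?_⟩
    exact le_trans (by linarith) (h y hy hy1)
  · intro x hx F hF η hη
    exact Crest.Agent.R125.daug_oneSided_le hD x hx F hF η hη t ht
  · exact Crest.Agent.R125.daug_not_isAUC hD x0 hx0 N hN

end Crest.Agent.S0167
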