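import Crest.Statements.S0169
import Crest.Agent.R125.Prod

set_option autoImplicit false
open MeasureTheory ProbabilityTheory
open Crest Crest.AnalysisR

namespace Crest.Agent.S0169

/-- Let ν be a Borel probability law on ℝ carried by (0,∞), not a point mass, with mean 1 and finite second moment, and W an independent family of real random variables on a probability space indexed by the vertices of the countably branching tree (finite lists of naturals; root [], parent of a :: v is v), each non-root one with law ν. Then the closed linear span in L¹ of the path products ∏_{root ≺ u ≼ v} W_u is infinite-dimensional and has no equivalent asymptotically uniformly convex norm. -/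
theorem result (ν : Measure ℝ) [IsProbabilityMeasure ν] (hpos : ν (Set.Ioi 0) = 1)
    (hnc : ∀ c : ℝ, ν ≠ Measure.dirac c) (hmean : ∫ x, x ∂ν = 1)
    (hm2 : Integrable (fun x : ℝ => x ^ 2) ν)
    (Ω : Type) [MeasurableSpace Ω] (μ : Measure Ω) [IsProbabilityMeasure μ]
    (W : List ℕ → Ω → ℝ) (hW : Crest.AnalysisR.TreeProduct.IsRealization ν μ W) :
    ¬ FiniteDimensional ℝ (Crest.AnalysisR.TreeProduct.productSpan μ W) ∧
      ∀ N : (Crest.AnalysisR.TreeProduct.spanBanach μ W).X → ℝ,
        (Crest.AnalysisR.TreeProduct.spanBanach μ W).IsEquivNorm N →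
          ¬ (Crest.AnalysisR.TreeProduct.spanBanach μ W).IsAUC N := by
  classical
  have hcl : IsClosed ((TreeProduct.productSpan μ W : Submodule ℝ (Lp ℝ 1 μ)) : Set (Lp ℝ 1 μ)) :=
    Submodule.isClosed_topologicalClosure _
  have : CompleteSpace (TreeProduct.productSpan μ W) := hcl.completeSpace_coe
  have hint := R125.Prod.integrable_pathProduct hW hm2
  let S : List ℕ → TreeProduct.productSpan μ W := fun v =>
    ⟨(hint v).toL1 _, Submodule.le_topologicalClosure _
      (Submodule.subset_span ⟨v, Integrable.coeFn_toL1 _⟩)⟩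
  have hS : ∀ v, ((S v : Lp ℝ 1 μ) : Ω → ℝ) =ᵐ[μ] TreeProduct.pathProduct W v := fun v =>
    Integrable.coeFn_toL1 (hint v)
  -- norms of combinations of sibling increments
  have hnorm : ∀ (v : List ℕ) (s : Finset ℕ) (c : ℕ → ℝ),
      ‖∑ a ∈ s, c a • (S (a :: v) - S v)‖ = ∫ z, |∑ a ∈ s, c a * (W (a :: v) z - 1)| ∂μ := by
    intro v s c
    have hg : Measurable[R125.Prod.sig W {u | u.length = v.length + 1}]
        (fun z => ∑ a ∈ s, c a * (W (a :: v) z - 1)) := by
      refine Finset.measurable_fun_sum (m := R125.Prod.sig W {u | u.length = v.length + 1}) s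
        fun a _ => ?_
      exact ((R125.Prod.measurable_sig (W := W) (S := {u | u.length = v.length + 1})
        (u := a :: v) (by simp)).sub_const 1).const_mul _
    have hg' : Measurable (fun z => ∑ a ∈ s, c a * (W (a :: v) z - 1)) :=
      Finset.measurable_fun_sum s fun a _ => ((hW.1 _).sub_const 1).const_mul _
    rw [← R125.Prod.integral_abs_mul hW hpos hmean v hg hg', ← Submodule.norm_coe,
      L1.norm_eq_integral_norm]
    refine integral_congr_ae ?_
    have h1 : ∀ a, ∀ᵐ z ∂μ, ((c a • ((S (a :: v) : Lp ℝ 1 μ) - (S v : Lp ℝ 1 μ)) : Lp ℝ 1 μ) :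
        Ω → ℝ) z = TreeProduct.pathProduct W v z * (c a * (W (a :: v) z - 1)) := by
      intro a
      filter_upwards [Lp.coeFn_smul (c a) ((S (a :: v) : Lp ℝ 1 μ) - (S v : Lp ℝ 1 μ)),
        Lp.coeFn_sub (S (a :: v) : Lp ℝ 1 μ) (S v : Lp ℝ 1 μ), hS (a :: v), hS v]
        with z h1 h2 h3 h4
      rw [h1, Pi.smul_apply, h2, Pi.sub_apply, h3, h4]
      simp only [TreeProduct.pathProduct, smul_eq_mul]
      ring
    have h2 : ((∑ a ∈ s, c a • (S (a :: v) - S v) : TreeProduct.productSpan μ W) : Lp ℝ 1 μ) =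
        ∑ a ∈ s, c a • ((S (a :: v) : Lp ℝ 1 μ) - (S v : Lp ℝ 1 μ)) := by
      simp
    rw [h2]
    filter_upwards [Lp.coeFn_finsetSum s
      (fun a => c a • ((S (a :: v) : Lp ℝ 1 μ) - (S v : Lp ℝ 1 μ))), ae_all_iff.2 h1]
      with z hz1 hz2
    rw [hz1, Finset.sum_apply, Finset.mul_sum]
    congr 1
    exact Finset.sum_congr rfl fun a _ => hz2 a
  have hup : ∀ (v : List ℕ) (s : Finset ℕ) (c : ℕ → ℝ),
      ‖∑ a ∈ s, c a • (S (a :: v) - S v)‖ ≤
        Real.sqrt (Var[fun x : ℝ => x; ν]) * Real.sqrt (∑ a ∈ s, c a ^ 2) := by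
    intro v s c
    rw [hnorm]
    exact R125.Prod.integral_abs_sum_le hW hmean hm2 v s c
  set δ : ℝ := ∫ x, |x - 1| ∂ν with hδ
  have hδ0 : 0 < δ := R125.Prod.integral_abs_sub_pos hnc hm2
  have hinc : ∀ (v : List ℕ) (a : ℕ), ‖S (a :: v) - S v‖ = δ := by
    intro v a
    have h := hnorm v {a} (fun _ => 1)
    simp only [Finset.sum_singleton, one_smul, one_mul] at h
    rw [h, hδ]
    exact R125.Prod.integral_comp_W hW (List.cons_ne_nil a v) (f := fun x => |x - 1|)
      (by fun_prop)
  have hS1 : ∀ v, ‖S v‖ = 1 := by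
    intro v
    rw [← Submodule.norm_coe, L1.norm_eq_integral_norm,
      ← R125.Prod.integral_pathProduct hW hmean v]
    refine integral_congr_ae ?_
    filter_upwards [hS v, R125.Prod.ae_pos_pathProduct hW hpos v] with z h1 h2
    rw [h1, Real.norm_eq_abs, abs_of_pos h2]
  refine ⟨fun hfin => ?_, fun N hN => ?_⟩
  · have hF := R125.isCof_ker (X := TreeProduct.productSpan μ W)
      (ContinuousLinearMap.id ℝ (TreeProduct.productSpan μ W))
    obtain ⟨n, y, hy, hn⟩ := R125.exists_near_cof_of_upper_l2 (fun a => S (a :: []) - S [])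
      _ (hup []) _ hF δ hδ0
    have hy0 : y = 0 := hy
    rw [hy0, sub_zero] at hn
    exact lt_irrefl _ ((hinc [] n).symm.trans_lt hn)
  · refine R125.not_isAUC_of_trees (X := TreeProduct.productSpan μ W) (min 1 (δ / 2)) 1
      (lt_min one_pos (half_pos hδ0)) (fun _ => Set.range S) ?_ ?_ ?_ N hN
    · intro k
      exact ⟨S [], ⟨[], rfl⟩, by rw [hS1]; exact min_le_left _ _⟩
    · rintro k x ⟨v, rfl⟩
      exact (hS1 v).le
    · rintro k x ⟨v, rfl⟩ F hF ε hε
      obtain ⟨n, y, hy, hn⟩ := R125.exists_near_cof_of_upper_l2 (fun a => S (a :: v) - S v)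
        _ (hup v) F hF (min ε (δ / 2)) (lt_min hε (half_pos hδ0))
      refine ⟨y, hy, ?_, S (n :: v), ⟨_, rfl⟩, ?_⟩
      · have h1 := norm_sub_norm_le (S (n :: v) - S v) y
        rw [hinc] at h1
        have h2 : δ - ‖y‖ < δ / 2 := (h1.trans_lt hn).trans_le (min_le_right ε (δ / 2))
        have h3 : δ / 2 ≤ ‖y‖ := by linarith
        exact (min_le_right 1 (δ / 2)).trans h3
      · have e : S v + y - S (n :: v) = -(S (n :: v) - S v - y) := by abel
        rw [e, norm_neg]
        exact hn.le.trans (min_le_left _ _)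

end Crest.Agent.S0169
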