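import Crest.Statements.S0172
import Crest.Agent.R128.Glue

set_option autoImplicit false
open Crest.AnalysisR.StandardFamily
open Crest Crest.AnalysisR Crest.AnalysisR.StandardFamily

namespace Crest.Agent.S0172

/-- For every sufficiently large parameter `k`, the standard map `(x, y) ↦ (x + y + k sin 2πx, y + k sin 2πx)` of the two-torus has a positive upper Lyapunov exponent on a set of positive area: the set of points `p` of the unit square for which some `c > 0` has `log ‖D(F^n)(p)‖ ≥ c·n` for infinitely many `n`, where `F` is the lift of the map to the plane, has positive Lebesgue measure. -/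
theorem result :
    ∃ k₀ : ℝ, 0 < k₀ ∧ ∀ k : ℝ, k₀ ≤ k →
      0 < MeasureTheory.volume ({p : ℝ × ℝ | ∃ c : ℝ, 0 < c ∧
          ∃ᶠ n : ℕ in Filter.atTop, c * n ≤ Real.log ‖fderiv ℝ (standardMapLift k)^[n] p‖} ∩
        Set.Ico (0 : ℝ) 1 ×ˢ Set.Ico (0 : ℝ) 1) :=
  Crest.Agent.R128.main

end Crest.Agent.S0172
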