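import Crest.Statements.S0175
import Crest.Agent.R130.Main

set_option autoImplicit false
open MeasureTheory
open scoped ENNReal ContDiff
open Crest.AnalysisR.OT
open Crest Crest.AnalysisR Crest.AnalysisR.OT

namespace Crest.Agent.S0175

/-- For every d ≥ 2 and s > 0 there is a smooth, compactly supported, nonnegative ρ on ℝᵈ with integral 1 and smooth square root such that, for μ = ρ dx and the cost summing ‖xᵢ - xⱼ‖^(-s) over the three pairs of a triple: some coupling with all three marginals μ has finite cost, minimal among all such couplings; every pair of Borel maps T₂, T₃ pushing μ to itself gives the plan x ↦ (x, T₂ x, T₃ x) strictly larger cost; and such pairs have costs arbitrarily close to that minimum. -/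
theorem result
    (d : ℕ) (hd : 2 ≤ d) (s : ℝ) (hs : 0 < s) :
    ∃ ρ : EuclideanSpace ℝ (Fin d) → ℝ, (∀ x, 0 ≤ ρ x) ∧ ContDiff ℝ ∞ ρ ∧ HasCompactSupport ρ ∧
      ContDiff ℝ ∞ (fun x => Real.sqrt (ρ x)) ∧ ∫ x, ρ x = 1 ∧
      ∃ π₀ : Measure (EuclideanSpace ℝ (Fin d) × EuclideanSpace ℝ (Fin d) × EuclideanSpace ℝ (Fin d)),
        IsCoupling₃ (measOfDensity ρ) π₀ ∧ ∫⁻ p, tripleCost s p ∂π₀ < ⊤ ∧
        (∀ π : Measure (EuclideanSpace ℝ (Fin d) × EuclideanSpace ℝ (Fin d) × EuclideanSpace ℝ (Fin d)), IsCoupling₃ (measOfDensity ρ) π →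
          ∫⁻ p, tripleCost s p ∂π₀ ≤ ∫⁻ p, tripleCost s p ∂π) ∧
        (∀ T₂ T₃ : EuclideanSpace ℝ (Fin d) → EuclideanSpace ℝ (Fin d), Measurable T₂ → Measurable T₃ →
          (measOfDensity ρ).map T₂ = measOfDensity ρ → (measOfDensity ρ).map T₃ = measOfDensity ρ →
          ∫⁻ p, tripleCost s p ∂π₀ < ∫⁻ x, tripleCost s (x, T₂ x, T₃ x) ∂(measOfDensity ρ)) ∧
        (∀ ε : ℝ≥0∞, 0 < ε → ∃ T₂ T₃ : EuclideanSpace ℝ (Fin d) → EuclideanSpace ℝ (Fin d), Measurable T₂ ∧ Measurable T₃ ∧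
          (measOfDensity ρ).map T₂ = measOfDensity ρ ∧ (measOfDensity ρ).map T₃ = measOfDensity ρ ∧
          ∫⁻ x, tripleCost s (x, T₂ x, T₃ x) ∂(measOfDensity ρ) < ∫⁻ p, tripleCost s p ∂π₀ + ε) := by
  let i0 : Fin d := ⟨0, by omega⟩
  let i1 : Fin d := ⟨1, by omega⟩
  have h01 : i0 ≠ i1 := by simp [i0, i1, Fin.ext_iff]
  let e : Fin 3 → EuclideanSpace ℝ (Fin d) :=
    ![EuclideanSpace.single i0 1, EuclideanSpace.single i1 1,
      EuclideanSpace.single i0 (3 / 5) + EuclideanSpace.single i1 (4 / 5)]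
  have he : ∀ i, ‖e i‖ = 1 := by
    intro i
    fin_cases i
    · simp [e]
    · simp [e]
    · have h : ‖EuclideanSpace.single i0 (3 / 5 : ℝ) + EuclideanSpace.single i1 (4 / 5 : ℝ)‖ ^ 2
          = 1 := by
        rw [norm_add_sq_real, EuclideanSpace.inner_single_left]
        simp [h01]
        norm_num
      simpa [e] using (pow_eq_one_iff_of_nonneg (norm_nonneg _) (by norm_num)).1 h
  have h0 : ∀ i, e i i0 = ![1, 0, 3 / 5] i := by
    intro i
    fin_cases i <;> simp [e, h01]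
  refine Crest.Agent.R130.main hs e he fun i j hij => ⟨fun h => ?_, fun h => ?_⟩
  · have := h0 i
    rw [h, h0 j] at this
    fin_cases i <;> fin_cases j <;> simp at hij this <;> norm_num at this
  · have := h0 i
    rw [h, PiLp.neg_apply, h0 j] at this
    fin_cases i <;> fin_cases j <;> simp at hij this <;> norm_num at this

end Crest.Agent.S0175
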