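import Crest.Statements.S0209
import Crest.Agent.R149.Final

set_option autoImplicit false
open Crest Crest.ProbabilityR

namespace Crest.Agent.S0209

/-- There is a bounded continuous stable radial pair potential in three-space (energy of `N` particles `≥ -B N`) with `φ(r)` at most `C r^(-3-1/32)` in size for `r ≥ 1`, an open density interval centred at `5p/3`, `p > 0` the unit-separation packing density (`packingNumber L / L^3 → p`), and one `β_c ∈ [7/8, 9/8]` such that at each `ρ` in it the free energy per volume `-lim_L log Z_{[0,L]^3, ⌊ρL^3⌋}(β)/(β L^3)` exists for `β > 0`, with one-sided `β`-derivatives at `β_c`, left above right. -/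
theorem result :
    ∃ φ : ℝ → ℝ, Continuous φ ∧ (∃ M : ℝ, ∀ r : ℝ, |φ r| ≤ M) ∧
      (∃ B : ℝ, ∀ (N : ℕ) (x : Fin N → Crest.ProbabilityR.Continuum.Pt), -B * N ≤ Crest.ProbabilityR.Continuum.energy φ x) ∧
      (∃ C : ℝ, ∀ r : ℝ, 1 ≤ r → |φ r| ≤ C * r ^ (-(3 + 1 / 32 : ℝ))) ∧
      ∃ p η βc : ℝ, 0 < p ∧
        Filter.Tendsto (fun L : ℝ => (Crest.ProbabilityR.Continuum.packingNumber L : ℝ) / L ^ 3)
          Filter.atTop (nhds p) ∧
        0 < η ∧ η ≤ 5 * p / 3 ∧ 7 / 8 ≤ βc ∧ βc ≤ 9 / 8 ∧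
        ∃ f : ℝ → ℝ → ℝ,
          (∀ ρ : ℝ, 5 * p / 3 - η < ρ → ρ < 5 * p / 3 + η → ∀ β : ℝ, 0 < β →
            Filter.Tendsto (fun L : ℝ => -(1 / (β * L ^ 3)) *
                Real.log (Crest.ProbabilityR.Continuum.partitionFn φ L ⌊ρ * L ^ 3⌋₊ β))
              Filter.atTop (nhds (f β ρ))) ∧
          (∀ ρ : ℝ, 5 * p / 3 - η < ρ → ρ < 5 * p / 3 + η → ∃ Dl Dr : ℝ,
            HasDerivWithinAt (fun β => f β ρ) Dl (Set.Iio βc) βc ∧
            HasDerivWithinAt (fun β => f β ρ) Dr (Set.Ioi βc) βc ∧ Dr < Dl) := by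
  obtain ⟨p, δ, η, H, q, ψ, hp1, hp, hδ, hδη, hη, hH, hq, hψc, hψ0, ⟨M, hM⟩, ⟨C, hC⟩, -, hmain⟩ :=
    R149.main
  have hcore := R149.core_softCore hδ hδη hη hH.le
  obtain ⟨B, b, hadm, hb, hk⟩ := hmain _ hcore
  set φ : ℝ → ℝ := fun r => R149.softCore δ η H r - ψ r with hφ
  have hφc : Continuous φ := (R149.continuous_softCore δ η H).sub hψc
  have hφb : ∀ r, |φ r| ≤ H + M := fun r => abs_le.mpr
    ⟨by linarith [hcore.nonneg r, hM r], by linarith [R149.softCore_le (δ := δ) (η := η) hH.le r, hψ0 r, hM r]⟩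
  obtain ⟨l, hl, hl3⟩ : ∃ l : ℝ, 0 < l ∧ l ^ 3 = 3 * q / (10 * p) :=
    ⟨(3 * q / (10 * p)) ^ ((3 : ℕ) : ℝ)⁻¹, Real.rpow_pos_of_pos (by positivity) _,
      Real.rpow_inv_natCast_pow (by positivity) (by norm_num)⟩
  have hrange : ∀ ρ : ℝ, 5 * p / 3 - p / 2 < ρ → ρ < 5 * p / 3 + p / 2 →
      q / 3 < ρ * l ^ 3 ∧ ρ * l ^ 3 < 2 * q / 3 := by
    intro ρ h1 h2
    rw [hl3, ← mul_div_assoc, lt_div_iff₀ (by positivity), div_lt_iff₀ (by positivity)]
    constructor <;> nlinarith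
  refine ⟨fun r => b * φ (r / l), by fun_prop, ⟨b * (H + M), fun r => ?_⟩, ⟨b * B, fun N x => ?_⟩,
    ?_, p, p / 2, 1, by linarith, hp, by linarith, by linarith, by norm_num, by norm_num,
    fun β ρ => (-(3 * ρ * Real.log l) + R149.g φ (b * β) (ρ * l ^ 3) / l ^ 3) / β,
    fun ρ h1 h2 β hβ => R149.tendsto_rescale hadm hb hl (by linarith) hβ, fun ρ h1 h2 => ?_⟩
  · rw [abs_mul, abs_of_pos hb]
    exact mul_le_mul_of_nonneg_left (hφb _) hb.le
  · rw [R149.energy_rescale φ b hl, R149.energy_eq_en]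
    have := mul_le_mul_of_nonneg_left (hadm.stable N (l⁻¹ • x)) hb.le
    linarith
  · have hall : ∀ r, 0 < r → |φ r| ≤ (|C| + (H + M) * 2 ^ (3 + 1 / 32 : ℝ)) * r ^ (-(3 + 1 / 32 : ℝ)) := by
      intro r hr
      have hr' : 0 < r ^ (-(3 + 1 / 32 : ℝ)) := Real.rpow_pos_of_pos hr _
      have hHM : 0 ≤ H + M := (abs_nonneg _).trans (hφb 0)
      have h1 : 0 ≤ (H + M) * 2 ^ (3 + 1 / 32 : ℝ) * r ^ (-(3 + 1 / 32 : ℝ)) := by positivity
      have h2 : 0 ≤ |C| * r ^ (-(3 + 1 / 32 : ℝ)) := by positivity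
      rcases le_total 2 r with h | h
      · have h3 : φ r = -ψ r := by simp only [hφ, hcore.zero₂ r (by linarith), zero_sub]
        have h4 := mul_le_mul_of_nonneg_right (le_abs_self C) hr'.le
        rw [h3, abs_neg, abs_of_nonneg (hψ0 r)]
        linarith [hC r hr]
      · have h3 : (2 : ℝ) ^ (-(3 + 1 / 32 : ℝ)) ≤ r ^ (-(3 + 1 / 32 : ℝ)) :=
          Real.rpow_le_rpow_of_nonpos hr h (by norm_num)
        have h4 : (2 : ℝ) ^ (3 + 1 / 32 : ℝ) * 2 ^ (-(3 + 1 / 32 : ℝ)) = 1 := by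
          rw [← Real.rpow_add (by norm_num)]; simp
        have h5 := mul_le_mul_of_nonneg_left h3
          (show 0 ≤ (H + M) * 2 ^ (3 + 1 / 32 : ℝ) by positivity)
        rw [mul_assoc, h4] at h5
        linarith [hφb r]
    refine ⟨b * ((|C| + (H + M) * 2 ^ (3 + 1 / 32 : ℝ)) / l ^ (-(3 + 1 / 32 : ℝ))), fun r hr => ?_⟩
    have h1 := hall (r / l) (by positivity)
    rw [Real.div_rpow (by linarith) hl.le] at h1
    rw [abs_mul, abs_of_pos hb, mul_assoc]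
    refine mul_le_mul_of_nonneg_left (h1.trans (le_of_eq ?_)) hb.le
    ring
  · obtain ⟨Dl, Dr, h3, h4, h5⟩ := hk (ρ * l ^ 3) (hrange ρ h1 h2).1 (hrange ρ h1 h2).2
    exact R149.kink_rescale hb (pow_pos hl 3) h3 h4 h5

end Crest.Agent.S0209
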