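import Crest.Statements.S0210
import Crest.Agent.R149.Final

set_option autoImplicit false
open Crest Crest.ProbabilityR

namespace Crest.Agent.S0210

/-- There is a measurable radial pair potential in three-space, finite and locally bounded at positive distances, tending to `+∞` at `0`, below `-a < 0` on an interval, with `r² φ(r)` integrable at large `r`, `r³ φ(r) → 0`, and stable on configurations of distinct points, whose canonical free energy per volume `-lim_L log Z_{[0,L]^3, ⌊ρL^3⌋}(β)/(β L^3)` exists for all `β, ρ > 0` and has, on some open density interval, at one `β_c ∈ (1/2, 3/2)` a left `β`-derivative strictly above the right. -/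
theorem result :
    ∃ φ : ℝ → ℝ, Measurable φ ∧
      (∀ a b : ℝ, 0 < a → a ≤ b → ∃ M : ℝ, ∀ r : ℝ, a ≤ r → r ≤ b → |φ r| ≤ M) ∧
      Filter.Tendsto φ (nhdsWithin 0 (Set.Ioi 0)) Filter.atTop ∧
      (∃ r₁ r₂ a : ℝ, 0 < r₁ ∧ r₁ < r₂ ∧ 0 < a ∧ ∀ r : ℝ, r₁ ≤ r → r ≤ r₂ → φ r ≤ -a) ∧
      (∃ R : ℝ, 0 < R ∧ MeasureTheory.IntegrableOn (fun r : ℝ => r ^ 2 * |φ r|) (Set.Ioi R)) ∧
      Filter.Tendsto (fun r : ℝ => r ^ 3 * φ r) Filter.atTop (nhds 0) ∧
      (∃ B : ℝ, ∀ (N : ℕ) (x : Fin N → Crest.ProbabilityR.Continuum.Pt), Function.Injective x →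
        -B * N ≤ Crest.ProbabilityR.Continuum.energy φ x) ∧
      ∃ f : ℝ → ℝ → ℝ,
        (∀ ρ : ℝ, 0 < ρ → ∀ β : ℝ, 0 < β →
          Filter.Tendsto (fun L : ℝ => -(1 / (β * L ^ 3)) *
              Real.log (Crest.ProbabilityR.Continuum.partitionFn φ L ⌊ρ * L ^ 3⌋₊ β))
            Filter.atTop (nhds (f β ρ))) ∧
        ∃ ρ₁ ρ₂ βc : ℝ, 0 ≤ ρ₁ ∧ ρ₁ < ρ₂ ∧ 1 / 2 < βc ∧ βc < 3 / 2 ∧
          ∀ ρ : ℝ, ρ₁ < ρ → ρ < ρ₂ → ∃ Dl Dr : ℝ,
            HasDerivWithinAt (fun β => f β ρ) Dl (Set.Iio βc) βc ∧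
            HasDerivWithinAt (fun β => f β ρ) Dr (Set.Ioi βc) βc ∧ Dr < Dl := by
  obtain ⟨p, δ, η, H, q, ψ, hp1, hp, hδ, hδη, hη, hH, hq, hψc, hψ0, ⟨M, hM⟩, ⟨C, hC⟩, ⟨c, hc, hcψ⟩,
    hmain⟩ := R149.main
  have hsoft := R149.core_softCore hδ hδη hη hH.le
  have hcore := R149.core_hardCore hδ hδη hη hH.le
  obtain ⟨B, b, hadm, hb, hk⟩ := hmain _ hcore
  set φ : ℝ → ℝ := fun r => R149.hardCore δ η H r - ψ r with hφ
  have hfar : ∀ r, 2 ≤ r → φ r = -ψ r := fun r h => by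
    simp only [hφ, hcore.zero₂ r (by linarith), zero_sub]
  have hpow : ∀ r : ℝ, 2 ≤ r → ∀ n : ℕ, r ^ n * |b * φ (r / 1)| ≤ b * C * r ^ ((n : ℝ) - (3 + 1 / 32)) := by
    intro r hr n
    have hr0 : 0 < r := by linarith
    rw [div_one, hfar r hr, abs_mul, abs_neg, abs_of_pos hb, abs_of_nonneg (hψ0 r), sub_eq_add_neg,
      Real.rpow_add hr0, Real.rpow_natCast]
    have := mul_le_mul_of_nonneg_left (hC r hr0) (show 0 ≤ r ^ n * b by positivity)
    linarith
  refine ⟨fun r => b * φ (r / 1), ?_, fun s t hs hst => ?_, ?_, ⟨2, 3, b * c, by norm_num, by norm_num,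
    by positivity, fun r h1 h2 => ?_⟩, ⟨2, by norm_num, ?_⟩, ?_, ⟨b * B, fun N x _ => ?_⟩,
    fun β ρ => (-(3 * ρ * Real.log 1) + R149.g φ (b * β) (ρ * 1 ^ 3) / 1 ^ 3) / β,
    fun ρ hρ β hβ => R149.tendsto_rescale hadm hb one_pos hρ.le hβ,
    q / 3, 2 * q / 3, 1, by linarith, by linarith, by norm_num, by norm_num, fun ρ h1 h2 => ?_⟩
  · exact measurable_const.mul (hadm.meas.comp (measurable_id.div_const 1))
  · refine ⟨b * (H + s⁻¹ + M), fun r h1 h2 => ?_⟩
    beta_reduce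
    rw [div_one, abs_mul, abs_of_pos hb]
    refine mul_le_mul_of_nonneg_left (abs_le.mpr ⟨?_, ?_⟩) hb.le
    · have := inv_pos.mpr hs
      linarith [hcore.nonneg r, hM r]
    · have h3 : r⁻¹ ≤ s⁻¹ := inv_anti₀ hs h1
      have h4 : max 0 (r⁻¹ - 4 / δ) ≤ s⁻¹ := by
        have : 0 < 4 / δ := by positivity
        exact max_le (inv_pos.mpr hs).le (by linarith)
      have h5 := R149.softCore_le (δ := δ) (η := η) hH.le r
      simp only [hφ, R149.hardCore]
      linarith [hψ0 r, hM r]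
  · refine Filter.Tendsto.const_mul_atTop hb ?_
    refine Filter.tendsto_atTop_mono (f := fun r : ℝ => r⁻¹ + (-(4 / δ) - M)) (fun r => ?_)
      (Filter.tendsto_atTop_add_const_right _ _ tendsto_inv_nhdsGT_zero)
    simp only [hφ, R149.hardCore, div_one]
    linarith [hsoft.nonneg r, hM r, le_max_right 0 (r⁻¹ - 4 / δ)]
  · beta_reduce
    rw [div_one, hfar r h1]
    have := mul_le_mul_of_nonneg_left (hcψ r h1 h2) hb.le
    linarith
  · have hmeas : Measurable (fun r : ℝ => r ^ 2 * |b * φ (r / 1)|) :=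
      (measurable_id.pow_const 2).mul
        (measurable_const.mul (hadm.meas.comp (measurable_id.div_const 1))).abs
    have hint := (integrableOn_Ioi_rpow_of_lt (a := ((2 : ℕ) : ℝ) - (3 + 1 / 32)) (c := 2)
      (by norm_num) (by norm_num)).const_mul (b * C)
    refine MeasureTheory.Integrable.mono' hint hmeas.aestronglyMeasurable ?_
    filter_upwards [MeasureTheory.ae_restrict_mem measurableSet_Ioi] with r hr
    rw [Real.norm_eq_abs, abs_of_nonneg (by positivity)]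
    exact hpow r (le_of_lt hr) 2
  · have hlim : Filter.Tendsto (fun r : ℝ => b * C * r ^ (((3 : ℕ) : ℝ) - (3 + 1 / 32))) Filter.atTop
        (nhds 0) := by
      have := (tendsto_rpow_neg_atTop (y := 1 / 32) (by norm_num)).const_mul (b * C)
      rw [mul_zero] at this
      convert this using 3
      norm_num
    refine squeeze_zero_norm' ?_ hlim
    filter_upwards [Filter.eventually_ge_atTop 2] with r hr
    rw [Real.norm_eq_abs, abs_mul, abs_of_nonneg (show 0 ≤ r ^ 3 by positivity)]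
    exact hpow r hr 3
  · rw [R149.energy_rescale φ b one_pos, R149.energy_eq_en]
    have := mul_le_mul_of_nonneg_left (hadm.stable N ((1 : ℝ)⁻¹ • x)) hb.le
    linarith
  · obtain ⟨Dl, Dr, h3, h4, h5⟩ := hk (ρ * 1 ^ 3) (by simpa using h1) (by simpa using h2)
    exact R149.kink_rescale hb (pow_pos one_pos 3) h3 h4 h5

end Crest.Agent.S0210
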