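import Crest.Statements.S0243
import Crest.Agent.R162.Main

set_option autoImplicit false
open Crest.ProbabilityR.Loewner
open Crest Crest.ProbabilityR Crest.ProbabilityR.Loewner

namespace Crest.Agent.S0243

/-- Fix 0 < κ < 8, d = 1 + κ/8, and the gauge equal to r^d·(log log(1/r))^{(2−d)/2} at small radii. On a probability space carrying a real Brownian motion B, let γ be a random curve that is almost surely the chordal Loewner trace in the half-plane driven by √κ·B. Then almost surely every segment γ([s,t]), 0 < s < t, has positive finite gauge Hausdorff measure, and for every R the expected gauge measure of the trace inside the closed disk of radius R is finite. -/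
theorem result
    {Ω : Type*} [MeasurableSpace Ω] (P : MeasureTheory.Measure Ω) [MeasureTheory.IsProbabilityMeasure P]
    (κ : ℝ) (hκ : 0 < κ) (hκ8 : κ < 8)
    (B : NNReal → Ω → ℝ) (hB : ProbabilityTheory.IsBrownianReal B P)
    (γ : Ω → ℝ → ℂ) (hγ : ∀ᵐ ω ∂P, IsChordalTrace (driving κ B ω) (γ ω)) :
    (∀ᵐ ω ∂P, ∀ s t : ℝ, 0 < s → s < t →
        0 < gaugeMeasure κ (γ ω '' Set.Icc s t) ∧ gaugeMeasure κ (γ ω '' Set.Icc s t) < ⊤) ∧
      ∀ R : ℝ, ∫⁻ ω, gaugeMeasure κ (γ ω '' Set.Ici 0 ∩ Metric.closedBall 0 R) ∂P < ⊤ :=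
  Crest.Agent.R162.main P κ hκ hκ8 B hB γ hγ

end Crest.Agent.S0243
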