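import Crest.Statements.S0251
import Crest.Agent.R166.Final

set_option autoImplicit false
open Crest.ProbabilityR.RandomMatrix
open Crest Crest.ProbabilityR Crest.ProbabilityR.RandomMatrix

namespace Crest.Agent.S0251

/-- Fix d ≥ 3, an energy E with E² < 4(d−1), and a nonnegative continuous compactly supported h. The mean of exp(−Σ_i h(n·ρ·(λ_i − E))) over a uniformly random simple d-regular graph on n labelled vertices, the λ_i being its adjacency eigenvalues and ρ the Kesten–McKay density at E, minus the mean of exp(−Σ_i h((n/π)·μ_i)) over the normalised n×n Gaussian orthogonal ensemble with eigenvalues μ_i, tends to 0 as n grows through the sizes for which such graphs exist. -/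
theorem result
    (d : ℕ) (hd : 3 ≤ d) (E : ℝ) (hE : E ^ 2 < 4 * ((d : ℝ) - 1))
    (h : ℝ → ℝ) (hcont : Continuous h) (hsupp : HasCompactSupport h) (hpos : ∀ t, 0 ≤ h t) :
    ∀ ε : ℝ, 0 < ε → ∃ N : ℕ, ∀ n : ℕ, N ≤ n → (regularGraphs n d).Nonempty →
      |regularAverage n d (fun G => adjLaplaceWeight G (unfoldAt h (n * kestenMcKayDensity d E) E)) -
          ∫ g, goeLaplaceWeight g (unfoldAt h (n / Real.pi) 0) ∂goeDisorderLaw n| < ε := by
  exact R166.main0251 R166.stE R166.stP1 R166.stP2 R166.stZ0 R166.fin_T (R166.stKM R166.stC0)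
    R166.fin_LL R166.fin_LD R166.fin_B1 R166.fin_B0 R166.fin_M (R166.stG R166.stE) R166.stH
    d hd E hE h hcont hsupp hpos

end Crest.Agent.S0251
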