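import Crest.Statements.S0252
import Crest.Agent.R166.Final

set_option autoImplicit false
open Crest.ProbabilityR.RandomMatrix
open Crest Crest.ProbabilityR Crest.ProbabilityR.RandomMatrix

namespace Crest.Agent.S0252

/-- d ≥ 3, 0 < κ < 2√(d−1), I = [−2√(d−1)+κ, 2√(d−1)−κ]. For some s₀ > 0 and all 0 < s < s₀: the tree density-of-states law at disorder s (law on [−(d+s), d+s] with the averaged tree moments) exists with a continuous density near I, ρ > 0 on I; and for E ∈ I and continuous compactly supported h ≥ 0, the mean of exp(−Σ_i h(nρ(E)(λ_i − E))) for a uniform random d-regular graph on n vertices + s·(iid uniform[−1,1] potentials), minus the GOE mean of exp(−Σ_i h(nμ_i/π)), → 0 (n > d, nd even). -/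
theorem result
    (d : ℕ) (hd : 3 ≤ d) (κ : ℝ) (hκ : 0 < κ) (hκ' : κ < 2 * Real.sqrt ((d : ℝ) - 1)) :
    ∃ s₀ : ℝ, 0 < s₀ ∧ ∀ s : ℝ, 0 < s → s < s₀ →
      ∃ ν : MeasureTheory.Measure ℝ, IsTreeDOS d s ν ∧
        ∃ (ρ : ℝ → ℝ) (U : Set ℝ), IsOpen U ∧
          Set.Icc (-(2 * Real.sqrt ((d : ℝ) - 1)) + κ) (2 * Real.sqrt ((d : ℝ) - 1) - κ) ⊆ U ∧
          ContinuousOn ρ U ∧ (∀ t ∈ U, 0 ≤ ρ t) ∧
          ν.restrict U = (MeasureTheory.volume.restrict U).withDensity (fun t => ENNReal.ofReal (ρ t)) ∧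
          (∀ E ∈ Set.Icc (-(2 * Real.sqrt ((d : ℝ) - 1)) + κ) (2 * Real.sqrt ((d : ℝ) - 1) - κ), 0 < ρ E) ∧
          ∀ E ∈ Set.Icc (-(2 * Real.sqrt ((d : ℝ) - 1)) + κ) (2 * Real.sqrt ((d : ℝ) - 1) - κ),
            ∀ h : ℝ → ℝ, Continuous h → HasCompactSupport h → (∀ t, 0 ≤ h t) →
              ∀ ε : ℝ, 0 < ε → ∃ N : ℕ, ∀ n : ℕ, N ≤ n → d < n → Even (n * d) →
                |regularAverage n d (fun G => ∫ ω, disorderedLaplaceWeight G s ω
                      (unfoldAt h (n * ρ E) E) ∂potentialLaw n) -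
                    ∫ g, goeLaplaceWeight g (unfoldAt h (n / Real.pi) 0) ∂goeDisorderLaw n| < ε := by
  exact R166.main0252 R166.stE R166.stP1 R166.stP2 R166.stZ1 R166.fin_T
    (R166.stDOS R166.stT0 R166.stEnv) R166.stInv R166.fin_LL R166.fin_LD R166.fin_B1 R166.fin_B0
    R166.fin_M (R166.stG R166.stE) R166.stH d hd κ hκ

end Crest.Agent.S0252
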