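import Crest.Statements.S0253
import Crest.Agent.R167.Main

set_option autoImplicit false
open Crest.ProbabilityR.SpinModel
open Crest Crest.ProbabilityR Crest.ProbabilityR.SpinModel

namespace Crest.Agent.S0253

/-- Sphere-valued nearest-neighbour spins on finite pieces of the square lattice with free boundary: for every n ≥ 3 and every β > 0 there are constants A and m > 0 such that, for every finite vertex set, every assignment of edge strengths in [0, β] and every two vertices x, y of the set, the Gibbs average of the inner product of the spins at x and y lies between 0 and A · exp (−m · dist), where dist is the Euclidean distance from x to y. -/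
theorem result
    (n : ℕ) (hn : 3 ≤ n) (β : ℝ) (hβ : 0 < β) :
    ∃ A m : ℝ, 0 < m ∧
      ∀ (V : Finset (ℤ × ℤ)) (b : ℤ × ℤ → Fin 2 → ℝ),
        (∀ u i, 0 ≤ b u i ∧ b u i ≤ β) →
        ∀ x y : V,
          0 ≤ twoPoint n V b x y ∧
          twoPoint n V b x y ≤
            A * Real.exp (-m * Real.sqrt ((((x : ℤ × ℤ).1 - (y : ℤ × ℤ).1 : ℤ) : ℝ) ^ 2 +
              (((x : ℤ × ℤ).2 - (y : ℤ × ℤ).2 : ℤ) : ℝ) ^ 2)) := by
  exact Crest.Agent.R167.main n hn β hβ

end Crest.Agent.S0253
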