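import Crest.Statements.S0254
import Crest.Agent.R168.EdgeRule

set_option autoImplicit false
open Crest Crest.ProbabilityR

namespace Crest.Agent.S0254

attribute [local irreducible] R168.psiG R168.spl

/-- One rule from (graph on `ℕ`, labels in `[0,1]^ℕ`) to edge sets, jointly measurable in (adjacency table, labels) and commuting on every input with every permutation of `ℕ` acting on graph, labels and pairs, gives i.i.d. uniform labels the free uniform spanning forest's law on every connected locally finite graph: along every exhaustion by finite connected induced pieces, for finite edge sets `F` the chance that the piece's uniform spanning tree contains `F` tends to that for the output. -/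
theorem result :
    ∃ Φ : SimpleGraph ℕ → (ℕ → unitInterval) → (Sym2 ℕ → Bool),
      Measurable (fun p : (ℕ → ℕ → Bool) × (ℕ → unitInterval) =>
          Φ (Crest.ProbabilityR.GraphTables.graphOfTable p.1) p.2) ∧
      (∀ (σ : Equiv.Perm ℕ) (G : SimpleGraph ℕ) (x : ℕ → unitInterval),
          Φ (G.comap ⇑σ) (x ∘ ⇑σ) = Φ G x ∘ Sym2.map ⇑σ) ∧
      ∀ G : SimpleGraph ℕ, G.Connected → (∀ v : ℕ, (G.neighborSet v).Finite) →
        ∀ S : ℕ → Finset ℕ, Monotone S → (∀ v : ℕ, ∃ n, v ∈ S n) →
          (∀ n, (G.induce (S n : Set ℕ)).Connected) →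
          ∀ F : Finset (Sym2 ℕ), (↑F : Set (Sym2 ℕ)) ⊆ G.edgeSet →
            Filter.Tendsto (fun n => Crest.ProbabilityR.SpanningTrees.ustContains G (S n) F) Filter.atTop
              (nhds (((Crest.ProbabilityR.Labels.labelMeasure ℕ).map (Φ G) {ω | ∀ e ∈ F, ω e = true}).toReal)) := by
  classical
  refine ⟨fun G x => R168.psiG G (R168.timeL x, R168.unifL x), ?_, fun σ G x => ?_,
    fun G hG hlf S hmono hex hconn F hF => ?_⟩
  · exact R168.measurable_psiG_table.comp (measurable_fst.prodMk
      ((R168.measurable_timeL.comp measurable_snd).prodMk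
        (R168.measurable_unifL.comp measurable_snd)))
  · exact R168.psiG_comap σ G (R168.timeL x) (R168.unifL x)
  · obtain ⟨ν, hν, hlip, hinc⟩ := R168.exists_fusf G S hmono hex hconn
    have hlaw := R168.psiG_law G hG hlf ν hlip hinc
    set σ := Function.Embedding.subtype (· ∈ G.edgeSet) with hσ
    have hmσ : Measurable fun x : Sym2 ℕ → Bool => x ∘ σ :=
      measurable_pi_iff.2 fun j => measurable_pi_apply (σ j)
    have hm : Measurable fun x : ℕ → unitInterval => R168.psiG G (R168.timeL x, R168.unifL x) :=
      (R168.measurable_psiG G).comp (R168.measurable_timeL.prodMk R168.measurable_unifL)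
    have hpre : (fun x : Sym2 ℕ → Bool => x ∘ σ) ⁻¹'
        {ω | ∀ e ∈ F.subtype (· ∈ G.edgeSet), ω e = true} = {ω | ∀ e ∈ F, ω e = true} := by
      ext ω
      simp only [Set.mem_preimage, Set.mem_ofPred_eq, Finset.mem_subtype]
      exact ⟨fun h e he => h ⟨e, hF he⟩ he, fun h e he => h e he⟩
    have key : (Labels.labelMeasure ℕ).map (fun x => R168.psiG G (R168.timeL x, R168.unifL x))
        {ω | ∀ e ∈ F, ω e = true} = ν {ω | ∀ e ∈ F, ω e = true} := by
      rw [← hpre, ← MeasureTheory.Measure.map_apply hmσ (R168.measurableSet_incl _),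
        ← MeasureTheory.Measure.map_apply hmσ (R168.measurableSet_incl _), ← hlaw,
        MeasureTheory.Measure.map_map hmσ hm]
      rfl
    have h2 := R168.tendsto_ust G S hmono hex hconn F hF
    rw [← hinc F hF] at h2
    rw [key]
    exact h2

end Crest.Agent.S0254
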