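import Crest.Statements.S0255
import Crest.Agent.R168.OutLaw
import Crest.Agent.R168.MeasTilt
import Crest.Agent.R168.Labels

set_option autoImplicit false
open Crest Crest.ProbabilityR

namespace Crest.Agent.S0255

attribute [local irreducible] R168.out R168.tiltM R168.spl

/-- For a countable group `Γ` and a strongly Rayleigh probability law `ν` on binary configurations `Γ → Bool` that is invariant under every left shift `a ↦ (h ↦ a (g⁻¹ h))`, there is a measurable map from independent uniform labels indexed by `Γ` to configurations that commutes with every left shift and pushes the label law forward to `ν`. -/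
theorem result (Γ : Type*) [Group Γ]
    [Countable Γ] (ν : MeasureTheory.Measure (Γ → Bool)) [MeasureTheory.IsProbabilityMeasure ν]
    (hsr : Crest.ProbabilityR.StronglyRayleigh.IsStronglyRayleigh ν)
    (hinv : Crest.ProbabilityR.StronglyRayleigh.IsShiftInvariant ν) :
    ∃ Φ : (Γ → unitInterval) → (Γ → Bool), Measurable Φ ∧
      (∀ (g : Γ) (u : Γ → unitInterval),
        Φ (Crest.ProbabilityR.StronglyRayleigh.leftShift g u) =
          Crest.ProbabilityR.StronglyRayleigh.leftShift g (Φ u)) ∧
      (Crest.ProbabilityR.Labels.labelMeasure Γ).map Φ = ν := by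
  classical
  obtain ⟨en, hen⟩ := exists_surjective_nat Γ
  let σ : Γ → Γ ↪ Γ := fun g => ⟨fun h => g * h, mul_right_injective g⟩
  let F : Γ → ℕ → Finset Γ := fun g n => ((Finset.range n).image en).map (σ g)
  have hF : ∀ g, Monotone (F g) := fun g m n hmn =>
    Finset.map_subset_map.2 (Finset.image_subset_image (Finset.range_mono hmn))
  have hex : ∀ g j, ∃ n, j ∈ F g n := by
    intro g j
    obtain ⟨k, hk⟩ := hen (g⁻¹ * j)
    refine ⟨k + 1, Finset.mem_map.2 ⟨g⁻¹ * j, Finset.mem_image.2 ⟨k, by simp, hk⟩, ?_⟩⟩
    simp [σ]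
  let q : Γ → ℕ → (Γ → ℝ) → ℝ := fun i n => R168.tiltM ν (F i n) i
  let Ψ : (Γ → ℝ) × (Γ × ℕ → ℝ) → (Γ → Bool) := fun p =>
    R168.out q (fun j i => p.1 j < p.1 i) p.2
  have hΨ : Measurable Ψ :=
    R168.measurable_out (Θ := (Γ → ℝ) × (Γ × ℕ → ℝ)) (q := fun _ => q)
      (r := fun p j i => p.1 j < p.1 i)
      (fun i n => (R168.measurable_tiltM _ _ _).comp measurable_snd)
      (fun j i => measurableSet_lt (by fun_prop) (by fun_prop)) measurable_snd
  refine ⟨fun x => Ψ (R168.timeL x, R168.unifL x),
    hΨ.comp (R168.measurable_timeL.prodMk R168.measurable_unifL), fun g u => ?_, ?_⟩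
  · funext i
    have hmap : ν.map (fun x => x ∘ σ g⁻¹) = ν := by
      ext A hA
      have hm : Measurable fun x : Γ → Bool => x ∘ σ g⁻¹ :=
        measurable_pi_iff.2 fun j => measurable_pi_apply (σ g⁻¹ j)
      rw [MeasureTheory.Measure.map_apply hm hA]
      exact hinv g A hA
    refine R168.out_comp (σ g⁻¹) (q := q) (q' := q)
      (r := fun j i => R168.timeL (StronglyRayleigh.leftShift g u) j <
        R168.timeL (StronglyRayleigh.leftShift g u) i)
      (r' := fun j i => R168.timeL u j < R168.timeL u i)
      (U := R168.unifL (StronglyRayleigh.leftShift g u)) (U' := R168.unifL u)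
      (fun i n h => ?_) (fun j i => Iff.rfl) (fun i k => rfl) i
    have := R168.tiltM_map (σ g⁻¹) ν (F i n) i h
    rw [hmap] at this
    refine this.trans ?_
    have hFF : (F i n).map (σ g⁻¹) = F (σ g⁻¹ i) n := by
      simp only [F, Finset.map_map]
      congr 1
      ext h
      simp [σ, mul_assoc]
    rw [hFF]
  · refine R168.label_map_eq hΨ fun t ht => ?_
    exact R168.out_law ν hF hex (R168.lipTilt_of_stronglyRayleigh ν hsr) ht (fun _ _ => Iff.rfl)

end Crest.Agent.S0255
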