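import Crest.Statements.S0263
import Crest.Agent.R175.Fin.Top
import Crest.Agent.R175.Cp.Main
import Crest.Agent.R175.Mod.Pre
import Crest.Agent.R175.Mod.Braid

set_option autoImplicit false
open Crest Crest.AlgebraR

namespace Crest.Agent.S0263

/-- Let `M` be a Coxeter matrix on a finite index type and `A` its Artin group (one generator for each index, one braid relation of length `M s t` for each pair with finite label). Call a subgroup of `A` parabolic when it is a conjugate of the subgroup generated by a subset of the generators. Then the intersection of any two parabolic subgroups of `A` is again parabolic. -/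
theorem result
    (S : Type*) [Finite S] (M : CoxeterMatrix S)
    (P Q : Subgroup (Crest.GroupTheory.ArtinGroup M))
    (hP : Crest.GroupTheory.IsParabolic M P) (hQ : Crest.GroupTheory.IsParabolic M Q) :
    Crest.GroupTheory.IsParabolic M (P ⊓ Q) := by
  exact Crest.Agent.R175.P.fin_top (Crest.Agent.R175.Mod.sl_of_braid Crest.Agent.R175.Mod.braid_TT)
    (fun _ _ R _ hU => Crest.Agent.R175.P.cprime R hU) S M P Q hP hQ

end Crest.Agent.S0263
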