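import Crest.Statements.S0273
import Crest.Agent.R183.Top

set_option autoImplicit false
open Crest Crest.AlgebraR

namespace Crest.Agent.S0273

/-- Let R → S be a flat local homomorphism of Noetherian local rings of Krull dimensions d and d'. If e and e' are the Hilbert–Samuel multiplicities of R and S, that is the limits of d! · length(R/m^N) / N^d and of d'! · length(S/n^N) / N^d' as N → ∞ (m, n the maximal ideals), then e ≤ e'. The multiplicities enter as real numbers through these limit hypotheses. -/
theorem result (R S : Type) [CommRing R]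
    [CommRing S] [IsNoetherianRing R] [IsNoetherianRing S] [IsLocalRing R] [IsLocalRing S]
    (f : R →+* S) (hf : IsLocalHom f) (hflat : f.Flat) (d d' : ℕ) (hd : ringKrullDim R = d)
    (hd' : ringKrullDim S = d') (e e' : ℝ)
    (he : Filter.Tendsto (fun N : ℕ => (Nat.factorial d : ℝ) *
        ((Module.length R (R ⧸ IsLocalRing.maximalIdeal R ^ N)).toNat : ℝ) / (N : ℝ) ^ d)
      Filter.atTop (nhds e))
    (he' : Filter.Tendsto (fun N : ℕ => (Nat.factorial d' : ℝ) *
        ((Module.length S (S ⧸ IsLocalRing.maximalIdeal S ^ N)).toNat : ℝ) / (N : ℝ) ^ d')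
      Filter.atTop (nhds e')) :
    e ≤ e' := by
  have h := R183.lech f hflat hd hd'
  obtain ⟨h1, -⟩ := R183.up_eq_of_tendsto (R183.HS_ne_top R) he
  obtain ⟨h2, h3⟩ := R183.up_eq_of_tendsto (R183.HS_ne_top S) he'
  rw [h1, h2] at h
  exact (ENNReal.ofReal_le_ofReal_iff h3).1 h

end Crest.Agent.S0273
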