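import Crest.Statements.S0279
import Crest.Agent.R185.CHig
import Crest.Agent.R185.CUniv
import Crest.Agent.R185.CGlue

set_option autoImplicit false
open Crest Crest.AlgebraR

namespace Crest.Agent.S0279

/-- There is a group of type `F∞` — the fundamental group of an aspherical Hausdorff CW complex with finitely many cells in each dimension — into which every finitely presented group admits an injective homomorphism. -/
theorem result :
    ∃ (H : Type) (_ : Group H), Crest.Topology.HasFiniteTypeClassifyingComplex H ∧
      ∀ (G : Type) [Group G], Group.IsFinitelyPresented G →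
        ∃ f : G →* H, Function.Injective f := by
  obtain ⟨U, _, h1, h2⟩ := R185.universal_of_higman fun V hV hc => by
    have hN : (Subgroup.closure V).Normal := ⟨fun x hx g => by
      induction hx using Subgroup.closure_induction with
      | mem v hv => exact Subgroup.subset_closure (hc g v hv)
      | one => simp
      | mul x y _ _ hx hy => simpa [mul_assoc] using Subgroup.mul_mem _ hx hy
      | inv x _ hx => simpa [mul_assoc] using Subgroup.inv_mem _ hx⟩
    obtain ⟨Y, _, _, _, G', _, π', f, R, h1, h2, h3, h4, -⟩ := R185.higman
      (QuotientGroup.mk' (Subgroup.closure V)) (QuotientGroup.mk'_surjective _) V hV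
      (QuotientGroup.ker_mk' _).symm
    refine ⟨G', inferInstance, f.comp (QuotientGroup.mk' _),
      Group.IsFinitelyPresented.of_surjective π' h1 ⟨R, h3, h4⟩, ?_⟩
    rw [← MonoidHom.comap_ker, (MonoidHom.ker_eq_bot_iff f).2 h2, MonoidHom.comap_bot,
      QuotientGroup.ker_mk']
  exact R185.finiteType_of_universal U h2

end Crest.Agent.S0279
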