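import Crest.Statements.S0285
import Crest.Agent.R186.Field
import Crest.Agent.R186.Gamma

set_option autoImplicit false
open CategoryTheory Crest.AlgebraR
universe u
open Crest Crest.AlgebraR

namespace Crest.Agent.S0285

/-- Over every field extension K of the rational function field in three variables over the field with two elements there are a finite-dimensional K-algebra Γ and a finitely generated left Γ-module W that is projective and injective and is Wakamatsu tilting (self-orthogonal, with an exact coresolution of Γ by summands of finite sums of copies of W that stays exact under Hom(−, W)) but not tilting (no such finite coresolution, given finite projective dimension and self-orthogonality). -/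
theorem result
    (K : Type u) [Field K] [Algebra (FractionRing (MvPolynomial (Fin 3) (ZMod 2))) K] :
    ∃ (Γ : Type u) (_ : Ring Γ) (_ : Algebra K Γ), FiniteDimensional K Γ ∧
      ∃ (W : Type u) (_ : AddCommGroup W) (_ : Module Γ W), Module.Finite Γ W ∧
        Module.Projective Γ W ∧ Module.Injective Γ W ∧
        IsWakamatsuTilting Γ W ∧ ¬ IsTilting Γ W := by
  obtain ⟨A, _, _, hfin, hs, T, hV, hN⟩ := Crest.Agent.R186.exists_symm_data K
  exact Crest.Agent.R186.gamma_wakamatsu K A hs T hV hN

end Crest.Agent.S0285
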