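import Crest.Statements.S0286
import Crest.Agent.R187.C.Final
import Crest.Agent.R187.Pad
import Crest.Agent.R187.Surj
import Crest.Agent.R187.Equiv

set_option autoImplicit false
open Crest.AlgebraR.FoulkesHowe
open Crest Crest.AlgebraR

namespace Crest.Agent.S0286

/-- Fix n and b ≥ 6. For a blocks of n complex variables let R(a, b) be the space of polynomials invariant under permuting the blocks and homogeneous of degree b in each block (a model of Sym^a(Sym^b W), W the linear forms in n variables). Then some linear map from the 6-block polynomial ring to the b-block one carries R(6, b) injectively into R(b, 6) and commutes on R(6, b) with simultaneous linear substitution by every invertible n × n matrix. -/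
theorem result (n b : ℕ) (hb : 6 ≤ b) :
    ∃ φ : MvPolynomial (Var 6 n) ℂ →ₗ[ℂ] MvPolynomial (Var b n) ℂ,
      (∀ f ∈ blockSym 6 n b, φ f ∈ blockSym b n 6) ∧
      Set.InjOn φ (blockSym 6 n b) ∧
      ∀ g : Matrix (Fin n) (Fin n) ℂ, IsUnit g →
        ∀ f ∈ blockSym 6 n b, φ (linSubst 6 g f) = linSubst b g (φ f) := by
  refine Crest.Agent.R187.exists_map_of_hwd_le fun l => ?_
  by_cases h : b ≤ 24
  · exact Crest.Agent.R187.hwd_le_of_six (Crest.Agent.R187.foulkes_small b hb h) n l
  · exact Crest.Agent.R187.hwd_le_of_large (by omega) l

end Crest.Agent.S0286
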