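import Crest.Statements.S0287
import Crest.Agent.R187.Brion2

set_option autoImplicit false
open Crest.AlgebraR.FoulkesHowe
open Crest Crest.AlgebraR

namespace Crest.Agent.S0287

/-- For a ≥ 2, b ≥ a(a-1) and every n, every complex polynomial in a blocks of n variables that is invariant under permuting the blocks and homogeneous of degree b in each block lies in the subalgebra generated by the block-symmetric polynomials that are linear in each block. In the model Sym^a(Sym^b W) = block-symmetric multihomogeneous polynomials this says that the canonical multiplication map Sym^b(Sym^a W) → Sym^a(Sym^b W) is surjective. -/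
theorem result (a b n : ℕ) (ha : 2 ≤ a) (hb : a * (a - 1) ≤ b)
    (f : MvPolynomial (Var a n) ℂ) (hf : f ∈ blockSym a n b) :
    f ∈ Algebra.adjoin ℂ (blockSym a n 1 : Set (MvPolynomial (Var a n) ℂ)) := by
  refine Crest.Agent.R187.spanV_le_adjoin a n b (Crest.Agent.R187.brion a n b ?_ hf)
  refine le_trans ?_ hb
  rw [sq]
  exact Nat.mul_le_mul_right _ (Nat.sub_le a 1)

end Crest.Agent.S0287
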