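import Crest.Statements.S0289
import Crest.Agent.R189.B2.Main
import Crest.Agent.R189.B3.Main
import Crest.Agent.R189.Ker.Main
import Crest.Agent.R189.B5.Main
import Crest.Agent.R189.B6.Main

set_option autoImplicit false
open Crest Crest.AlgebraR

namespace Crest.Agent.S0289

/-- There is a group that is simultaneously infinite, finitely presented, simple and amenable. Amenable means: some finitely additive probability measure, defined on all subsets of the group, is invariant under left translation. -/
theorem result :
    ∃ (G : Type) (_ : Group G),
      Infinite G ∧ Group.IsFinitelyPresented G ∧ IsSimpleGroup G ∧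
        Crest.GroupTheory.Amenable G :=
  R189.assemble R189.s_B2 R189.s_B3 R189.s_B4 R189.s_B5 R189.s_B6

end Crest.Agent.S0289
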