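import Crest.Statements.S0298
import Crest.Agent.R195.Saxl
import Crest.Agent.R195.QMain

set_option autoImplicit false
open Crest Crest.AlgebraR

namespace Crest.Agent.S0298

/-- For every positive integer n other than 2, 4 and 9, the symmetric group on n letters has an irreducible finite-dimensional complex representation ρ such that every irreducible finite-dimensional complex representation has a nonzero equivariant linear map into the tensor square of ρ (with the diagonal action); that is, the tensor square of ρ contains every irreducible representation. -/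
theorem result (n : ℕ) (hn : 0 < n)
    (h2 : n ≠ 2) (h4 : n ≠ 4) (h9 : n ≠ 9) :
    ∃ (V : Type) (_ : AddCommGroup V) (_ : Module ℂ V) (_ : FiniteDimensional ℂ V)
      (ρ : Representation ℂ (Equiv.Perm (Fin n)) V), Representation.IsIrreducible ρ ∧
      ∀ (W : Type) [AddCommGroup W] [Module ℂ W] [FiniteDimensional ℂ W]
        (σ : Representation ℂ (Equiv.Perm (Fin n)) W), Representation.IsIrreducible σ →
        Nontrivial (Representation.IntertwiningMap σ (Representation.tprod ρ ρ)) := by
  refine Crest.Agent.R195.S0298_of_kron n ?_
  have st : ∀ m, 2 * n = m * (m + 1) → ∃ l : YoungDiagram, l.card = n ∧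
      ∀ ν : YoungDiagram, ν.card = n → Crest.Agent.R195.Kron l l ν := by
    intro m hm
    have hc : (Crest.Agent.R195.stair m).card = n := by
      have h1 := (Crest.Agent.R195.shape_stair m).card
      have h2 := Crest.Agent.R195.card_St m
      omega
    exact ⟨_, hc, fun ν hν => Crest.Agent.R195.kron_stair m ν (hν.trans hc.symm)⟩
  by_cases hs : n ∈ [5, 7, 8, 11, 12, 13, 14, 16, 17, 18, 19, 20, 22, 24, 26]
  · exact Crest.Agent.R195.Small.small_full' n hs
  simp only [List.mem_cons, List.not_mem_nil, or_false, not_or] at hs
  by_cases hb : 21 ≤ n
  · exact Crest.Agent.R195.big_full Crest.Agent.R195.full_stV hb (by omega) (by omega) (by omega)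
  have : n = 1 ∨ n = 3 ∨ n = 6 ∨ n = 10 ∨ n = 15 := by omega
  rcases this with h | h | h | h | h
  · exact st 1 (by omega)
  · exact st 2 (by omega)
  · exact st 3 (by omega)
  · exact st 4 (by omega)
  · exact st 5 (by omega)

end Crest.Agent.S0298
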