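import Crest.Statements.S0303
import Crest.Agent.R177.Core
import Crest.Agent.R177.LC
import Crest.Agent.R177.Global
import Crest.Agent.R177.HypRF

set_option autoImplicit false
open Crest Crest.AlgebraR

namespace Crest.Agent.S0303

/-- There is a group in which only the identity has finite order, which is word-hyperbolic (it has a finite generating set whose word metric satisfies the four-point condition for some constant), and which is not residually finite (some non-identity element lies in every normal subgroup of finite index). -/
theorem result :
    ∃ (G : Type) (_ : Group G),
      (∀ g : G, IsOfFinOrder g → g = 1) ∧ Crest.GroupTheory.IsHyperbolicGroup G ∧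
        ¬ Group.ResiduallyFinite G := by
  obtain ⟨G, _, S, T, _, _, P, h1, ⟨C, hC⟩, a, b, e1, e2⟩ :=
    Crest.Agent.R177.exists_core Crest.Agent.R177.global Crest.Agent.R177.exists_localOK 2
  exact Crest.Agent.R177.s0303_of P h1 hC e1 e2

end Crest.Agent.S0303
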