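import Crest.Statements.S0309
import Crest.Agent.R202.NineFinal

set_option autoImplicit false
open scoped ContDiff
open Crest.GeometryTopology.CoordMetric Crest.GeometryTopology.ChartCurvature
open Crest Crest.GeometryTopology

namespace Crest.Agent.S0309

/-- For all v ∈ (4/9, 1), c ∈ (1, 9v/4) and all large k some complete C^∞ Riemannian metric on ℝ³ (matrix field in standard coordinates), Euclidean near 0, has Ric ≥ 0, positive definite outside a ball, asymptotic volume ratio v, points tending to infinity where a plane containing the radial direction (taken as the position vector, as in geodesic polar coordinates about 0) has negative sectional curvature, and at least c(k+1)² independent C^∞ harmonic f with abs f ≤ C_f (1 + distance to 0)^k. -/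
theorem result
    (v : ℝ) (hv : 4 / 9 < v) (hv' : v < 1) (c : ℝ) (hc : 1 < c) (hc' : c < 9 * v / 4) :
    ∃ k₀ : ℕ, ∀ k : ℕ, k₀ ≤ k → ∃ g : MetricField 3,
      IsRiemannianOn g Set.univ ∧ IsCompleteOn g Set.univ ∧
      (∃ r : ℝ, 0 < r ∧ ∀ x : EuclideanSpace ℝ (Fin 3), ‖x‖ < r → g x = 1) ∧
      RicciNonnegOn g Set.univ ∧
      (∃ R : ℝ, ∀ x : EuclideanSpace ℝ (Fin 3), R < ‖x‖ →
        ∀ w : EuclideanSpace ℝ (Fin 3), w ≠ 0 → 0 < ∑ i, ∑ j, ricci g x i j * w i * w j) ∧
      HasAsymptoticVolumeRatio g v ∧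
      (∃ p : ℕ → EuclideanSpace ℝ (Fin 3), Filter.Tendsto (fun j => ‖p j‖) Filter.atTop Filter.atTop ∧
        ∀ j, ∃ w : EuclideanSpace ℝ (Fin 3),
          0 < gramDet g (p j) (p j) w ∧ secNumer g (p j) (p j) w < 0) ∧
      ∃ m : ℕ, c * ((k : ℝ) + 1) ^ 2 ≤ m ∧ ∃ f : Fin m → EuclideanSpace ℝ (Fin 3) → ℝ,
        LinearIndependent ℝ f ∧ ∀ i, IsHarmonicOn g Set.univ (f i) ∧
          ∃ C : ℝ, ∀ x, abs (f i x) ≤ C * (1 + riemDist g Set.univ 0 x) ^ k := by
  exact Crest.Agent.R202.result9 v hv hv' c hc hc'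

end Crest.Agent.S0309
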