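import Crest.Statements.S0310
import Crest.Agent.R202.TenFinal

set_option autoImplicit false
open scoped ContDiff
open Crest.GeometryTopology.CoordMetric
open Crest Crest.GeometryTopology

namespace Crest.Agent.S0310

/-- For some even n ≥ 8 and some natural number k ≥ 2, some C^∞ Riemannian metric on ℝⁿ (a matrix field in standard coordinates) is complete, equals the Euclidean metric near the origin, has Ricci curvature non-negative everywhere, has asymptotic volume ratio v for some 0 < v < 1, and admits m linearly independent C^∞ harmonic functions f bounded in absolute value by C_f (1 + d(0,x))^k, d its path distance, for some m exceeding C(n+k-1,k) + C(n+k-2,k-1), the count for the Euclidean metric. -/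
theorem result :
    ∃ n : ℕ, Even n ∧ 8 ≤ n ∧ ∃ k : ℕ, 2 ≤ k ∧ ∃ g : MetricField n,
      IsRiemannianOn g Set.univ ∧ IsCompleteOn g Set.univ ∧
      (∃ r : ℝ, 0 < r ∧ ∀ x : EuclideanSpace ℝ (Fin n), ‖x‖ < r → g x = 1) ∧
      RicciNonnegOn g Set.univ ∧
      (∃ v : ℝ, 0 < v ∧ v < 1 ∧ HasAsymptoticVolumeRatio g v) ∧
      ∃ m : ℕ, Nat.choose (n + k - 1) k + Nat.choose (n + k - 2) (k - 1) < m ∧
        ∃ f : Fin m → EuclideanSpace ℝ (Fin n) → ℝ,
          LinearIndependent ℝ f ∧ ∀ i, IsHarmonicOn g Set.univ (f i) ∧
            ∃ C : ℝ, ∀ x, abs (f i x) ≤ C * (1 + riemDist g Set.univ 0 x) ^ k := by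
  exact Crest.Agent.R202.result10

end Crest.Agent.S0310
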