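import Crest.Statements.S0324
import Crest.Agent.R211.Perp

set_option autoImplicit false
open MeasureTheory
open scoped ENNReal
open Crest Crest.GeometryTopology Crest.GeometryTopology.Convex

namespace Crest.Agent.S0324

/-- The regular tetrahedron `K` with vertices `(±1, 0, 0)`, `(0, ±1, √2)` is covered by finitely many cylinders `Bᵢ + ℝ uᵢ`, each with unit direction `uᵢ` and base `Bᵢ` a triangle (convex hull of three points) in the plane `uᵢ^⊥`, whose total base area `∑ᵢ area(Bᵢ)` is smaller, by a positive margin, than half the area of the orthogonal projection of `K` onto `v^⊥` for every unit vector `v`; areas are 2-dimensional Hausdorff measure. -/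
theorem result :
    ∃ (m : ℕ) (u p q r : Fin m → EuclideanSpace ℝ (Fin 3)),
      (∀ i, ‖u i‖ = 1) ∧
      (∀ i, inner ℝ (p i) (u i) = 0 ∧ inner ℝ (q i) (u i) = 0 ∧ inner ℝ (r i) (u i) = 0) ∧
      convexHull ℝ {!₂[1, 0, 0], !₂[-1, 0, 0], !₂[0, 1, Real.sqrt 2], !₂[0, -1, Real.sqrt 2]} ⊆
        ⋃ i, {x : EuclideanSpace ℝ (Fin 3) | ∃ b ∈ convexHull ℝ {p i, q i, r i}, ∃ t : ℝ, x = b + t • u i} ∧
      ∃ δ : ℝ, 0 < δ ∧ ∀ v : EuclideanSpace ℝ (Fin 3), ‖v‖ = 1 →
        ∑ i, (μH[(2 : ℝ)] (convexHull ℝ {p i, q i, r i})).toReal + δ ≤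
          (μH[(2 : ℝ)] ((fun y => y - inner ℝ y v • v) '' convexHull ℝ {!₂[1, 0, 0], !₂[-1, 0, 0], !₂[0, 1, Real.sqrt 2], !₂[0, -1, Real.sqrt 2]})).toReal / 2 := by
  obtain ⟨c, a, b, u, hu, hc, hs⟩ := R211.triCov_K0
  obtain ⟨u', p, q, r, h1, h2, h3, h4⟩ := R211.perp_of_tri c a b u hu hc
  set κ : NNReal := Measure.addHaarScalarFactor (volume : Measure (EuclideanSpace ℝ (Fin 2))) μH[(2 : ℕ)]
    with hκ
  have hκ0 : (0 : ℝ) < κ := by
    have := Measure.addHaarScalarFactor_volume_hausdorffMeasure_ne_zero 2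
    exact NNReal.coe_pos.mpr (pos_iff_ne_zero.mpr this)
  have conv : ∀ S : Set (EuclideanSpace ℝ (Fin 3)),
      (μH[(2 : ℝ)] S).toReal = (μHE[2] S).toReal / κ := by
    intro S
    rw [Measure.euclideanHausdorffMeasure_def, ← hκ, eq_div_iff hκ0.ne']
    simp only [Measure.smul_apply, ENNReal.smul_def, smul_eq_mul, ENNReal.toReal_mul,
      ENNReal.coe_toReal, Nat.cast_ofNat]
    ring
  have hs2 := R211.sqrt2_pos
  refine ⟨_, u', p, q, r, h1, h2, h3, Real.sqrt 2 * (2 / 10 ^ 7) / κ, by positivity, ?_⟩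
  intro v hv
  simp only [conv, h4]
  rw [R211.proj_fun_eq hv]
  have hm := R211.minProj_K0 hv
  have hfin := (R211.area_proj_lt_top (u := v) (by rintro rfl; simp at hv) R211.isCompact_K0).ne
  have hm' := (ENNReal.ofReal_le_iff_le_toReal hfin).mp hm
  have e : ∀ i, (ENNReal.ofReal (R211.gram (R211.proj (u i) (a i)) (R211.proj (u i) (b i)) / 2)).toReal
      = R211.gram (R211.proj (u i) (a i)) (R211.proj (u i) (b i)) / 2 := fun i =>
    ENNReal.toReal_ofReal (by have := R211.gram_nonneg (R211.proj (u i) (a i)) (R211.proj (u i) (b i)); positivity)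
  simp only [e]
  rw [← Finset.sum_div, ← add_div, div_right_comm]
  apply div_le_div_of_nonneg_right _ hκ0.le
  change _ ≤ (μHE[2] (R211.proj v '' R211.K0)).toReal / 2
  linarith

end Crest.Agent.S0324
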