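import Crest.Statements.S0326
import Crest.Agent.R211.SqLocal

set_option autoImplicit false
open MeasureTheory
open scoped ENNReal
open Crest Crest.GeometryTopology Crest.GeometryTopology.Convex

namespace Crest.Agent.S0326

open Crest.Agent.R211.Sq Filter Topology in
/-- Let D ⊂ ℝ² be compact, V : ℝ² → ℝ² be C¹ on an open set containing D, and L, h > 0, with tr DV(p) = 0 and −1/L² < det DV(p) ≤ 0 for p ∈ D. Let E ⊂ ℝ × ℝ² be the ruled set of points (s, p + s V(p)), p ∈ D, −L ≤ s ≤ L. For every ε > 0, finitely many squares Tᵢ = cᵢ + [0,1]aᵢ + [0,1]bᵢ (aᵢ ⊥ bᵢ of equal nonzero length) and velocities gᵢ ∈ ℝ² exist whose sheared cylinders {(s, ξ) : ξ ∈ Tᵢ + s gᵢ} cover E, with ∑ᵢ area(Tᵢ) J(gᵢ) ≤ ∫_D J(V(p)) dp + ε, where J(g) = (1 + g₁² + h² g₂²)^(−1/2). -/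
theorem result
    (D : Set (EuclideanSpace ℝ (Fin 2))) (hD : IsCompact D)
    (V : EuclideanSpace ℝ (Fin 2) → EuclideanSpace ℝ (Fin 2)) (U : Set (EuclideanSpace ℝ (Fin 2)))
    (hU : IsOpen U) (hDU : D ⊆ U) (hV : ContDiffOn ℝ 1 V U) (L h : ℝ) (hL : 0 < L) (hh : 0 < h)
    (htr : ∀ p ∈ D, LinearMap.trace ℝ _ (fderiv ℝ V p).toLinearMap = 0)
    (hdet : ∀ p ∈ D, -(L ^ 2)⁻¹ < LinearMap.det (fderiv ℝ V p).toLinearMap ∧
      LinearMap.det (fderiv ℝ V p).toLinearMap ≤ 0)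
    (ε : ℝ) (hε : 0 < ε) :
    ∃ (k : ℕ) (c a b g : Fin k → EuclideanSpace ℝ (Fin 2)),
      (∀ i, a i ≠ 0 ∧ ‖b i‖ = ‖a i‖ ∧ inner ℝ (a i) (b i) = 0) ∧
      {z : ℝ × EuclideanSpace ℝ (Fin 2) | ∃ p ∈ D, abs z.1 ≤ L ∧ z.2 = p + z.1 • V p} ⊆
        ⋃ i, {z : ℝ × EuclideanSpace ℝ (Fin 2) | ∃ x ∈ Set.Icc (0 : ℝ) 1, ∃ y ∈ Set.Icc (0 : ℝ) 1,
          z.2 = c i + x • a i + y • b i + z.1 • g i} ∧
      ∑ i, ‖a i‖ ^ 2 / Real.sqrt (1 + (g i 0) ^ 2 + h ^ 2 * (g i 1) ^ 2) ≤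
        (∫ p in D, 1 / Real.sqrt (1 + (V p 0) ^ 2 + h ^ 2 * (V p 1) ^ 2)) + ε := by
  classical
  set J : P2 → ℝ := fun g => 1 / Real.sqrt (1 + (g 0) ^ 2 + h ^ 2 * (g 1) ^ 2) with hJ
  have hsq : ∀ g : P2, 1 ≤ Real.sqrt (1 + (g 0) ^ 2 + h ^ 2 * (g 1) ^ 2) := by
    intro g
    apply Real.le_sqrt_of_sq_le
    nlinarith [sq_nonneg (g 0), mul_nonneg (sq_nonneg h) (sq_nonneg (g 1))]
  have hJc : Continuous J := by
    apply Continuous.div continuous_const (by fun_prop)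
    intro g; linarith [hsq g]
  have hJ0 : ∀ g, 0 ≤ J g := fun g => by simp only [hJ]; positivity
  have hJ1 : ∀ g, J g ≤ 1 := fun g => by
    simp only [hJ]; rw [div_le_one (by linarith [hsq g])]; exact hsq g
  have hVc : ∀ p ∈ D, ContinuousAt V p := fun p hp =>
    hV.continuousOn.continuousAt (hU.mem_nhds (hDU hp))
  have hV'c : ∀ p ∈ D, ContinuousAt (fderiv ℝ V) p := fun p hp =>
    (hV.continuousOn_fderiv_of_isOpen hU le_rfl).continuousAt (hU.mem_nhds (hDU hp))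
  set F : P2 → ℝ := fun p => J (V p) with hF
  have hFc : ∀ p ∈ D, ContinuousAt F p := fun p hp => hJc.continuousAt.comp (hVc p hp)
  set M := (volume D).toReal with hM
  set I := ∫ p in D, F p with hI
  have hM0 : 0 ≤ M := ENNReal.toReal_nonneg
  -- the small parameter
  obtain ⟨t, ht0, ht1, ht⟩ : ∃ t : ℝ, 0 < t ∧ t ≤ 1 ∧
      (1 + 2 * t) ^ 2 * (I + t * M + t + t * (M + t)) ≤ I + ε := by
    have hc : ContinuousAt (fun t : ℝ => (1 + 2 * t) ^ 2 * (I + t * M + t + t * (M + t))) 0 := by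
      fun_prop
    have h1 : ∀ᶠ t in 𝓝 (0 : ℝ), (1 + 2 * t) ^ 2 * (I + t * M + t + t * (M + t)) < I + ε :=
      hc.eventually_lt continuousAt_const (by simpa using hε)
    have h2 : ∀ᶠ t in 𝓝 (0 : ℝ), t < 1 := eventually_lt_nhds zero_lt_one
    obtain ⟨t, ⟨a1, a2⟩, a3⟩ :=
      (((h1.and h2).filter_mono nhdsWithin_le_nhds).and (self_mem_nhdsWithin (s := Set.Ioi 0))).exists
    exact ⟨t, a3, a2.le, a1.le⟩
  -- uniform bounds
  have hpos : ∀ p ∈ D, 0 < 1 + L ^ 2 * LinearMap.det (fderiv ℝ V p).toLinearMap := by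
    intro p hp
    have : L ^ 2 * (-(L ^ 2)⁻¹) < L ^ 2 * LinearMap.det (fderiv ℝ V p).toLinearMap := by
      gcongr; exact (hdet p hp).1
    have e : L ^ 2 * (-(L ^ 2)⁻¹) = -1 := by field_simp
    linarith
  obtain ⟨K, hK0, hK⟩ : ∃ K : ℝ, 0 ≤ K ∧ ∀ p ∈ D, (1 + L * ‖fderiv ℝ V p‖) /
      (1 + L ^ 2 * LinearMap.det (fderiv ℝ V p).toLinearMap) ≤ K := by
    have hc : ContinuousOn (fun p => (1 + L * ‖fderiv ℝ V p‖) /
        (1 + L ^ 2 * LinearMap.det (fderiv ℝ V p).toLinearMap)) D := by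
      intro p hp
      apply ContinuousAt.continuousWithinAt
      apply ContinuousAt.div
      · exact continuousAt_const.add (continuousAt_const.mul (hV'c p hp).norm)
      · exact continuousAt_const.add (continuousAt_const.mul
          (ContinuousLinearMap.continuous_det.continuousAt.comp (hV'c p hp)))
      · exact (hpos p hp).ne'
    obtain ⟨K, hK⟩ := hD.exists_bound_of_continuousOn hc
    exact ⟨max K 0, le_max_right _ _, fun p hp =>
      (le_abs_self _).trans ((hK p hp).trans (le_max_left _ _))⟩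
  obtain ⟨Am, hAm0, hAm⟩ : ∃ Am : ℝ, 0 ≤ Am ∧ ∀ p ∈ D, ‖fderiv ℝ V p‖ ≤ Am := by
    obtain ⟨K, hK⟩ := hD.exists_bound_of_continuousOn
      (fun p hp => (hV'c p hp).continuousWithinAt)
    exact ⟨max K 0, le_max_right _ _, fun p hp => (hK p hp).trans (le_max_left _ _)⟩
  set η : ℝ := t / (8 * (K + 1) * L) with hη
  have hη0 : 0 < η := by positivity
  obtain ⟨δ1, hδ1, h1⟩ := hD.exists_cthickening_subset_open hU hDU
  obtain ⟨δ2, hδ2, h2⟩ := unif_at hD _ hV'c hη0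
  have hVD : IsCompact (V '' D) := hD.image_of_continuousOn (fun p hp => (hVc p hp).continuousWithinAt)
  obtain ⟨δ3, hδ3, h3⟩ := unif_at hVD J (fun _ _ => hJc.continuousAt) ht0
  obtain ⟨δ4, hδ4, h4⟩ := unif_at hD F hFc ht0
  have hsmall : ∀ c δ : ℝ, 0 < δ → ∀ᶠ r in 𝓝 (0 : ℝ), c * r < δ := by
    intro c δ hδ
    have hc : ContinuousAt (fun r : ℝ => c * r) 0 := by fun_prop
    exact hc.eventually_lt continuousAt_const (by simpa using hδ)
  have h5 : ∀ᶠ r in 𝓝 (0 : ℝ), (volume (Metric.cthickening (2 * r) D)).toReal < M + t := by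
    have a1 := tendsto_measure_cthickening_of_isCompact (μ := volume) hD
    have a2 : Tendsto (fun r : ℝ => 2 * r) (𝓝 0) (𝓝 0) := by
      have : ContinuousAt (fun r : ℝ => 2 * r) 0 := by fun_prop
      simpa using this.tendsto
    have a3 := (ENNReal.tendsto_toReal hD.measure_lt_top.ne).comp (a1.comp a2)
    exact a3.eventually_lt_const (by linarith)
  obtain ⟨r, ⟨⟨⟨⟨r1, r2⟩, r3⟩, r4⟩, r5⟩, hr⟩ :=
    (((((((hsmall 2 δ1 hδ1).and (hsmall 2 δ2 hδ2)).and (hsmall (Am * 6) δ3 hδ3)).and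
      (hsmall 2 δ4 hδ4)).and h5).filter_mono nhdsWithin_le_nhds).and
        (self_mem_nhdsWithin (s := Set.Ioi 0))).exists
  have hr : 0 < r := hr
  set a : ℝ := t * r / (8 * (K + 1)) with ha
  have ha0 : 0 < a := by positivity
  have hsm : K * (2 * a + L * (η * (2 * r))) + 2 * a < t * r := by
    have e : K * (2 * a + L * (η * (2 * r))) + 2 * a = t * r * ((2 * K + 1) / (4 * (K + 1))) := by
      rw [ha, hη]; field_simp; ring
    rw [e]
    apply mul_lt_of_lt_one_right (by positivity)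
    rw [div_lt_one (by positivity)]; linarith
  set o := EuclideanSpace.basisFun (Fin 2) ℝ with ho
  set C := Metric.cthickening (2 * r) D with hC
  have hCf : volume C ≠ ⊤ := hD.cthickening.measure_lt_top.ne
  have hsub : ∀ j, (D ∩ tile o 0 r j).Nonempty → tile o 0 r j ⊆ C := by
    rintro j ⟨p, hp, hp'⟩ z hz
    exact Metric.mem_cthickening_of_dist_le z p _ _ hp
      (by rw [dist_eq_norm]; exact norm_sub_le_of_mem_tile hz hp')
  have hfin : {j | (D ∩ tile o 0 r j).Nonempty}.Finite :=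
    (finite_tiles o 0 hr hCf).subset hsub
  set S := hfin.toFinset with hS
  have hq : ∀ j ∈ S, ∃ p, p ∈ D ∩ tile o 0 r j := fun j hj => hfin.mem_toFinset.1 hj
  choose! q hq using hq
  have hloc := fun j (hj : j ∈ S) => local_cover V D hL ht0 ht1 hr hK0 hη0.le ha0 hsm o j (q j)
    (hq j hj).2 (fderiv ℝ V (q j)) (htr _ (hq j hj).1) (hdet _ (hq j hj).1)
    (fun s hs w => (norm_le_of_traceless _ (htr _ (hq j hj).1) hL (hdet _ (hq j hj).1) s hs w).trans
      (by gcongr; exact hK _ (hq j hj).1))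
    (fun p hp => by
      have hb : Metric.closedBall (q j) (2 * r) ⊆ U := fun x hx =>
        h1 (Metric.mem_cthickening_of_dist_le x (q j) _ _ (hq j hj).1 (le_trans hx r1.le))
      apply (convex_closedBall (q j) (2 * r)).norm_image_sub_le_of_norm_fderiv_le'
      · intro x hx
        exact (hV.differentiableOn one_ne_zero).differentiableAt (hU.mem_nhds (hb hx))
      · intro x hx
        have := h2 _ (hq j hj).1 x (by rw [dist_comm]; exact lt_of_le_of_lt hx r2)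
        rw [dist_comm, dist_eq_norm] at this
        exact this.le
      · exact Metric.mem_closedBall_self (by positivity)
      · rw [mem_closedBall_iff_norm]
        exact norm_sub_le_of_mem_tile hp.2 (hq j hj).2)
  have : Nonempty (OrthonormalBasis (Fin 2) ℝ P2) := ⟨o⟩
  choose! ob T hT1 hT2 hT3 using hloc
  set G := S.sigma T with hG
  set e := G.equivFin.symm with he
  set vel : (Σ _ : Fin 2 → ℤ, Fin 2 → ℤ) → P2 := fun σ =>
    V (q σ.1) + fderiv ℝ V (q σ.1) (corner (ob σ.1) (q σ.1) a σ.2 - q σ.1) with hvel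
  refine ⟨G.card, fun i => corner (ob (e i).1.1) (q (e i).1.1) a (e i).1.2,
    fun i => a • ob (e i).1.1 0, fun i => a • ob (e i).1.1 1, fun i => vel (e i).1, ?_, ?_, ?_⟩
  · intro i
    refine ⟨smul_ne_zero ha0.ne' ((ob _).orthonormal.ne_zero 0), ?_, ?_⟩
    · simp only [norm_smul, (ob _).orthonormal.1]
    · simp only [inner_smul_left, inner_smul_right]
      rw [(ob _).orthonormal.2 (show (0 : Fin 2) ≠ 1 by decide)]; simp
  · rintro ⟨s, z⟩ ⟨p, hp, hs, hz⟩
    obtain ⟨j, hj⟩ := exists_mem_tile o 0 hr p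
    have hjS : j ∈ S := by simpa [hS] using ⟨p, hp, hj⟩
    obtain ⟨m, hm, x, hx, y, hy, hxy⟩ := hT3 j hjS p ⟨hp, hj⟩ s hs
    have hmem : (⟨j, m⟩ : Σ _ : Fin 2 → ℤ, Fin 2 → ℤ) ∈ G := Finset.mem_sigma.2 ⟨hjS, hm⟩
    refine Set.mem_iUnion.2 ⟨e.symm ⟨_, hmem⟩, x, hx, y, hy, ?_⟩
    simp only [Equiv.apply_symm_apply]
    simp only at hz
    rw [hz, hxy]
  · have e1 : ∑ i : Fin G.card, ‖a • ob (e i).1.1 0‖ ^ 2 /
        Real.sqrt (1 + (vel (e i).1 0) ^ 2 + h ^ 2 * (vel (e i).1 1) ^ 2) =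
        ∑ σ ∈ G, a ^ 2 * J (vel σ) := by
      rw [← Finset.sum_coe_sort G, ← Equiv.sum_comp e]
      refine Finset.sum_congr rfl fun i _ => ?_
      simp only [norm_smul, (ob _).orthonormal.1, hJ, Real.norm_eq_abs, mul_one, sq_abs]
      ring
    rw [e1, hG, Finset.sum_sigma]
    have b1 : ∀ j ∈ S, ∑ m ∈ T j, a ^ 2 * J (vel ⟨j, m⟩) ≤
        (1 + 2 * t) ^ 2 * (r ^ 2 * F (q j) + t * r ^ 2) := by
      intro j hj
      have c1 : ∀ m ∈ T j, a ^ 2 * J (vel ⟨j, m⟩) ≤ a ^ 2 * (F (q j) + t) := by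
        intro m hm
        have d1 : dist (V (q j)) (vel ⟨j, m⟩) < δ3 := by
          rw [dist_comm, dist_eq_norm]
          simp only [hvel, add_sub_cancel_left]
          refine lt_of_le_of_lt ((fderiv ℝ V (q j)).le_opNorm _) (lt_of_le_of_lt ?_ r3)
          rw [mul_assoc]
          gcongr
          · exact hAm _ (hq j hj).1
          · exact hT2 j hj m hm
        have d2 := h3 _ ⟨q j, (hq j hj).1, rfl⟩ _ d1
        rw [Real.dist_eq, abs_lt] at d2
        gcongr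
        simp only [hF]
        linarith [d2.1]
      refine (Finset.sum_le_sum c1).trans ?_
      rw [Finset.sum_const, nsmul_eq_mul, ← mul_assoc]
      have d3 : 0 ≤ F (q j) + t := by linarith [hJ0 (V (q j))]
      calc _ ≤ ((1 + 2 * t) * r) ^ 2 * (F (q j) + t) := by gcongr; exact hT1 j hj
        _ = _ := by ring
    refine (Finset.sum_le_sum b1).trans ?_
    rw [← Finset.mul_sum, Finset.sum_add_distrib]
    have b2 := grid_sum_le D hD F (fun p hp => (hFc p hp).continuousWithinAt) (fun p => hJ0 _)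
      (fun p => hJ1 _) o hr ht0.le S q hq (fun p hp p' _ hpp => by
        have := h4 p hp p' (by rw [dist_eq_norm]; exact lt_of_le_of_lt hpp r4)
        rw [Real.dist_eq, abs_lt] at this
        linarith [this.2])
    have b3 := card_tiles_le o 0 hr hCf S (fun j hj => hsub j ⟨q j, hq j hj⟩)
    have b4 : ∑ j ∈ S, t * r ^ 2 ≤ t * (M + t) := by
      rw [Finset.sum_const, nsmul_eq_mul, mul_left_comm]
      gcongr
      linarith
    refine le_trans ?_ ht
    gcongr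
    linarith

end Crest.Agent.S0326
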