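import Crest.Statements.S0327
import Crest.Agent.R211.Para

set_option autoImplicit false
open MeasureTheory
open scoped ENNReal
open Crest Crest.GeometryTopology Crest.GeometryTopology.Convex

namespace Crest.Agent.S0327

/-- Let K ⊂ ℝ³ be a regular tetrahedron (convex hull of four points with equal pairwise distances ℓ > 0); areas are Lebesgue-normalised 2-dimensional Hausdorff measure, π_v y = y − ⟪y, v⟫ v. (1) Finitely many cylinders Bᵢ + ℝ uᵢ, ‖uᵢ‖ = 1, with parallelogram bases Bᵢ = cᵢ + [0,1]aᵢ + [0,1]bᵢ in uᵢ^⊥ cover K, ∑ᵢ area(Bᵢ) being below half of area(π_v K) by a positive margin for all unit v, and ∑ᵢ area(Bᵢ)/area(π_{uᵢ} K) < 1/2. (2) The same with bounded relatively open subsets of the uᵢ^⊥ as bases. -/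
theorem result
    (w : Fin 4 → EuclideanSpace ℝ (Fin 3)) (ℓ : ℝ) (hℓ : 0 < ℓ)
    (hw : ∀ i j, i ≠ j → dist (w i) (w j) = ℓ) :
    (∃ (k : ℕ) (u c a b : Fin k → EuclideanSpace ℝ (Fin 3)),
      (∀ i, ‖u i‖ = 1) ∧
      (∀ i, inner ℝ (c i) (u i) = 0 ∧ inner ℝ (a i) (u i) = 0 ∧ inner ℝ (b i) (u i) = 0) ∧
      convexHull ℝ (Set.range w) ⊆ ⋃ i, {x : EuclideanSpace ℝ (Fin 3) |
        ∃ s ∈ Set.Icc (0 : ℝ) 1, ∃ t ∈ Set.Icc (0 : ℝ) 1, ∃ τ : ℝ, x = c i + s • a i + t • b i + τ • u i} ∧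
      (∃ δ : ℝ, 0 < δ ∧ ∀ v : EuclideanSpace ℝ (Fin 3), ‖v‖ = 1 →
        (∑ i, (μHE[2] {x : EuclideanSpace ℝ (Fin 3) |
            ∃ s ∈ Set.Icc (0 : ℝ) 1, ∃ t ∈ Set.Icc (0 : ℝ) 1, x = c i + s • a i + t • b i}).toReal) + δ ≤
          (μHE[2] ((fun y => y - inner ℝ y v • v) '' convexHull ℝ (Set.range w))).toReal / 2) ∧
      ∑ i, (μHE[2] {x : EuclideanSpace ℝ (Fin 3) |
            ∃ s ∈ Set.Icc (0 : ℝ) 1, ∃ t ∈ Set.Icc (0 : ℝ) 1, x = c i + s • a i + t • b i}).toReal /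
          (μHE[2] ((fun y => y - inner ℝ y (u i) • u i) '' convexHull ℝ (Set.range w))).toReal < 1 / 2) ∧
    (∃ (k : ℕ) (u : Fin k → EuclideanSpace ℝ (Fin 3)) (B : Fin k → Set (EuclideanSpace ℝ (Fin 3))),
      (∀ i, ‖u i‖ = 1) ∧
      (∀ i, Bornology.IsBounded (B i) ∧ ∃ O : Set (EuclideanSpace ℝ (Fin 3)), IsOpen O ∧
        B i = O ∩ {x | inner ℝ x (u i) = 0}) ∧
      convexHull ℝ (Set.range w) ⊆
        ⋃ i, {x : EuclideanSpace ℝ (Fin 3) | ∃ y ∈ B i, ∃ τ : ℝ, x = y + τ • u i} ∧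
      (∃ δ : ℝ, 0 < δ ∧ ∀ v : EuclideanSpace ℝ (Fin 3), ‖v‖ = 1 →
        (∑ i, (μHE[2] (B i)).toReal) + δ ≤
          (μHE[2] ((fun y => y - inner ℝ y v • v) '' convexHull ℝ (Set.range w))).toReal / 2) ∧
      ∑ i, (μHE[2] (B i)).toReal /
          (μHE[2] ((fun y => y - inner ℝ y (u i) • u i) '' convexHull ℝ (Set.range w))).toReal < 1 / 2) := by
  obtain ⟨T, M, hK⟩ := R211.regular_similar w ℓ hℓ hw
  have hs2 := R211.sqrt2_pos
  have hl2 : 0 < ℓ / 2 := by positivity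
  set Amin : ℝ := (ℓ / 2) ^ 2 * Real.sqrt 2 with hAmin
  have hA0 : 0 < Amin := by positivity
  have hP : R211.ParaCov (convexHull ℝ (Set.range w))
      ((ℓ / 2) ^ 2 * ((1 + 1 / (10000000 : ℕ)) * (Real.sqrt 2 * (1 / 2 - 2 / 10 ^ 7)))) := by
    rw [hK]
    exact (R211.triCov_K0.toPara 10000000 (by norm_num)).map T M hl2.le
  have hle : (ℓ / 2) ^ 2 * ((1 + 1 / (10000000 : ℕ)) * (Real.sqrt 2 * (1 / 2 - 2 / 10 ^ 7))) ≤
      Amin * (1 / 2 - 1 / 10 ^ 7) := by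
    have : (ℓ / 2) ^ 2 * ((1 + 1 / (10000000 : ℕ)) * (Real.sqrt 2 * (1 / 2 - 2 / 10 ^ 7))) =
      Amin * ((1 + 1 / (10000000 : ℕ)) * (1 / 2 - 2 / 10 ^ 7)) := by rw [hAmin]; ring
    rw [this]
    apply mul_le_mul_of_nonneg_left _ hA0.le
    norm_num
  have hmin : ∀ v : EuclideanSpace ℝ (Fin 3), ‖v‖ = 1 →
      Amin ≤ (μHE[2] ((fun y => y - inner ℝ y v • v) '' convexHull ℝ (Set.range w))).toReal := by
    intro v hv
    have hv' : ‖T.symm v‖ = 1 := by rw [T.symm.norm_map, hv]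
    rw [R211.proj_fun_eq hv, hK]
    have h1 := R211.area_proj_map R211.K0 T M hl2 (T.symm v)
    rw [T.apply_symm_apply] at h1
    have hfin := (R211.area_proj_lt_top (u := T.symm v) (by intro h; rw [h] at hv'; simp at hv')
      R211.isCompact_K0).ne
    have hm' := (ENNReal.ofReal_le_iff_le_toReal hfin).mp (R211.minProj_K0 hv')
    rw [h1, ENNReal.toReal_mul, ENNReal.toReal_ofReal (sq_nonneg _)]
    exact mul_le_mul_of_nonneg_left hm' (sq_nonneg _)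
  have ratio : ∀ (k : ℕ) (X Y : Fin k → ℝ), (∀ i, 0 ≤ X i) → (∀ i, Amin ≤ Y i) →
      ∑ i, X i ≤ Amin * (1 / 2 - 1 / 10 ^ 8) → ∑ i, X i / Y i < 1 / 2 := by
    intro k X Y hX hY hs
    calc ∑ i, X i / Y i ≤ ∑ i, X i / Amin :=
          Finset.sum_le_sum fun i _ => div_le_div_of_nonneg_left (hX i) hA0 (hY i)
      _ = (∑ i, X i) / Amin := by rw [Finset.sum_div]
      _ ≤ 1 / 2 - 1 / 10 ^ 8 := by rw [div_le_iff₀ hA0]; linarith
      _ < 1 / 2 := by norm_num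
  constructor
  · obtain ⟨k, u, c, a, b, hu, hp, hc, hA⟩ := hP.perp
    refine ⟨k, u, c, a, b, hu, hp, hc, ⟨Amin / 10 ^ 8, by positivity, fun v hv => ?_⟩, ?_⟩
    · have := hmin v hv
      linarith
    · exact ratio k _ _ (fun i => ENNReal.toReal_nonneg) (fun i => hmin _ (hu i)) (by linarith)
  · obtain ⟨k, u, B, hu, hB, hc, hA⟩ := hP.openBase (ε := Amin / 10 ^ 8) (by positivity)
    refine ⟨k, u, B, hu, hB, hc, ⟨Amin / 10 ^ 8, by positivity, fun v hv => ?_⟩, ?_⟩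
    · have := hmin v hv
      linarith
    · exact ratio k _ _ (fun i => ENNReal.toReal_nonneg) (fun i => hmin _ (hu i)) (by linarith)

end Crest.Agent.S0327
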