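import Crest.Statements.S0328
import Crest.Agent.R211.Sweep

set_option autoImplicit false
open MeasureTheory
open scoped ENNReal
open Crest Crest.GeometryTopology Crest.GeometryTopology.Convex

namespace Crest.Agent.S0328

/-- Unit e; a, b, p₀ ∈ e^⊥, a, b independent; α < β; L > 0; R ≥ 0, λ both continuous on [α, β]; w(t) ∈ e^⊥, w′ = λ(t)(a + tb). S = {p₀ + ρ(a + t b) + s(e + w t) : α ≤ t ≤ β, 0 ≤ ρ ≤ R t, ‖s‖ ≤ L}; A = κ ∫_α^β R²/(2√(1 + ‖w‖²)), κ = area spanned by a, b. For η > 0 a δ > 0 makes each partition t₀ < … < t_N of [α, β] of mesh ≤ δ, tags cᵢ, admit N cylinders (axes e + w(cᵢ), nondegenerate triangle bases) covering S, total area within η of A; same for S's pieces tᵢ ≤ t ≤ tᵢ₊₁ projected along these axes. -/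
theorem result
    (e a b p₀ : EuclideanSpace ℝ (Fin 3)) (he : ‖e‖ = 1)
    (ha : inner ℝ a e = 0) (hb : inner ℝ b e = 0) (hp₀ : inner ℝ p₀ e = 0)
    (hab : LinearIndependent ℝ ![a, b]) (L : ℝ) (hL : 0 < L) (α β : ℝ) (hαβ : α < β)
    (R : ℝ → ℝ) (hR : ContinuousOn R (Set.Icc α β)) (hR0 : ∀ t ∈ Set.Icc α β, 0 ≤ R t)
    (w : ℝ → EuclideanSpace ℝ (Fin 3)) (hw : ∀ t ∈ Set.Icc α β, inner ℝ (w t) e = 0)
    (lam : ℝ → ℝ) (hlam : ContinuousOn lam (Set.Icc α β))
    (hw' : ∀ t ∈ Set.Icc α β, HasDerivWithinAt w (lam t • (a + t • b)) (Set.Icc α β) t)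
    (η : ℝ) (hη : 0 < η) :
    ∃ δ : ℝ, 0 < δ ∧ ∀ (N : ℕ) (t : Fin (N + 1) → ℝ) (c : Fin N → ℝ),
      StrictMono t → t 0 = α → t (Fin.last N) = β →
      (∀ i : Fin N, t i.succ - t i.castSucc ≤ δ) →
      (∀ i : Fin N, t i.castSucc ≤ c i ∧ c i ≤ t i.succ) →
      (∃ (p q r : Fin N → EuclideanSpace ℝ (Fin 3)),
        (∀ i, inner ℝ (p i) (e + w (c i)) = 0 ∧ inner ℝ (q i) (e + w (c i)) = 0 ∧
          inner ℝ (r i) (e + w (c i)) = 0) ∧
        (∀ i, AffineIndependent ℝ ![p i, q i, r i]) ∧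
        {x : EuclideanSpace ℝ (Fin 3) | ∃ τ ∈ Set.Icc α β, ∃ ρ ∈ Set.Icc 0 (R τ), ∃ s : ℝ, abs s ≤ L ∧
            x = p₀ + ρ • (a + τ • b) + s • (e + w τ)} ⊆
          ⋃ i, {x : EuclideanSpace ℝ (Fin 3) | ∃ y ∈ convexHull ℝ {p i, q i, r i}, ∃ σ : ℝ,
            x = y + σ • (e + w (c i))} ∧
        abs ((∑ i, (μHE[2] (convexHull ℝ ({p i, q i, r i} : Set (EuclideanSpace ℝ (Fin 3))))).toReal) -
            Real.sqrt (‖a‖ ^ 2 * ‖b‖ ^ 2 - inner ℝ a b ^ 2) *
              ∫ τ in α..β, R τ ^ 2 / (2 * Real.sqrt (1 + ‖w τ‖ ^ 2))) ≤ η) ∧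
      abs ((∑ i : Fin N, (μHE[2] ((fun y => y - (inner ℝ y (e + w (c i)) / ‖e + w (c i)‖ ^ 2) • (e + w (c i))) ''
            {x : EuclideanSpace ℝ (Fin 3) | ∃ τ ∈ Set.Icc (t i.castSucc) (t i.succ), ∃ ρ ∈ Set.Icc 0 (R τ),
              ∃ s : ℝ, abs s ≤ L ∧ x = p₀ + ρ • (a + τ • b) + s • (e + w τ)})).toReal) -
          Real.sqrt (‖a‖ ^ 2 * ‖b‖ ^ 2 - inner ℝ a b ^ 2) *
            ∫ τ in α..β, R τ ^ 2 / (2 * Real.sqrt (1 + ‖w τ‖ ^ 2))) ≤ η := by
  classical
  have hκ := R211.gram_pos hab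
  have hwc : ContinuousOn w (Set.Icc α β) := fun t ht => (hw' t ht).continuousWithinAt
  set F : ℝ → ℝ := fun τ => R τ ^ 2 / (2 * Real.sqrt (1 + ‖w τ‖ ^ 2)) with hF_def
  have hFc : ContinuousOn F (Set.Icc α β) := by
    apply ContinuousOn.div (hR.pow 2)
    · exact continuousOn_const.mul (continuousOn_const.add (hwc.norm.pow 2)).sqrt
    · intro x _; positivity
  obtain ⟨Lam0, hLam0⟩ := isCompact_Icc.exists_bound_of_continuousOn hlam
  obtain ⟨M0, hM0⟩ := isCompact_Icc.exists_bound_of_continuousOn hR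
  set Lam := |Lam0| + 1 with hLam_def
  set M := |M0| with hM_def
  have hLamp : 0 < Lam := by positivity
  have hMp : 0 ≤ M := abs_nonneg _
  have hLam : ∀ t ∈ Set.Icc α β, |lam t| ≤ Lam := fun t ht => by
    have := hLam0 t ht
    rw [Real.norm_eq_abs] at this
    linarith [le_abs_self Lam0]
  have hM : ∀ t ∈ Set.Icc α β, R t ≤ M := fun t ht => by
    have := hM0 t ht
    rw [Real.norm_eq_abs] at this
    linarith [le_abs_self M0, le_abs_self (R t)]
  have hβα : 0 < β - α := by linarith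
  set κ := R211.gram a b with hκ_def
  set η1 := min 1 (η / ((β - α) * κ * (2 * M + 3))) with hη1_def
  have hη1p : 0 < η1 := lt_min one_pos (by positivity)
  have hη11 : η1 ≤ 1 := min_le_left _ _
  have hη12 : κ * η1 * (2 * M + 3) * (β - α) ≤ η := by
    have h := min_le_right 1 (η / ((β - α) * κ * (2 * M + 3)))
    rw [← hη1_def, le_div_iff₀ (by positivity)] at h
    linarith
  obtain ⟨δ1, hδ1p, hδ1⟩ := Metric.uniformContinuousOn_iff_le.mp
    (isCompact_Icc.uniformContinuousOn_of_continuous hR) η1 hη1p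
  obtain ⟨δ2, hδ2p, hδ2⟩ := Metric.uniformContinuousOn_iff_le.mp
    (isCompact_Icc.uniformContinuousOn_of_continuous hFc) η1 hη1p
  refine ⟨min (min δ1 δ2) (η1 / (3 * L * Lam)), lt_min (lt_min hδ1p hδ2p) (by positivity), ?_⟩
  intro N t c ht h0 hN hmesh hc
  have hl : ∀ i : Fin N, α ≤ t i.castSucc := fun i => h0 ▸ ht.monotone (Fin.zero_le _)
  have hr : ∀ i : Fin N, t i.succ ≤ β := fun i => hN ▸ ht.monotone (Fin.le_last _)
  have hlr : ∀ i : Fin N, t i.castSucc < t i.succ := fun i => ht Fin.castSucc_lt_succ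
  have hcell : ∀ i : Fin N, ∀ τ ∈ Set.Icc (t i.castSucc) (t i.succ), τ ∈ Set.Icc α β :=
    fun i τ hτ => ⟨(hl i).trans hτ.1, hτ.2.trans (hr i)⟩
  have hdist : ∀ i : Fin N, ∀ τ ∈ Set.Icc (t i.castSucc) (t i.succ),
      dist τ (c i) ≤ min δ1 δ2 := by
    intro i τ hτ
    refine le_trans ?_ ((hmesh i).trans (min_le_left _ _))
    rw [Real.dist_eq, abs_le]
    constructor <;> linarith [hτ.1, hτ.2, (hc i).1, (hc i).2]
  have hRc : ∀ i : Fin N, ∀ τ ∈ Set.Icc (t i.castSucc) (t i.succ),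
      max 0 (R (c i) - η1) ≤ R τ ∧ R τ ≤ R (c i) + η1 := by
    intro i τ hτ
    have := hδ1 τ (hcell i τ hτ) (c i) (hcell i _ (hc i)) ((hdist i τ hτ).trans (min_le_left _ _))
    rw [Real.dist_eq, abs_le] at this
    exact ⟨max_le (hR0 τ (hcell i τ hτ)) (by linarith [this.1]), by linarith [this.2]⟩
  have key := fun i : Fin N => R211.sweep_cell (p₀ := p₀) he ha hb hab hL hw hLamp hlam hLam hw'
    (hl i) (hr i) (hlr i) (hc i) (le_max_left 0 (R (c i) - η1)) (hRc i)
  choose p q r hperp haff hcov harea hup hlow using key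
  -- summation lemma
  have hsum : ∀ z : Fin N → ℝ,
      (∀ i, max 0 (R (c i) - η1) ^ 2 * (t i.succ - t i.castSucc) * κ /
          Real.sqrt (1 + ‖w (c i)‖ ^ 2) / 2 ≤ z i) →
      (∀ i, z i ≤ (R (c i) + η1 + 3 * L * Lam * (t i.succ - t i.castSucc)) ^ 2 *
          (t i.succ - t i.castSucc) * κ / Real.sqrt (1 + ‖w (c i)‖ ^ 2) / 2) →
      |∑ i, z i - κ * ∫ τ in α..β, F τ| ≤ η := by
    intro z hz1 hz2
    have hint : ∀ x ∈ Set.Icc α β, ∀ y ∈ Set.Icc α β, IntervalIntegrable F volume x y :=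
      fun x hx y hy => (hFc.mono (Set.uIcc_subset_Icc hx hy)).intervalIntegrable
    have htm : ∀ j, t j ∈ Set.Icc α β := fun j =>
      ⟨h0 ▸ ht.monotone (Fin.zero_le _), hN ▸ ht.monotone (Fin.le_last _)⟩
    have hα : α ∈ Set.Icc α β := ⟨le_rfl, hαβ.le⟩
    have htel : ∫ τ in α..β, F τ = ∑ i : Fin N, ∫ τ in t i.castSucc..t i.succ, F τ := by
      have h1 := R211.sweep_telescope N (fun j => ∫ τ in α..t j, F τ)
      simp only [h0, hN, intervalIntegral.integral_same, sub_zero] at h1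
      rw [← h1]
      apply Finset.sum_congr rfl
      intro i _
      exact intervalIntegral.integral_interval_sub_left (hint _ hα _ (htm _)) (hint _ hα _ (htm _))
    have hcellb : ∀ i : Fin N, |z i - κ * ∫ τ in t i.castSucc..t i.succ, F τ| ≤
        κ * η1 * (2 * M + 3) * (t i.succ - t i.castSucc) := by
      intro i
      set d := t i.succ - t i.castSucc with hd_def
      have hd : 0 < d := sub_pos.mpr (hlr i)
      have hci := hcell i _ (hc i)
      have hRc0 := hR0 _ hci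
      have hRcM := hM _ hci
      have hI : |(∫ τ in t i.castSucc..t i.succ, F τ) - d * F (c i)| ≤ η1 * d := by
        have h1 : d * F (c i) = ∫ _ in t i.castSucc..t i.succ, F (c i) := by
          rw [intervalIntegral.integral_const, smul_eq_mul]
        rw [h1, ← intervalIntegral.integral_sub (hint _ (htm _) _ (htm _))
          intervalIntegrable_const]
        have := intervalIntegral.norm_integral_le_of_norm_le_const (a := t i.castSucc)
          (b := t i.succ) (f := fun τ => F τ - F (c i)) (C := η1) (by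
            intro x hx
            have hx' := Set.uIoc_subset_uIcc hx
            rw [Set.uIcc_of_le (hlr i).le] at hx'
            have := hδ2 x (hcell i x hx') (c i) hci ((hdist i x hx').trans (min_le_right _ _))
            rwa [Real.dist_eq] at this)
        rwa [Real.norm_eq_abs, abs_of_pos hd] at this
      have hsq : 1 ≤ Real.sqrt (1 + ‖w (c i)‖ ^ 2) := by
        apply Real.le_sqrt_of_sq_le; nlinarith [sq_nonneg ‖w (c i)‖]
      set g := 1 / Real.sqrt (1 + ‖w (c i)‖ ^ 2) / 2 with hg_def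
      have hg0 : 0 ≤ g := by positivity
      have hg1 : g ≤ 1 / 2 := by
        rw [hg_def]
        gcongr
        rw [div_le_one (by positivity)]; exact hsq
      have hFc' : F (c i) = R (c i) ^ 2 * g := by
        rw [hF_def, hg_def]; field_simp
      have h3 : 3 * L * Lam * d ≤ η1 := by
        have := (hmesh i).trans (min_le_right _ _)
        rw [le_div_iff₀ (by positivity)] at this
        linarith
      have h3' : 0 ≤ 3 * L * Lam * d := by positivity
      have hU : (R (c i) + η1 + 3 * L * Lam * d) ^ 2 ≤ R (c i) ^ 2 + η1 * (4 * M + 4) := by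
        have : (R (c i) + η1 + 3 * L * Lam * d) ^ 2 ≤ (R (c i) + 2 * η1) ^ 2 := by
          apply pow_le_pow_left₀ (by positivity); linarith
        nlinarith only [this, hRcM, hη11, hη1p, hRc0]
      have hLo : R (c i) ^ 2 - η1 * (4 * M + 4) ≤ max 0 (R (c i) - η1) ^ 2 := by
        rcases le_total 0 (R (c i) - η1) with h | h
        · rw [max_eq_right h]; nlinarith only [hRcM, hη11, hη1p, hRc0, hMp]
        · rw [max_eq_left h]; nlinarith only [h, hRcM, hη11, hη1p, hRc0, hMp]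
      have hz1' : max 0 (R (c i) - η1) ^ 2 * (d * κ * g) ≤ z i := by
        refine le_trans (le_of_eq ?_) (hz1 i)
        rw [hg_def]; ring
      have hz2' : z i ≤ (R (c i) + η1 + 3 * L * Lam * d) ^ 2 * (d * κ * g) := by
        refine le_trans (hz2 i) (le_of_eq ?_)
        rw [hg_def]; ring
      have hdkg : 0 ≤ d * κ * g := by positivity
      have hdkg1 : η1 * (4 * M + 4) * (d * κ * g) ≤ η1 * (4 * M + 4) * (d * κ * (1 / 2)) := by
        gcongr
      have hA := mul_le_mul_of_nonneg_right hU hdkg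
      have hB := mul_le_mul_of_nonneg_right hLo hdkg
      rw [abs_le] at hI ⊢
      have hI1 := mul_le_mul_of_nonneg_left hI.1 hκ.le
      have hI2 := mul_le_mul_of_nonneg_left hI.2 hκ.le
      rw [hFc'] at hI1 hI2
      constructor <;> nlinarith only [hA, hB, hI1, hI2, hz1', hz2', hdkg1]
    rw [htel, Finset.mul_sum, ← Finset.sum_sub_distrib]
    refine (Finset.abs_sum_le_sum_abs _ _).trans ((Finset.sum_le_sum fun i _ => hcellb i).trans ?_)
    rw [← Finset.mul_sum, R211.sweep_telescope, h0, hN]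
    exact hη12
  refine ⟨⟨p, q, r, hperp, haff, ?_, ?_⟩, ?_⟩
  · rintro x ⟨τ, hτ, ρ, hρ, s, hs, rfl⟩
    obtain ⟨i, hi⟩ := R211.sweep_exists_cell t τ (by rw [h0, hN]; exact hαβ) (h0 ▸ hτ.1)
      (hN ▸ hτ.2)
    exact Set.mem_iUnion.mpr ⟨i, hcov i ⟨τ, hi, ρ, hρ, s, hs, rfl⟩⟩
  · apply hsum
    · intro i; rw [harea i]; exact ((hlow i).trans (hup i))
    · intro i; exact (harea i).le
  · exact hsum _ hlow hup

end Crest.Agent.S0328
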