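import Crest.Statements.S0331
import Crest.Agent.R213.PMain
import Crest.Agent.R213.D.Main
import Crest.Agent.R213.G.Main
import Crest.Agent.R213.Ea.Main

set_option autoImplicit false
open Crest.GeometryTopology.ProjKahler
open Crest Crest.GeometryTopology

namespace Crest.Agent.S0331

/-- For n = 10: there are T with 0 < T < ∞ and a smooth Calabi flow on ℂPⁿ × [0,T) in the Kähler class of the Fubini–Study form (relative potentials read in the standard affine charts, Kähler at every time, ∂ₜh = S − n(n+1) with S = tr_ω Ric) whose initial form is invariant under the unitary group U(10), together with a point p of the affine chart and a > 0 such that the scalar curvature at p times √(T − t) tends to a as t ↑ T (so the flow cannot be continued smoothly past T). -/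
theorem result :
    ∃ T : ℝ, 0 < T ∧ ∃ h : ℝ → ProjExtension 10, IsCalabiFlowFS h T ∧
      IsUnitarilyInvariant (h 0).h ∧
      ∃ (p : V 10) (a : ℝ), 0 < a ∧
        Filter.Tendsto (fun t => scalarCurv (fun u => fsPot u + (h t).h u) p * Real.sqrt (T - t))
          (nhdsWithin T (Set.Iio T)) (nhds a) :=
  Crest.Agent.R213.stG (Crest.Agent.R213.stP Crest.Agent.R213.Ea.stE Crest.Agent.R213.stD)

end Crest.Agent.S0331
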