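import Crest.Statements.S0347
import Crest.Agent.R225.Cover

set_option autoImplicit false
open MeasureTheory
open Crest Crest.GeometryTopology Crest.GeometryTopology.Covering

namespace Crest.Agent.S0347

/-- There is an absolute constant `C` such that for every `n ≥ 2` and every convex body `K` in `ℝ^n` (compact, convex, nonempty interior) some full-rank lattice `Λ = g ℤ^n`, `g` an invertible real `n × n` matrix, satisfies `K + Λ = ℝ^n` and has covering density `vol(K)` divided by the absolute value of `det g` at most `C n log n`. -/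
theorem result :
    ∃ C : ℝ, ∀ (n : ℕ), 2 ≤ n → ∀ (K : Set (Fin n → ℝ)),
      IsCompact K → Convex ℝ K → (interior K).Nonempty →
        ∃ g : Matrix (Fin n) (Fin n) ℝ, g.det ≠ 0 ∧
          (∀ x : Fin n → ℝ, ∃ z : Fin n → ℤ, x - g.mulVec (fun i => (z i : ℝ)) ∈ K) ∧
          (volume K).toReal / |g.det| ≤ C * n * Real.log n := by
  obtain ⟨C, hev⟩ := Crest.Agent.R225.lc_large
  obtain ⟨n₀, hn₀⟩ := Filter.eventually_atTop.1 hev
  refine ⟨max C ((2 * (n₀ : ℝ) + 1) ^ n₀), fun n hn K h1 h2 h3 => ?_⟩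
  have hn2 : (2 : ℝ) ≤ n := by exact_mod_cast hn
  have hlog : 1 / 2 ≤ Real.log n :=
    le_trans (by linarith [Real.log_two_gt_d9]) (Real.log_le_log (by norm_num) hn2)
  have hK : Crest.Agent.R225.Body K := ⟨h1, h2, h3⟩
  have key : Crest.Agent.R225.LC K (max C ((2 * (n₀ : ℝ) + 1) ^ n₀) * n * Real.log n) := by
    rcases le_total n₀ n with h | h
    · refine (hn₀ n h K hK).mono ?_
      gcongr
      exact le_max_left _ _
    · refine (Crest.Agent.R225.LC.trivial (by omega) hK).mono ?_
      have h' : (n : ℝ) ≤ n₀ := by exact_mod_cast h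
      have e1 : (2 * (n : ℝ)) ^ n ≤ (2 * (n₀ : ℝ) + 1) ^ n₀ :=
        (pow_le_pow_left₀ (by positivity) (by linarith) n).trans
          (pow_le_pow_right₀ (by linarith) h)
      have e2 : (1 : ℝ) ≤ n * Real.log n := by nlinarith
      have e3 : (0 : ℝ) ≤ (2 * (n₀ : ℝ) + 1) ^ n₀ := by positivity
      calc (2 * (n : ℝ)) ^ n ≤ max C ((2 * (n₀ : ℝ) + 1) ^ n₀) * 1 := by
            rw [mul_one]; exact e1.trans (le_max_right _ _)
        _ ≤ max C ((2 * (n₀ : ℝ) + 1) ^ n₀) * (n * Real.log n) :=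
            mul_le_mul_of_nonneg_left e2 (e3.trans (le_max_right _ _))
        _ = _ := by ring
  obtain ⟨g, hg, hcov, hvol⟩ := key
  exact ⟨g, hg, hcov, (div_le_iff₀ (abs_pos.2 hg)).2 hvol⟩

end Crest.Agent.S0347
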