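import Crest.Statements.S0348
import Crest.Agent.R225.Main348

set_option autoImplicit false
open MeasureTheory Filter
open scoped ENNReal
open Crest Crest.GeometryTopology Crest.GeometryTopology.Covering

namespace Crest.Agent.S0348

/-- There are constants `c > 0` and `n₀` such that for every `n ≥ n₀` some centrally symmetric convex body `K` in `ℝ^n` has translative covering density at least `c n log n`: for every locally finite set `X` of translation vectors with `K + X = ℝ^n`, the product of `vol(K)` with the upper limit, as `R → ∞`, of the number of points of `X` in the cube `[-R, R]^n` divided by `(2R)^n` is at least `c n log n`. -/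
theorem result :
    ∃ c : ℝ, 0 < c ∧ ∃ n₀ : ℕ, ∀ n : ℕ, n₀ ≤ n →
      ∃ K : Set (Fin n → ℝ), IsCompact K ∧ Convex ℝ K ∧ (interior K).Nonempty ∧
        (∀ x ∈ K, -x ∈ K) ∧
        ∀ X : Set (Fin n → ℝ), (∀ R : ℝ, (X ∩ {x | ∀ i, |x i| ≤ R}).Finite) →
          (∀ y : Fin n → ℝ, ∃ x ∈ X, y - x ∈ K) →
          ENNReal.ofReal (c * n * Real.log n) ≤
            volume K * limsup (fun R : ℝ => ((X ∩ {x | ∀ i, |x i| ≤ R}).ncard : ℝ≥0∞) /
              ENNReal.ofReal ((2 * R) ^ n)) atTop := by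
  obtain ⟨c, hc, hev⟩ := Crest.Agent.R225.exists_body
  obtain ⟨n₀, hn₀⟩ := eventually_atTop.1 hev
  refine ⟨c, hc, n₀, fun n hn => ?_⟩
  obtain ⟨K, hKc, hKv, hK0, hKs, hK⟩ := hn₀ n hn
  let e : (Fin n → ℝ) ≃L[ℝ] EuclideanSpace ℝ (Fin n) := (EuclideanSpace.equiv (Fin n) ℝ).symm
  have he : ∀ x, e x = WithLp.toLp 2 x := fun x => rfl
  have hvol : volume (e ⁻¹' K) = volume K :=
    (PiLp.volume_preserving_toLp (Fin n)).measure_preimage hKc.measurableSet.nullMeasurableSet
  have hc' : IsCompact (e ⁻¹' K) := e.toHomeomorph.isCompact_preimage.2 hKc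
  have hv' : Convex ℝ (e ⁻¹' K) := hKv.linear_preimage e.toLinearEquiv.toLinearMap
  have hfinK : volume K ≠ ⊤ := hKc.measure_lt_top.ne
  have hK0' : volume K ≠ 0 := fun h => by simp [Measure.real, h] at hK0
  refine ⟨e ⁻¹' K, hc', hv', ?_, fun x hx => ?_, fun X hfin hcov => ?_⟩
  · by_contra hi
    rw [Set.not_nonempty_iff_eq_empty] at hi
    have h1 := hv'.addHaar_frontier volume
    rw [frontier, hi, Set.sdiff_empty, hc'.isClosed.closure_eq, hvol] at h1
    exact hK0' h1
  · show e (-x) ∈ K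
    rw [map_neg]
    exact hKs _ hx
  rw [hvol]
  by_contra hlt
  rw [not_le, mul_comm (volume K), ← ENNReal.lt_div_iff_mul_lt (Or.inl hK0') (Or.inl hfinK)] at hlt
  obtain ⟨r, hr1, hr2⟩ := ENNReal.lt_iff_exists_nnreal_btwn.1 hlt
  have himg : ∀ R : ℝ, e '' X ∩ {x | ∀ i, |x i| ≤ R} = e '' (X ∩ {x | ∀ i, |x i| ≤ R}) := by
    intro R
    ext y
    constructor
    · rintro ⟨⟨x, hx, rfl⟩, h⟩
      exact ⟨x, ⟨hx, h⟩, rfl⟩
    · rintro ⟨x, ⟨hx, h⟩, rfl⟩
      exact ⟨⟨x, hx, rfl⟩, h⟩
  have key := hK (e '' X) (fun R => by rw [himg]; exact (hfin R).image _)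
    (fun y => by
      obtain ⟨x, hx, h⟩ := hcov (e.symm y)
      refine ⟨e x, ⟨x, hx, rfl⟩, ?_⟩
      have : e (e.symm y - x) ∈ K := h
      rwa [map_sub, e.apply_symm_apply] at this) r r.2 (by
      filter_upwards [eventually_lt_of_limsup_lt hr1, eventually_gt_atTop (0 : ℝ)] with R h hR
      rw [himg, Set.ncard_image_of_injective _ e.injective]
      have hpos : 0 < (2 * R) ^ n := by positivity
      rw [ENNReal.div_lt_iff (Or.inl (by simpa using hpos)) (Or.inl ENNReal.ofReal_ne_top)] at h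
      have h2 := ENNReal.toReal_mono (ENNReal.mul_ne_top ENNReal.coe_ne_top ENNReal.ofReal_ne_top) h.le
      simpa [ENNReal.toReal_mul, ENNReal.toReal_ofReal hpos.le] using h2)
  rw [ENNReal.lt_div_iff_mul_lt (Or.inl hK0') (Or.inl hfinK)] at hr2
  have h3 := ENNReal.ofReal_le_ofReal key
  rw [ENNReal.ofReal_mul hK0.le, Measure.real, ENNReal.ofReal_toReal hfinK,
    ENNReal.ofReal_coe_nnreal, mul_comm (volume K)] at h3
  exact absurd hr2 (not_lt.2 h3)

end Crest.Agent.S0348
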