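import Crest.Statements.S0354
import Crest.Agent.R230.Final54

set_option autoImplicit false
open MeasureTheory
open scoped ENNReal
open Crest Crest.GeometryTopology Crest.GeometryTopology.Convex

namespace Crest.Agent.S0354

/-- Let `n ≥ 4` and `K` a convex body in Euclidean `n`-space; `κ_m` is the volume of the unit `m`-ball and `ΠK` the projection body of `K`: the points `x` with `⟪x, u⟫ ≤ vol_{n-1}(P_u K)` for all unit `u`, `P_u K` the orthogonal projection of `K` on `u^⊥`, `vol_{n-1}` its `(n-1)`-dimensional volume (Hausdorff measure normalised to Lebesgue measure). Then `κ_{n-1}^n vol(K)^(n-1) ≤ vol(ΠK) κ_n^(n-2)`, with equality exactly when `K = a + T(B)`, `T` invertible linear, `B` the closed unit ball. -/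
theorem result (n : ℕ) (hn : 4 ≤ n)
    (K : Set (EuclideanSpace ℝ (Fin n))) (hK : IsCompact K) (hKc : Convex ℝ K) (hKi : (interior K).Nonempty) :
    volume (Metric.ball (0 : EuclideanSpace ℝ (Fin (n - 1))) 1) ^ n * volume K ^ (n - 1) ≤
        volume (⋂ u ∈ Metric.sphere (0 : EuclideanSpace ℝ (Fin n)) 1,
          {x : EuclideanSpace ℝ (Fin n) | inner ℝ x u ≤
            ((μHE[n - 1] : Measure (EuclideanSpace ℝ (Fin n))) ((fun y => y - inner ℝ y u • u) '' K)).toReal}) *
          volume (Metric.ball (0 : EuclideanSpace ℝ (Fin n)) 1) ^ (n - 2) ∧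
      (volume (Metric.ball (0 : EuclideanSpace ℝ (Fin (n - 1))) 1) ^ n * volume K ^ (n - 1) =
          volume (⋂ u ∈ Metric.sphere (0 : EuclideanSpace ℝ (Fin n)) 1,
          {x : EuclideanSpace ℝ (Fin n) | inner ℝ x u ≤
            ((μHE[n - 1] : Measure (EuclideanSpace ℝ (Fin n))) ((fun y => y - inner ℝ y u • u) '' K)).toReal}) *
            volume (Metric.ball (0 : EuclideanSpace ℝ (Fin n)) 1) ^ (n - 2) ↔
        ∃ (a : EuclideanSpace ℝ (Fin n)) (T : EuclideanSpace ℝ (Fin n) ≃ₗ[ℝ] EuclideanSpace ℝ (Fin n)),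
          K = (fun x => a + T x) '' Metric.closedBall 0 1) := by
  exact Crest.Agent.R230.final54 n hn K hK hKc hKi

end Crest.Agent.S0354
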