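import Crest.Statements.S0365
import Crest.Agent.R236.Final

set_option autoImplicit false
open scoped ContDiff
open Crest.GeometryTopology.CoordMetric Crest.GeometryTopology.AffineMaximal
open Crest Crest.GeometryTopology

namespace Crest.Agent.S0365

/-- Let 3 ≤ n ≤ 9, let Ω be a nonempty open convex subset of ℝⁿ, and let u be a C^∞ real function on Ω whose coordinate Hessian is positive definite at every point of Ω and which satisfies the affine maximal equation at every point of Ω. If Ω is complete for the path distance of the graph metric δᵢⱼ + ∂ᵢu ∂ⱼu (infimum of lengths of C¹ curves inside Ω), then Ω is all of ℝⁿ and u is a quadratic polynomial whose quadratic part is positive definite. -/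
theorem result
    (n : ℕ) (hn : 3 ≤ n) (hn' : n ≤ 9)
    (Ω : Set (EuclideanSpace ℝ (Fin n))) (hΩ : IsOpen Ω) (hΩc : Convex ℝ Ω) (hΩn : Ω.Nonempty)
    (u : EuclideanSpace ℝ (Fin n) → ℝ) (hu : ContDiffOn ℝ ∞ u Ω)
    (hconv : ∀ x ∈ Ω, (hessianMat u x).PosDef)
    (hmax : ∀ x ∈ Ω, affineMaximalOp n u x = 0)
    (hcomp : IsCompleteOn (graphMetric u) Ω) :
    Ω = Set.univ ∧
      ∃ (A : Matrix (Fin n) (Fin n) ℝ) (b : EuclideanSpace ℝ (Fin n)) (c : ℝ), A.PosDef ∧
        ∀ x, u x = (1 / 2) * (∑ i, ∑ j, A i j * x i * x j) + (∑ i, b i * x i) + c :=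
  Crest.Agent.R236.bernstein n hn hn' Ω hΩ hΩc hΩn u hu hconv hmax hcomp

end Crest.Agent.S0365
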