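import Crest.Statements.S0368
import Crest.Agent.R237.A1
import Crest.Agent.R237.A2
import Crest.Agent.R237.A3a
import Crest.Agent.R237.A3e
import Crest.Agent.R237.A4c
import Crest.Agent.R237.A4f

set_option autoImplicit false
open Crest.GeometryTopology
open Crest Crest.GeometryTopology

namespace Crest.Agent.S0368

/-- There are real homogeneous polynomials p, q in 23 variables, of degrees 20 and 16, hyperbolic with respect to one e, with p e = q e = 1 and a common closed hyperbolicity cone K; K is not a spectrahedron (no linear map L into real symmetric N × N matrices, N ≥ 1, has K as the set where L x is positive semidefinite) yet has a lift of explicit size: symmetric 100 × 100 real matrices A ν (ν < 23), B j (j < 307) with x ∈ K exactly when some v makes ∑ x ν • A ν + ∑ v j • B j positive semidefinite. -/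
theorem result :
    ∃ (p q : MvPolynomial (Fin 23) ℝ) (e : Fin 23 → ℝ),
      p.IsHomogeneous 20 ∧ Hyperbolic.IsHyperbolic p e ∧ MvPolynomial.eval e p = 1 ∧
      q.IsHomogeneous 16 ∧ Hyperbolic.IsHyperbolic q e ∧ MvPolynomial.eval e q = 1 ∧
      Hyperbolic.closedCone q e = Hyperbolic.closedCone p e ∧
      (∀ N : ℕ, 1 ≤ N → ∀ L : (Fin 23 → ℝ) →ₗ[ℝ] Matrix (Fin N) (Fin N) ℝ,
        (∀ x, (L x).IsSymm) → Hyperbolic.closedCone p e ≠ {x | (L x).PosSemidef}) ∧
      ∃ (A : Fin 23 → Matrix (Fin 100) (Fin 100) ℝ) (B : Fin 307 → Matrix (Fin 100) (Fin 100) ℝ),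
        (∀ ν, (A ν).IsSymm) ∧ (∀ j, (B j).IsSymm) ∧
        Hyperbolic.closedCone p e =
          {x | ∃ v : Fin 307 → ℝ, (∑ ν, x ν • A ν + ∑ j, v j • B j).PosSemidef} := by
  refine ⟨R237.PA 7, R237.PA 5, R237.eA, R237.PA_hom 7, R237.hyp_PA 7, ?_, R237.PA_hom 5, R237.hyp_PA 5, ?_,
    ?_, ?_, ?_⟩
  · rw [R237.eval_PA, R237.pp_eA]
  · rw [R237.eval_PA, R237.pp_eA]
  · rw [R237.closedCone_PA 5 (by norm_num), R237.closedCone_PA 7 (by norm_num)]
  · intro N _ L hs h
    rw [R237.closedCone_PA 7 (by norm_num)] at h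
    obtain ⟨H₁, H₀, ⟨P⟩⟩ := R237.pencil_of_LMI L hs (fun x h0 h1 => by
      rw [← R237.mem_Kc_iff x h0 h1, h]; rfl)
    exact R237.no_pencil P
  · obtain ⟨A, B, hA, hB, h⟩ := R237.feas_matrices
    refine ⟨A, B, hA, hB, ?_⟩
    rw [R237.closedCone_PA 7 (by norm_num)]
    ext x
    rw [R237.mem_Kc_iff_feas, h x]
    rfl

end Crest.Agent.S0368
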