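import Crest.Statements.S0378
import Crest.Agent.R245.Final

set_option autoImplicit false
open Crest Crest.GeometryTopology

namespace Crest.Agent.S0378

/-- There are an open connected contractible U ⊆ ℂ³ (as Fin 3 → ℂ), a smooth positive definite Hermitian metric on U (HermitianMetricOn) that is Kähler and complete for its induced distance, and constants 0 < A ≤ B with every sectional curvature of the underlying Riemannian metric, at each point of U and each real two-plane, in [-B, -A]; and every map ℂ³ → ℂ³ that is complex differentiable on U with bounded image of U has a point of U where the determinant of its complex derivative vanishes. -/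
theorem result :
    ∃ U : Set (Fin 3 → ℂ), IsOpen U ∧ IsConnected U ∧ ContractibleSpace U ∧
      ∃ g : Crest.GeometryTopology.HermitianMetricOn 3 U, g.IsKahler ∧ g.IsComplete ∧
        (∃ A B : ℝ, 0 < A ∧ A ≤ B ∧ ∀ p ∈ U, ∀ X Y : (Fin 3 → ℂ),
          g.riem p X X * g.riem p Y Y - g.riem p X Y ^ 2 ≠ 0 →
            -B ≤ g.sectional p X Y ∧ g.sectional p X Y ≤ -A) ∧
        ∀ F : (Fin 3 → ℂ) → (Fin 3 → ℂ), DifferentiableOn ℂ F U → Bornology.IsBounded (F '' U) →
          ∃ p ∈ U, (fderiv ℂ F p).det = 0 :=
  Crest.Agent.R245.final78

end Crest.Agent.S0378
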