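import Crest.Statements.S0379
import Crest.Agent.R245.Final

set_option autoImplicit false
open scoped ContDiff
open Crest Crest.GeometryTopology

namespace Crest.Agent.S0379

/-- For some integer m ≥ 2 there are an open U ⊆ ℂ^m (as Fin m → ℂ) that is diffeomorphic to ℝ^{2m} (a smooth map of ℂ^m onto U with a smooth inverse on U), and a smooth Hermitian metric on U (HermitianMetricOn) that is Kähler and complete for its induced distance, whose sectional curvatures (each point of U, each non-degenerate real two-plane) are all at most -1 and are not bounded below, such that every function ℂ^m → ℂ that is complex differentiable on U and bounded on U is constant on U. -/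
theorem result :
    ∃ m : ℕ, 2 ≤ m ∧ ∃ U : Set (Fin m → ℂ), IsOpen U ∧
      (∃ Φ Ψ : (Fin m → ℂ) → (Fin m → ℂ), ContDiff ℝ ∞ Φ ∧ ContDiffOn ℝ ∞ Ψ U ∧
        Set.range Φ = U ∧ ∀ x, Ψ (Φ x) = x) ∧
      ∃ g : Crest.GeometryTopology.HermitianMetricOn m U, g.IsKahler ∧ g.IsComplete ∧
        (∀ p ∈ U, ∀ X Y : (Fin m → ℂ), g.riem p X X * g.riem p Y Y - g.riem p X Y ^ 2 ≠ 0 →
          g.sectional p X Y ≤ -1) ∧
        (∀ B : ℝ, ∃ p ∈ U, ∃ X Y : (Fin m → ℂ),
          g.riem p X X * g.riem p Y Y - g.riem p X Y ^ 2 ≠ 0 ∧ g.sectional p X Y < B) ∧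
        ∀ f : (Fin m → ℂ) → ℂ, DifferentiableOn ℂ f U → Bornology.IsBounded (f '' U) →
          ∀ p ∈ U, ∀ q ∈ U, f p = f q :=
  Crest.Agent.R245.final79

end Crest.Agent.S0379
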