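import Crest.Statements.S0381
import Crest.Agent.R247.Main
import Crest.Agent.R247.A
import Crest.Agent.R247.HK
import Crest.Agent.R247.L1

set_option autoImplicit false
open scoped ContDiff Manifold
open Bundle Crest.GeometryTopology.CoordMetric Crest.GeometryTopology.ChartCurvature Crest.GeometryTopology.PointedLimit
universe u
noncomputable section
open Crest Crest.GeometryTopology

namespace Crest.Agent.S0381

/-- For each n ≥ 2 there is L ≥ 1 such that: if complete connected Riemannian n-manifolds M k (C^∞ metric, path distance) with Ric ≥ K·g in charts, whose unit balls about base points q k have normalised n-dimensional Hausdorff measure ≥ a fixed v > 0, converge in the pointed Gromov–Hausdorff sense to a complete pointed metric space (X, p), and the rescalings of X at p converge to ℝⁿ, then some open U ∋ p has a map F to ℝⁿ with F(U) open and L⁻¹·d(x,z) ≤ dist (F x) (F z) ≤ L·d(x,z) on U. -/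
theorem result
    (n : ℕ) (hn : 2 ≤ n) :
    ∃ L : ℝ, 1 ≤ L ∧
      ∀ (K : ℝ) (M : ℕ → Type u) [∀ k, MetricSpace (M k)] [∀ k, CompleteSpace (M k)]
        [∀ k, ConnectedSpace (M k)] [∀ k, ChartedSpace (EuclideanSpace ℝ (Fin n)) (M k)]
        [∀ k, IsManifold 𝓘(ℝ, EuclideanSpace ℝ (Fin n)) ∞ (M k)]
        [∀ k, RiemannianBundle (fun x : M k => TangentSpace 𝓘(ℝ, EuclideanSpace ℝ (Fin n)) x)]
        [∀ k, IsContMDiffRiemannianBundle 𝓘(ℝ, EuclideanSpace ℝ (Fin n)) ∞ (EuclideanSpace ℝ (Fin n))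
          (fun x : M k => TangentSpace 𝓘(ℝ, EuclideanSpace ℝ (Fin n)) x)]
        [∀ k, IsRiemannianManifold 𝓘(ℝ, EuclideanSpace ℝ (Fin n)) (M k)]
        [∀ k, MeasurableSpace (M k)] [∀ k, BorelSpace (M k)] (q : ∀ k, M k),
        (∀ k, HasRicciLowerBound n (M k) K) →
        (∃ v : ℝ, 0 < v ∧ ∀ k, ENNReal.ofReal v ≤
          MeasureTheory.Measure.euclideanHausdorffMeasure n (Metric.ball (q k) 1)) →
        ∀ (X : Type u) [MetricSpace X] [CompleteSpace X] (p : X),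
          SeqPointedTendsto q p → RescalingsTendstoEuclidean p n →
          ∃ U : Set X, IsOpen U ∧ p ∈ U ∧ ∃ F : X → EuclideanSpace ℝ (Fin n), IsOpen (F '' U) ∧
            ∀ x ∈ U, ∀ z ∈ U, L⁻¹ * dist x z ≤ dist (F x) (F z) ∧ dist (F x) (F z) ≤ L * dist x z := by
  obtain ⟨L, η, R, δ, hL, hη, hR, hδ, h⟩ := R247.main_local.{u} n hn
  refine ⟨L, hL, fun K M _ _ _ _ _ _ _ _ _ _ q hK _ X _ _ p hconv hreg => ?_⟩
  obtain ⟨r₀, hr₀, hg⟩ := R247.ghc_eventually q p hconv hreg hR hη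
  obtain ⟨r, hr, hr₁, hr₂⟩ : ∃ r : ℝ, 0 < r ∧ r < r₀ ∧ max (-K) 0 * r ^ 2 ≤ η := by
    have h₁ : Filter.Tendsto (fun r : ℝ => max (-K) 0 * r ^ 2) (nhdsWithin 0 (Set.Ioi 0)) (nhds 0) := by
      have : Continuous fun r : ℝ => max (-K) 0 * r ^ 2 := by fun_prop
      simpa using (this.tendsto 0).mono_left nhdsWithin_le_nhds
    have h₂ : ∀ᶠ r : ℝ in nhdsWithin 0 (Set.Ioi 0), r < r₀ :=
      nhdsWithin_le_nhds (Iio_mem_nhds hr₀)
    obtain ⟨r, ⟨h₃, h₄⟩, h₅⟩ := (((h₁.eventually (Iic_mem_nhds hη)).and h₂).and self_mem_nhdsWithin).exists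
    exact ⟨r, h₅, h₄, h₃⟩
  refine R247.limit_chart q p hconv hL (mul_pos hδ hr) ((hg r hr hr₁).mono fun k hk => ?_)
  obtain ⟨hp, g, hgk⟩ := R247.exists_geo n K (M k) (hK k)
  obtain ⟨hs, rfl⟩ := R247.exists_HS g
  obtain ⟨F, hF⟩ := h ⟨M k, hs⟩ (q k) (pow_pos hr 2) (hgk ▸ hr₂) (by rwa [Real.sqrt_sq hr.le])
  rw [Real.sqrt_sq hr.le] at hF
  exact ⟨F, hF, fun x s hs' => R247.ball_subset_image hs.toGeo hL Metric.isOpen_ball hF hs'⟩

end Crest.Agent.S0381
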