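import Crest.Statements.S0392
import Crest.Agent.R254.NonEmbed
import Crest.Agent.R254.Doubling
import Crest.Agent.R254.Frame

set_option autoImplicit false
open Crest.GeometryTopology
universe u v
open Crest Crest.GeometryTopology

namespace Crest.Agent.S0392

/-- There is a universal constant `Λ` such that every infinite-dimensional real Banach space contains a compact subset that is doubling with constant at most `Λ` and admits no map into any finite-dimensional real normed space that is Lipschitz with a Lipschitz inverse on its image, whatever the two Lipschitz constants. Doubling is measured with closed balls centred at points of the subset. -/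
theorem result :
    ∃ Λ : ℕ, ∀ (B : Type u) [NormedAddCommGroup B] [NormedSpace ℝ B] [CompleteSpace B],
      ¬ FiniteDimensional ℝ B →
      ∃ K : Set B, IsCompact K ∧ DoublingConstLE K Λ ∧
        ∀ (Y : Type v) [NormedAddCommGroup Y] [NormedSpace ℝ Y] [FiniteDimensional ℝ Y]
          (f : K → Y) (c C : NNReal), ¬ (LipschitzWith C f ∧ AntilipschitzWith c f) := by
  classical
  refine ⟨2000000 * 2000000, fun B _ _ _ hB => ?_⟩
  obtain ⟨e1, e2, Yv, φ1, φ2, he1, he2, hY0, hY4, hY1, h1, h2, h11, h12, h21, h22, hY1', hY2'⟩ :=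
    R254.exists_frame hB
  have hdb := R254.doubling_SS e1 e2 he1 he2 Yv hY0 hY4 hY1 φ1 φ2 h1 h2 h11 h12 h21 h22 hY1' hY2'
  have htb := R254.totallyBounded_of_doubling hdb 0 (R254.zero_mem_SS e1 e2 Yv) _
    (R254.SS_bounded e1 e2 he1 he2 Yv hY0 hY4)
  refine ⟨closure (R254.SS e1 e2 Yv), htb.closure.isCompact_of_isClosed isClosed_closure,
    R254.doubling_closure hdb, ?_⟩
  rintro Y _ _ _ f c C ⟨hC, hc⟩
  let A := toEuclidean (E := Y)
  have hA1 := A.lipschitz.comp hC
  have hA2 := A.antilipschitz.comp hc
  let f' : B → EuclideanSpace ℝ (Fin (Module.finrank ℝ Y)) := fun x =>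
    if h : x ∈ closure (R254.SS e1 e2 Yv) then A (f ⟨x, h⟩) else 0
  have hres : (closure (R254.SS e1 e2 Yv)).domRestrict f' = A ∘ f := by
    ext1 x
    simp [f', x.2]
  have hf' :=
    lipschitzOnWith_iff_restrict.2 (hres ▸ hA1)
  obtain ⟨F, hF1, hF2⟩ := hf'.extend_finite_dimension
  obtain ⟨D, hD⟩ : ∃ D : NNReal, LipschitzWith D F := ⟨_, hF1⟩
  obtain ⟨c', hc'⟩ : ∃ c' : NNReal, AntilipschitzWith c' (A ∘ f) := ⟨_, hA2⟩
  refine R254.no_embed e1 e2 he1 he2 Yv hY0 hY4 hY1 F (D + 1) (by positivity) ?_ (c' + 1)
    (by positivity) ?_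
  · intro x y
    have := hD.dist_le_mul x y
    rw [dist_eq_norm, dist_eq_norm] at this
    nlinarith [norm_nonneg (x - y)]
  · intro P hP P' hP'
    have := hc'.le_mul_dist ⟨P, subset_closure hP⟩ ⟨P', subset_closure hP'⟩
    rw [← hres, Subtype.dist_eq] at this
    simp only [Set.domRestrict_apply] at this
    rw [hF2 (subset_closure hP), hF2 (subset_closure hP'), dist_eq_norm, dist_eq_norm] at this
    nlinarith [norm_nonneg (F P - F P')]

end Crest.Agent.S0392
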