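import Crest.Statements.S0396
import Crest.Agent.R258.Main

set_option autoImplicit false
open Crest.AlgGeometry.QuadricBundle
open Crest Crest.AlgGeometry Crest.AlgGeometry.QuadricBundle

namespace Crest.Agent.S0396

/-- There is a holomorphic vector bundle of rank two on `ℙ¹ × ℙ¹` (holomorphic transition matrices on the four standard affine charts) that is ample — for every `k`, all large symmetric powers `Sⁿ E ⊗ O(-k,-k)` are generated by global sections — yet has no smooth Hermitian metric with strictly Griffiths-positive Chern curvature, i.e. with `⟨Θ(ξ, ξ̄) v, v⟩ > 0` for all non-zero tangent `ξ` and fibre `v` (tested via the Levi form of the squared norm of holomorphic local sections through `v`). -/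
theorem result :
    ∃ g : Transition 2, IsHoloCocycle g ∧ IsAmple g ∧
      ∀ H : MetricData 2, IsHermitianMetric g H → ¬ IsGriffithsPositive H := by
  exact Crest.Agent.R258.main

end Crest.Agent.S0396
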