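import Crest.Statements.S0397
import Crest.Agent.R259.Main

set_option autoImplicit false
open Crest Crest.AlgGeometry

namespace Crest.Agent.S0397

/-- For every `r ≥ 10` there is a countable family of nonzero polynomial conditions on `r`-tuples of points of the complex affine plane, avoided by at least one tuple, such that at every tuple avoiding all of them the following holds: if a nonzero polynomial in two variables of total degree at most `d`, with `d ≥ 1`, vanishes to order at least `m i` at the `i`-th point for every `i`, then `∑ m i < d * √r`. -/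
theorem result (r : ℕ) (hr : 10 ≤ r) :
    ∃ S : Set (MvPolynomial (Fin r × Fin 2) ℂ),
      S.Countable ∧ (∀ g ∈ S, g ≠ 0) ∧
      (∃ p : Fin r → Fin 2 → ℂ, ∀ g ∈ S, MvPolynomial.eval (fun ij : Fin r × Fin 2 => p ij.1 ij.2) g ≠ 0) ∧
      ∀ p : Fin r → Fin 2 → ℂ, (∀ g ∈ S, MvPolynomial.eval (fun ij : Fin r × Fin 2 => p ij.1 ij.2) g ≠ 0) →
        ∀ (d : ℕ) (f : MvPolynomial (Fin 2) ℂ) (m : Fin r → ℕ),
          1 ≤ d → f ≠ 0 → f.totalDegree ≤ d →
          (∀ i, Crest.AlgGeometry.VanishesToOrder f (p i) (m i)) →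
          (∑ i, (m i : ℝ)) < (d : ℝ) * Real.sqrt (r : ℝ) := by
  obtain ⟨S, h1, h2, h3, h4⟩ := Crest.Agent.R259.generic_reduction
    (D := Polynomial Crest.Agent.R259.K) (Polynomial.C.comp HahnSeries.C) r
    (fun d m => 1 ≤ d ∧ (d : ℝ) * Real.sqrt r ≤ ∑ i, (m i : ℝ))
    (fun d m h => Crest.Agent.R259.good_tuple r hr d h.1 m h.2)
  refine ⟨S, h1, h2, h3, fun p hp d f m hd hf hfd hv => ?_⟩
  by_contra hlt
  exact h4 p hp d f m hf hfd hv ⟨hd, not_lt.1 hlt⟩

end Crest.Agent.S0397
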