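import Crest.Statements.S0402
import Crest.Agent.R264.Final

set_option autoImplicit false
open Topology Filter
open Crest Crest.AlgGeometry

namespace Crest.Agent.S0402

/-- Let U be a connected bounded semialgebraic subset of ℂ^N, open in a complex algebraic set, and Γ a group of permutations of U, each locally the restriction of a holomorphic map of ℂ^N, acting properly discontinuously with compact quotient. Then U is biholomorphic to a bounded symmetric domain: there are a bounded connected open D in some ℂ^m, each point of which is an isolated fixed point of a holomorphic involution of D (how such domains are encoded), and inverse holomorphic maps U → D → U. -/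
theorem result
    (N : ℕ) (V U : Set (Fin N → ℂ)) (hV : Crest.AlgGeometry.Semialg.IsAlgebraicSet V)
    (hUV : ∃ O : Set (Fin N → ℂ), IsOpen O ∧ U = O ∩ V)
    (hconn : IsConnected U) (hsa : Crest.AlgGeometry.Semialg.IsSemialgebraic U)
    (hbd : Bornology.IsBounded U) (Γ : Subgroup (Equiv.Perm U))
    (hΓ : ∀ γ ∈ Γ, Crest.AlgGeometry.Semialg.IsHolomorphicMap U (fun y : U => ((γ y : U) : Fin N → ℂ)))
    (hpd : ProperlyDiscontinuousSMul Γ U)
    (hcpt : CompactSpace (Quotient (MulAction.orbitRel Γ U))) :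
    ∃ (m : ℕ) (D : Set (Fin m → ℂ)), Crest.AlgGeometry.Semialg.IsBoundedSymmetricDomain D ∧
      ∃ (Ψ : U → (Fin m → ℂ)) (Θ : (Fin m → ℂ) → (Fin N → ℂ)),
        Crest.AlgGeometry.Semialg.IsHolomorphicMap U Ψ ∧ DifferentiableOn ℂ Θ D ∧
        (∀ y : U, Ψ y ∈ D ∧ Θ (Ψ y) = (y : Fin N → ℂ)) ∧
        (∀ z ∈ D, ∃ y : U, (y : Fin N → ℂ) = Θ z ∧ Ψ y = z) := by
  obtain ⟨O, hO, hU⟩ := hUV
  have hL := R264.sm_lat hV hO hU hconn Γ hΓ hpd hcpt
  obtain ⟨n, hn⟩ := R264.sm_mfd hV hO hU hconn hbd hL.coc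
  have hX := R264.sm_cm hV hO hU hconn hbd hL.coc hn
  obtain ⟨m, D, f, g, hD, hb⟩ := R264.main hX hL (R264.stInit hV hO hU hsa hX)
  refine ⟨m, D, hD, fun y => f y, g, ?_, hb.ag.differentiableOn, fun y => ⟨hb.mf y.2, hb.gf y y.2⟩,
    fun z hz => ⟨⟨g z, hb.mg hz⟩, rfl, hb.fg z hz⟩⟩
  intro x
  obtain ⟨k, hk, he⟩ := R264.anOn_iff.1 hb.af x x.2
  have h1 : ∀ᶠ y in 𝓝 (x : Fin N → ℂ), AnalyticAt ℂ k y ∧ (y ∈ U → f y = k y) :=
    hk.eventually_analyticAt.and (eventually_nhdsWithin_iff.1 he)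
  obtain ⟨W, hW, hWo, hxW⟩ := eventually_nhds_iff.1 h1
  exact ⟨W, hWo, hxW, k, fun y hy => (hW y hy).1.differentiableAt.differentiableWithinAt,
    fun y hy => (hW y hy).2 y.2⟩

end Crest.Agent.S0402
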