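import Crest.Statements.S0404
import Crest.Agent.R266.Main404

set_option autoImplicit false
open scoped Manifold ContDiff
open Crest.AlgGeometry.HolSplit
open Crest Crest.AlgGeometry

namespace Crest.Agent.S0404

/-- Let X be a compact connected complex n-manifold, n ≥ 2 (analytic atlas on ℂⁿ, Hausdorff, second countable), projective (injective holomorphic immersion into a projective space) and rationally connected (pairs of points outside a proper analytic subset of X × X lie on a rational curve). For every holomorphic splitting T_X = E₁ ⊕ E₂ into subbundles of positive rank, given by its projection onto E₁ along E₂, both summands are integrable: their local holomorphic sections are closed under bracket. -/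
theorem result
    (n : ℕ) (hn : 2 ≤ n) (X : Type) [TopologicalSpace X] [T2Space X] [SecondCountableTopology X]
    [CompactSpace X] [ConnectedSpace X] [ChartedSpace (Model n) X] [IsManifold (mI n) ω X]
    (hproj : IsProjective n X) (hrc : IsRationallyConnected n X) (S : Splitting n X) :
    S.FirstIntegrable ∧ S.SecondIntegrable := by
  exact Crest.Agent.R266.main404 n X hproj hrc S

end Crest.Agent.S0404
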