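import Crest.Statements.S0405
import Crest.Agent.R266.Main405

set_option autoImplicit false
open scoped Manifold ContDiff
open Crest.AlgGeometry.HolSplit
open Crest Crest.AlgGeometry

namespace Crest.Agent.S0405

/-- Let X be a compact connected complex n-manifold, n ≥ 2, with a Kähler metric (chartwise: Hermitian, smooth, closed Kähler form) and a holomorphic splitting T_X = E₁ ⊕ E₂ into integrable subbundles of positive rank. Every holomorphic covering of X by a connected simply connected complex manifold X' is biholomorphic to a product Y₁ × Y₂ of connected simply connected complex manifolds, the differential sending the lift of E₁ into the Y₁-directions and that of E₂ into the Y₂-directions. -/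
theorem result
    (n : ℕ) (hn : 2 ≤ n) (X : Type) [TopologicalSpace X] [T2Space X] [SecondCountableTopology X]
    [CompactSpace X] [ConnectedSpace X] [ChartedSpace (Model n) X] [IsManifold (mI n) ω X]
    (hK : Nonempty (KahlerMetric n X)) (S : Splitting n X)
    (h₁ : S.FirstIntegrable) (h₂ : S.SecondIntegrable)
    (X' : Type) [TopologicalSpace X'] [T2Space X'] [SecondCountableTopology X']
    [ConnectedSpace X'] [SimplyConnectedSpace X'] [ChartedSpace (Model n) X']
    [IsManifold (mI n) ω X'] (π : X' → X) (hcov : IsCoveringMap π)
    (hπ : ContMDiff (mI n) (mI n) ω π)
    (hdπ : ∀ p : X', Function.Bijective (mfderiv (mI n) (mI n) π p)) :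
    HasCompatibleProductCover S X' π := by
  exact Crest.Agent.R266.main405 n X hK S h₁ h₂ X' π hcov hπ hdπ

end Crest.Agent.S0405
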