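import Crest.Statements.S0409
import Crest.Agent.R268.Cusp

set_option autoImplicit false
open Crest Crest.AlgGeometry

namespace Crest.Agent.S0409

open Crest.Agent.R268

/-- There is a polynomial F in four variables over the complex numbers with all of the following properties: the quotient of ℂ[x₀,x₁,x₂,x₃] by the ideal generated by F is isomorphic as a ℂ-algebra to a polynomial ring in three variables; all four partial derivatives of F vanish at some point of ℂ⁴; and no ℂ-algebra automorphism of ℂ[x₀,x₁,x₂,x₃] sends F to x₀. -/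
theorem result :
    ∃ F : MvPolynomial (Fin 4) ℂ,
      Nonempty ((MvPolynomial (Fin 4) ℂ ⧸ Ideal.span {F}) ≃ₐ[ℂ] MvPolynomial (Fin 3) ℂ) ∧
      (∃ p : Fin 4 → ℂ, ∀ i : Fin 4, MvPolynomial.eval p (MvPolynomial.pderiv i F) = 0) ∧
      ¬ ∃ τ : MvPolynomial (Fin 4) ℂ ≃ₐ[ℂ] MvPolynomial (Fin 4) ℂ, τ F = MvPolynomial.X 0 := by
  set v : Fin 4 → MvPolynomial (Fin 4) ℂ := MvPolynomial.X with hv
  have hcrit : ∀ D : Derivation ℂ (MvPolynomial (Fin 4) ℂ) (MvPolynomial (Fin 4) ℂ),
      MvPolynomial.eval crit (D (pT v - 1)) = 0 := by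
    intro D
    rw [map_sub, D.map_one_eq_zero, sub_zero]
    exact deriv_pT_crit D v _ (fun i => by simp [hv])
  refine ⟨pT v - 1, ?_, ⟨crit, fun i => hcrit _⟩, ?_⟩
  · obtain ⟨p, hT, hX, hY, hS⟩ := exists_point (A := MvPolynomial (Fin 3) ℂ) 1 1
      (MvPolynomial.X 0) (MvPolynomial.X 1) (MvPolynomial.X 2) (one_mul 1)
      MvPolynomial.constantCoeff (by simp) (by simp)
    set I : Ideal (MvPolynomial (Fin 4) ℂ) := Ideal.span {pT v - 1} with hI
    let φ₀ : MvPolynomial (Fin 4) ℂ →ₐ[ℂ] MvPolynomial (Fin 3) ℂ := MvPolynomial.aeval p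
    have hφv : (fun i => φ₀ (v i)) = p := by funext i; simp [φ₀, hv]
    let φ : (MvPolynomial (Fin 4) ℂ ⧸ I) →ₐ[ℂ] MvPolynomial (Fin 3) ℂ :=
      Ideal.Quotient.liftₐ I φ₀ (by
        intro a ha
        obtain ⟨b, rfl⟩ := Ideal.mem_span_singleton.1 ha
        rw [map_mul, map_sub, map_pT, hφv, hT, map_one, sub_self, zero_mul])
    let ψ : MvPolynomial (Fin 3) ℂ →ₐ[ℂ] (MvPolynomial (Fin 4) ℂ ⧸ I) :=
      (Ideal.Quotient.mkₐ ℂ I).comp (MvPolynomial.aeval ![pX v, pY v, pS v])
    have hφψ : φ.comp ψ = AlgHom.id ℂ _ := by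
      apply MvPolynomial.algHom_ext
      intro i
      have e : ∀ a, φ (Ideal.Quotient.mk I a) = φ₀ a := fun a => rfl
      fin_cases i
      · simp [ψ, e, map_pX, hφv, hX]
      · simp [ψ, e, map_pY, hφv, hY]
      · simp [ψ, e, map_pS, hφv, hS]
    have hinj : Function.Injective ψ :=
      Function.LeftInverse.injective (g := φ) fun a => DFunLike.congr_fun hφψ a
    have hsurj : Function.Surjective ψ := by
      have hT1 : Ideal.Quotient.mkₐ ℂ I (pT v) = 1 := by
        rw [← map_one (Ideal.Quotient.mkₐ ℂ I)]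
        exact Ideal.Quotient.eq.2 (Ideal.mem_span_singleton_self _)
      have hM := mem_of_saturated v (MvPolynomial.X_ne_zero 0)
        (ψ.range.comap (Ideal.Quotient.mkₐ ℂ I))
        (by rw [Subalgebra.mem_comap, hT1]; exact one_mem _)
        ⟨MvPolynomial.X 0, by simp [ψ]⟩ ⟨MvPolynomial.X 1, by simp [ψ]⟩
        ⟨MvPolynomial.X 2, by simp [ψ]⟩
        (fun r hr => by rwa [Subalgebra.mem_comap, map_mul, hT1, one_mul] at hr)
      have htop : (⊤ : Subalgebra ℂ (MvPolynomial (Fin 4) ℂ)) ≤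
          ψ.range.comap (Ideal.Quotient.mkₐ ℂ I) := by
        rw [← MvPolynomial.adjoin_range_X, Algebra.adjoin_le_iff]
        rintro _ ⟨i, rfl⟩
        exact hM i
      intro a
      obtain ⟨b, rfl⟩ := Ideal.Quotient.mk_surjective a
      exact htop (Algebra.mem_top (x := b))
    exact ⟨(AlgEquiv.ofBijective ψ ⟨hinj, hsurj⟩).symm⟩
  · rintro ⟨τ, hτ⟩
    have h := hcrit (conj τ (MvPolynomial.pderiv 0))
    rw [conj_apply, hτ, MvPolynomial.pderiv_X_self, map_one, map_one] at h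
    exact one_ne_zero h

end Crest.Agent.S0409
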