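import Crest.Statements.S0410
import Crest.Agent.R268.Cusp
import Crest.Agent.R268.Commuting

set_option autoImplicit false
open Crest Crest.AlgGeometry

namespace Crest.Agent.S0410

open Crest.Agent.R268

/-- There is a polynomial F over ℂ in the variables x₀,…,x₃ such that, for every m, the ring A = ℂ[x₀,…,x₃₊ₘ] has a family of 3 + m derivations over ℂ, ending with the partial derivatives in x₄,…,x₃₊ₘ, such that: any two members commute; each member kills every element of A after some number of iterations; the family is linearly independent over A; the elements killed by all members form exactly the ℂ-subalgebra generated by F; and no such element is sent to x₀ by a ℂ-algebra automorphism of A. -/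
theorem result :
    ∃ F : MvPolynomial (Fin 4) ℂ, ∀ m : ℕ,
      ∃ D : Fin 3 ⊕ Fin m →
          Derivation ℂ (MvPolynomial (Fin (4 + m)) ℂ) (MvPolynomial (Fin (4 + m)) ℂ),
        (∀ i : Fin m, D (Sum.inr i) = MvPolynomial.pderiv (Fin.natAdd 4 i)) ∧
        (∀ a b : Fin 3 ⊕ Fin m, ∀ p : MvPolynomial (Fin (4 + m)) ℂ, D a (D b p) = D b (D a p)) ∧
        (∀ a : Fin 3 ⊕ Fin m, ∀ p : MvPolynomial (Fin (4 + m)) ℂ, ∃ k : ℕ, (D a)^[k] p = 0) ∧
        LinearIndependent (MvPolynomial (Fin (4 + m)) ℂ) D ∧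
        (∀ p : MvPolynomial (Fin (4 + m)) ℂ, (∀ a : Fin 3 ⊕ Fin m, D a p = 0) ↔
          p ∈ Algebra.adjoin ℂ {MvPolynomial.rename (Fin.castAdd m) F}) ∧
        ∀ g : MvPolynomial (Fin (4 + m)) ℂ, (∀ a : Fin 3 ⊕ Fin m, D a g = 0) →
          ¬ ∃ τ : MvPolynomial (Fin (4 + m)) ℂ ≃ₐ[ℂ] MvPolynomial (Fin (4 + m)) ℂ,
            τ g = MvPolynomial.X (Fin.castAdd m 0) := by
  refine ⟨pT MvPolynomial.X, fun m => ?_⟩
  classical
  set v : Fin 4 → MvPolynomial (Fin (4 + m)) ℂ := fun i => MvPolynomial.X (Fin.castAdd m i)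
    with hv
  have htF : MvPolynomial.rename (Fin.castAdd m) (pT (MvPolynomial.X : Fin 4 → MvPolynomial _ ℂ))
      = pT v := by
    rw [map_pT]
    simp [hv]
  rw [htF]
  obtain ⟨p, hT, hX, hY, hS⟩ := exists_point (A := MvPolynomial (Fin 3) (RatFunc ℂ))
    (MvPolynomial.C RatFunc.X) (MvPolynomial.C RatFunc.X⁻¹)
    (MvPolynomial.X 0) (MvPolynomial.X 1) (MvPolynomial.X 2)
    (by rw [← map_mul, mul_inv_cancel₀ RatFunc.X_ne_zero, map_one])
    MvPolynomial.constantCoeff (by simp) (by simp)
  let φ : MvPolynomial (Fin (4 + m)) ℂ →ₐ[ℂ] MvPolynomial (Fin 3 ⊕ Fin m) (RatFunc ℂ) :=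
    MvPolynomial.aeval (Fin.addCases (fun i => MvPolynomial.rename Sum.inl (p i))
      (fun i => MvPolynomial.X (Sum.inr i)))
  have hφv : ∀ i, φ (v i) = MvPolynomial.rename Sum.inl (p i) := by
    intro i
    simp [φ, hv]
  have hφn : ∀ i, φ (MvPolynomial.X (Fin.natAdd 4 i)) = MvPolynomial.X (Sum.inr i) := by
    intro i
    simp [φ]
  let g : Fin 3 ⊕ Fin m → MvPolynomial (Fin (4 + m)) ℂ :=
    Sum.elim ![pX v, pY v, pS v] (fun i => MvPolynomial.X (Fin.natAdd 4 i))
  have ht : φ (pT v) = MvPolynomial.C RatFunc.X := by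
    rw [map_pT]
    simp only [hφv]
    rw [← map_pT, hT, MvPolynomial.rename_C]
  have hg : ∀ a, φ (g a) = MvPolynomial.X a := by
    rintro (a | a)
    · fin_cases a
      · change φ (pX v) = _
        rw [map_pX]
        simp only [hφv]
        rw [← map_pX, hX, MvPolynomial.rename_X]
        rfl
      · change φ (pY v) = _
        rw [map_pY]
        simp only [hφv]
        rw [← map_pY, hY, MvPolynomial.rename_X]
        rfl
      · change φ (pS v) = _
        rw [map_pS]
        simp only [hφv]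
        rw [← map_pS, hS, MvPolynomial.rename_X]
        rfl
    · exact hφn a
  have hsat : ∀ r, r ∈ satAlg (pT v) g := by
    have hM := mem_of_saturated v (MvPolynomial.X_ne_zero _) (satAlg (pT v) g)
      (t_mem_satAlg _ _) (g_mem_satAlg _ g (Sum.inl 0)) (g_mem_satAlg _ g (Sum.inl 1))
      (g_mem_satAlg _ g (Sum.inl 2)) (satAlg_sat _ _)
    have htop : (⊤ : Subalgebra ℂ (MvPolynomial (Fin (4 + m)) ℂ)) ≤ satAlg (pT v) g := by
      rw [← MvPolynomial.adjoin_range_X, Algebra.adjoin_le_iff]
      rintro _ ⟨i, rfl⟩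
      refine Fin.addCases (fun i => ?_) (fun i => ?_) i
      · exact hM i
      · exact g_mem_satAlg _ g (Sum.inr i)
    exact fun r => htop Algebra.mem_top
  let ev : MvPolynomial (Fin (4 + m)) ℂ →ₐ[ℂ] ℂ :=
    MvPolynomial.aeval (Fin.addCases crit (fun _ => 0))
  have hevv : ∀ i, ev (v i) = crit i := by
    intro i
    simp [ev, hv]
  have hev : ev (pT v) = 0 := by
    rw [map_pT]
    simp only [hevv]
    exact crit_pT
  choose D c hc hD using fun a : Fin 3 => exists_lift φ ht hg hsat (Sum.inl a)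
  have hren : ∀ (i : Fin m) (q : MvPolynomial (Fin 3) (RatFunc ℂ)),
      MvPolynomial.pderiv (Sum.inr i : Fin 3 ⊕ Fin m) (MvPolynomial.rename Sum.inl q) = 0 := by
    intro i q
    induction q using MvPolynomial.induction_on with
    | C a => simp
    | add p q hp hq => simp [hp, hq]
    | mul_X p j hp => simp [hp]
  have hpd : ∀ (i : Fin m) (r : MvPolynomial (Fin (4 + m)) ℂ),
      φ (MvPolynomial.pderiv (Fin.natAdd 4 i) r) = MvPolynomial.pderiv (Sum.inr i) (φ r) := by
    intro i r
    have := intertwine (k' := RatFunc ℂ) 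
      (φ : MvPolynomial (Fin (4 + m)) ℂ →+* MvPolynomial (Fin 3 ⊕ Fin m) (RatFunc ℂ))
      (MvPolynomial.pderiv (Fin.natAdd 4 i)) (MvPolynomial.pderiv (Sum.inr i)) 1
      (fun z => ?_) (fun j => ?_) r
    · simpa using this
    · have : φ (MvPolynomial.C z) = MvPolynomial.C (algebraMap ℂ (RatFunc ℂ) z) := φ.commutes z
      simp [this]
    · rw [one_mul]
      change φ _ = MvPolynomial.pderiv _ (φ _)
      refine Fin.addCases (fun j => ?_) (fun j => ?_) j
      · have hne : Fin.castAdd m j ≠ Fin.natAdd 4 i := by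
          intro h
          have := congrArg Fin.val h
          simp only [Fin.val_castAdd, Fin.val_natAdd] at this
          omega
        rw [MvPolynomial.pderiv_X_of_ne hne, map_zero]
        change 0 = MvPolynomial.pderiv _ (φ (v j))
        rw [hφv, hren]
      · rw [hφn]
        by_cases hji : j = i
        · subst hji
          simp
        · rw [MvPolynomial.pderiv_X_of_ne (by simpa using hji),
            MvPolynomial.pderiv_X_of_ne (by simpa using hji), map_zero]
  obtain ⟨h1, h2, h3, h4⟩ := commuting_family φ ht hg hsat ev hev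
    (Sum.elim D fun i => MvPolynomial.pderiv (Fin.natAdd 4 i)) (Sum.elim c fun _ => 1)
    (by rintro (a | a); exacts [hc a, one_ne_zero])
    (by
      rintro (a | a) r
      · exact hD a r
      · simpa using hpd a r)
  refine ⟨_, fun i => rfl, h1, h2, h3, h4, ?_⟩
  rintro q hq ⟨τ, hτ⟩
  rw [h4, Algebra.adjoin_singleton_eq_range_aeval] at hq
  obtain ⟨G, rfl⟩ := hq
  have h5 := deriv_pT_crit (conj τ (MvPolynomial.pderiv (Fin.castAdd m 0))) v
    (ev : MvPolynomial (Fin (4 + m)) ℂ →+* ℂ) hevv
  have h6 : conj τ (MvPolynomial.pderiv (Fin.castAdd m 0)) (Polynomial.aeval (pT v) G) = 1 := by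
    rw [conj_apply]
    change τ.symm (MvPolynomial.pderiv _ (τ ((Polynomial.aeval (pT v)).toRingHom G))) = 1
    rw [hτ, MvPolynomial.pderiv_X_self, map_one]
  rw [Derivation.map_aeval, smul_eq_mul] at h6
  have h7 := congrArg (ev : MvPolynomial (Fin (4 + m)) ℂ →+* ℂ) h6
  rw [map_mul, h5, mul_zero, map_one] at h7
  exact zero_ne_one h7

end Crest.Agent.S0410
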