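import Crest.Statements.S0423
import Crest.Agent.R280.Final

set_option autoImplicit false
open Crest Crest.AlgGeometry

namespace Crest.Agent.S0423

/-- For independent mean-one exponential random variables `X_1, …, X_N` (written as an integral over the positive orthant against the density `exp (-(x_1 + ⋯ + x_N))`), real coefficients `a_1, …, a_N` summing to zero, and the weight `g = truncExpWeight`, the quantity `(e^{4/3} / (4/3)) · E[g(4/3 + a_1 X_1 + ⋯ + a_N X_N)]` has supremum over all `N ≥ 1` and all such `a` exactly `(3/4) e^{4/3} − e/3`: it never exceeds this value, and comes within any `ε > 0` of it for some `N` and `a`. -/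
theorem result :
    (∀ (N : ℕ) (a : Fin N → ℝ), 1 ≤ N → ∑ i, a i = 0 →
      Real.exp (4 / 3) / (4 / 3) *
          ∫ x in Set.pi Set.univ (fun _ : Fin N => Set.Ioi (0 : ℝ)),
            Crest.AlgGeometry.truncExpWeight (4 / 3 + ∑ i, a i * x i) * Real.exp (-∑ i, x i)
        ≤ 3 / 4 * Real.exp (4 / 3) - Real.exp 1 / 3) ∧
    (∀ ε : ℝ, 0 < ε → ∃ (N : ℕ) (a : Fin N → ℝ), 1 ≤ N ∧ ∑ i, a i = 0 ∧
      3 / 4 * Real.exp (4 / 3) - Real.exp 1 / 3 - ε <
        Real.exp (4 / 3) / (4 / 3) *
          ∫ x in Set.pi Set.univ (fun _ : Fin N => Set.Ioi (0 : ℝ)),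
            Crest.AlgGeometry.truncExpWeight (4 / 3 + ∑ i, a i * x i) * Real.exp (-∑ i, x i)) := by
  have hc : 0 < Real.exp (4 / 3) / (4 / 3) := by positivity
  constructor
  · intro N a hN ha
    obtain ⟨n, rfl⟩ : ∃ n, N = n + 1 := ⟨N - 1, by omega⟩
    rw [R280.bridge (n + 1)
      (fun x => Crest.AlgGeometry.truncExpWeight (4 / 3 + ∑ i, a i * x i)), ← R280.final_const]
    exact mul_le_mul_of_nonneg_left (R280.upper n a ha) hc.le
  · intro ε hε
    have h1 := R280.tendsto_lower.const_mul (Real.exp (4 / 3) / (4 / 3))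
    rw [R280.final_const] at h1
    obtain ⟨n, hn1, hn2⟩ := ((h1.eventually (lt_mem_nhds (sub_lt_self _ hε))).and
      (Filter.eventually_gt_atTop 0)).exists
    refine ⟨n + 1, R280.coef n, by omega, R280.sum_coef hn2, ?_⟩
    rw [R280.bridge (n + 1)
      (fun x => Crest.AlgGeometry.truncExpWeight (4 / 3 + ∑ i, R280.coef n i * x i))]
    exact hn1.trans_le (mul_le_mul_of_nonneg_left (R280.lower n) hc.le)

end Crest.Agent.S0423
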