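import Crest.Statements.S0432
import Crest.Agent.R287.Main
import Crest.Agent.R287.PT2

set_option autoImplicit false
open Crest.Enc
open Crest Crest.LogicCS

namespace Crest.Agent.S0432

/-- Strings are finite lists of natural-number symbols; a family of strings is coded by the number of its members followed by the self-delimiting codes of the members. There is a polynomial-time map on bit strings sending the code of every finite family to the code of a string that contains each member as a contiguous substring and is at most twice as long as any string with that property. -/
theorem result :
    ∃ f : List Bool → List Bool, Crest.Complexity.PolyTime f ∧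
      ∀ S : List (List ℕ), ∃ T : List ℕ,
        f (natCode S.length ++ (S.map listCode).flatten) = listCode T ∧
        (∀ s ∈ S, s <:+: T) ∧
        ∀ T' : List ℕ, (∀ s ∈ S, s <:+: T') → T.length ≤ 2 * T'.length := by
  obtain ⟨dec, hdec, hd⟩ := Crest.Agent.Lib.PolyTime.exists_listList_decoder
  refine ⟨fun w => listCode (R287.scs (dec w)),
    Crest.Agent.Lib.PolyTime.PT.polyTime
      (Crest.Agent.Lib.PolyTime.PT.listCode (R287.pt_scs.comp hdec)),
    fun S => ⟨R287.scs S, by simp only [hd], R287.scs_spec S⟩⟩

end Crest.Agent.S0432
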