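import Crest.Statements.S0439
import Crest.Agent.R290.Lower

set_option autoImplicit false
open Crest Crest.LogicCS

namespace Crest.Agent.S0439

/-- For some absolute c > 0 and k₀, every k ≥ k₀ and every word-length constant c₀, in the joint and the separate convention alike: if a word-RAM program with words of c₀·⌈log₂(n+2)⌉ bits, started on the codes of two simple connected graphs of diameter at most two on n vertices written one bit per memory word, is halted after T(n) steps on every such pair and every random stream with output [1] exactly when the two graphs are k-dimensionally equivalent, then T(n) ≥ n^(c·k) for all large n. -/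
theorem result :
    ∃ c : ℝ, 0 < c ∧ ∃ k₀ : ℕ, ∀ k ≥ k₀, ∀ c₀ : ℕ,
      (∀ (P : Crest.WordRAM.Program) (T : ℕ → ℕ),
        (∀ (n : ℕ) (G H : Fin n → Fin n → Bool), Crest.WLRefine.SimpleConnDiamTwo G →
          Crest.WLRefine.SimpleConnDiamTwo H → ∀ ρ : ℕ → ℕ,
            (Crest.WordRAM.run P (c₀ * Nat.clog 2 (n + 2)) ρ (((Crest.WLRefine.adjMatrixCode G ++ Crest.WLRefine.adjMatrixCode H).map fun b => if b then 1 else 0)) (T n)).halted = true ∧
            ((Crest.WordRAM.run P (c₀ * Nat.clog 2 (n + 2)) ρ (((Crest.WLRefine.adjMatrixCode G ++ Crest.WLRefine.adjMatrixCode H).map fun b => if b then 1 else 0)) (T n)).output = [1] ↔ Crest.WLRefine.JEquiv k G H)) →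
        ∃ n₀ : ℕ, ∀ n ≥ n₀, (n : ℝ) ^ (c * k) ≤ T n) ∧
      (∀ (P : Crest.WordRAM.Program) (T : ℕ → ℕ),
        (∀ (n : ℕ) (G H : Fin n → Fin n → Bool), Crest.WLRefine.SimpleConnDiamTwo G →
          Crest.WLRefine.SimpleConnDiamTwo H → ∀ ρ : ℕ → ℕ,
            (Crest.WordRAM.run P (c₀ * Nat.clog 2 (n + 2)) ρ (((Crest.WLRefine.adjMatrixCode G ++ Crest.WLRefine.adjMatrixCode H).map fun b => if b then 1 else 0)) (T n)).halted = true ∧
            ((Crest.WordRAM.run P (c₀ * Nat.clog 2 (n + 2)) ρ (((Crest.WLRefine.adjMatrixCode G ++ Crest.WLRefine.adjMatrixCode H).map fun b => if b then 1 else 0)) (T n)).output = [1] ↔ Crest.WLRefine.SEquiv k G H)) →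
        ∃ n₀ : ℕ, ∀ n ≥ n₀, (n : ℝ) ^ (c * k) ≤ T n) := by
  exact R290.lower_ram

end Crest.Agent.S0439
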