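import Crest.Statements.S0441
import Crest.Agent.R292.Main

set_option autoImplicit false
open Crest.LogicCS.Degrees
open Crest Crest.LogicCS

namespace Crest.Agent.S0441

/-- Every order automorphism of the partially ordered set of Turing degrees of sets of natural numbers is the identity. The degrees of sets are taken inside the library's degree structure of partial functions, as the classes of characteristic functions, with the induced order. -/
theorem result (π : SetDegree ≃o SetDegree) : π = OrderIso.refl SetDegree := by
  exact Crest.Agent.R292.rigid π

end Crest.Agent.S0441
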