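import Crest.Statements.S0452
import Crest.Agent.R298.Main

set_option autoImplicit false
open Crest.LogicCS.PTS Crest.LogicCS.PTS.Term
open Crest Crest.LogicCS

namespace Crest.Agent.S0452

/-- For every pure type system — any type of sorts with arbitrary axiom and product-rule relations — if every expression that is legal in some context (the subject or the type of a derivable typing judgment there) is weakly beta-normalizing, then every such expression is strongly beta-normalizing: no infinite sequence of beta steps starts from it. Expressions carry de Bruijn indices and beta steps are allowed in every position, annotations and domains included. -/
theorem result (S : Type*) (P : Spec S) (h : ∀ (Γ : List (Term S)) (M : Term S), Legal P Γ M → WN M) (Γ : List (Term S)) (M : Term S) (hM : Legal P Γ M) : SN M := by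
  exact Crest.Agent.R298.stmt_of_main Crest.Agent.R298.mainFin P h Γ M hM

end Crest.Agent.S0452
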