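import Crest.Statements.S0453
import Crest.Agent.R299.Ker
import Crest.Agent.R299.Mix

set_option autoImplicit false
open Finset
open Crest Crest.LogicCS

namespace Crest.Agent.S0453

/-- For every n ≥ 4 and every labeled degree vector on n vertices with a simple realization: the lazy switch chain (hold with probability 1/2, else take a uniform four-vertex set and a uniform ordered pair of distinct perfect matchings on it, swapping the first for the second when the first is present and the second absent) is, from every realization, within total variation 1/4 of uniform on the realizations after some t ≤ 2n^8 steps; and Var(f) ≤ 24 n² C(n,4) ⟨f, (I − P) f⟩ for the uniform law. -/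
theorem result (n : ℕ) (hn : 4 ≤ n)
    (d : Fin n → ℕ) (hd : (Crest.SwitchChain.realizations d).Nonempty) :
    (∃ t : ℕ, t ≤ 2 * n ^ 8 ∧ ∀ G ∈ Crest.SwitchChain.realizations d,
        Crest.SwitchChain.tvDist (fun G' => (Crest.SwitchChain.kernel n ^ t) G G')
          (Crest.SwitchChain.unifOn (Crest.SwitchChain.realizations d)) ≤ 1 / 4) ∧
      ∀ f : Finset (Crest.SwitchChain.Edge n) → ℝ,
        ((Crest.SwitchChain.realizations d).card : ℝ) *
              (∑ G ∈ Crest.SwitchChain.realizations d, f G ^ 2) -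
            (∑ G ∈ Crest.SwitchChain.realizations d, f G) ^ 2 ≤
          24 * (n : ℝ) ^ 2 * (n.choose 4 : ℝ) * (Crest.SwitchChain.realizations d).card *
            ∑ G ∈ Crest.SwitchChain.realizations d,
              f G * (f G - ∑ G' ∈ Crest.SwitchChain.realizations d,
                Crest.SwitchChain.kernel n G G' * f G') := by
  have hC : (1 : ℝ) ≤ n.choose 4 := by exact_mod_cast Nat.choose_pos hn
  have hn' : (4 : ℝ) ≤ n := by exact_mod_cast hn
  set Ω := Crest.SwitchChain.realizations d with hΩ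
  set Q : Finset (Crest.SwitchChain.Edge n) → Finset (Crest.SwitchChain.Edge n) → ℝ :=
    fun E E' => (Crest.SwitchChain.proposalCount E E' : ℝ) / (6 * n.choose 4) with hQ
  have hK : ∀ x y, Crest.SwitchChain.kernel n x y = (if x = y then 1 / 2 else 0) + Q x y / 2 := by
    intro x y
    simp only [Crest.SwitchChain.kernel, hQ]
    congr 1
    field_simp
    ring
  have h0 : ∀ x y, 0 ≤ Q x y := fun x y => by simp only [hQ]; positivity
  have hs : ∀ x y, Q x y = Q y x := fun x y => by simp only [hQ, R299.pc_symm x y]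
  have h1 : ∀ x ∈ Ω, ∑ y ∈ Ω, Q x y = 1 := by
    intro x hx
    simp only [hQ]
    rw [← Finset.sum_div, ← Nat.cast_sum, R299.pc_sum hx]
    push_cast
    field_simp
  have h2 : ∀ x ∈ Ω, ∀ y, y ∉ Ω → Q x y = 0 := by
    intro x hx y hy
    simp [hQ, R299.pc_zero hx hy]
  have hP : ∀ f : Finset (Crest.SwitchChain.Edge n) → ℝ,
      (Ω.card : ℝ) * (∑ G ∈ Ω, f G ^ 2) - (∑ G ∈ Ω, f G) ^ 2 ≤
        24 * (n : ℝ) ^ 2 * (n.choose 4 : ℝ) * Ω.card *
          ∑ G ∈ Ω, f G * (f G - ∑ G' ∈ Ω, Crest.SwitchChain.kernel n G G' * f G') := by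
    intro f
    have a := R299.poincare_pc (d := d) f
    rw [R299.dirichlet hK hs h1 f]
    have e : ∑ x ∈ Ω, ∑ y ∈ Ω, Q x y * (f x - f y) ^ 2 = (∑ G ∈ Ω, ∑ G' ∈ Ω,
        (Crest.SwitchChain.proposalCount G G' : ℝ) * (f G - f G') ^ 2) / (6 * n.choose 4) := by
      simp only [hQ, Finset.sum_div]
      exact Finset.sum_congr rfl fun _ _ => Finset.sum_congr rfl fun _ _ => by ring
    rw [e]
    have b : 0 ≤ ∑ G ∈ Ω, ∑ G' ∈ Ω,
        (Crest.SwitchChain.proposalCount G G' : ℝ) * (f G - f G') ^ 2 :=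
      Finset.sum_nonneg fun _ _ => Finset.sum_nonneg fun _ _ => by positivity
    rw [← hΩ] at a
    generalize ∑ G ∈ Ω, ∑ G' ∈ Ω,
        (Crest.SwitchChain.proposalCount G G' : ℝ) * (f G - f G') ^ 2 = D at a b ⊢
    have : 24 * (n : ℝ) ^ 2 * (n.choose 4 : ℝ) * Ω.card * (D / (6 * n.choose 4) / 4) =
        n ^ 2 * Ω.card * D := by field_simp; ring
    rw [this]
    have : 0 ≤ (n : ℝ) ^ 2 * Ω.card * D := by positivity
    linarith
  refine ⟨⟨2 * n ^ 8, le_rfl, fun G hG => ?_⟩, hP⟩
  have hc : 1 ≤ 24 * (n : ℝ) ^ 2 * (n.choose 4 : ℝ) := by nlinarith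
  have hc' : 24 * (n : ℝ) ^ 2 * (n.choose 4 : ℝ) ≤ (n : ℝ) ^ 6 := by
    have := Nat.choose_le_pow_div (α := ℝ) 4 n
    rw [le_div_iff₀ (by positivity)] at this
    simp only [Nat.factorial] at this
    push_cast at this
    nlinarith [mul_le_mul_of_nonneg_left this (sq_nonneg (n : ℝ))]
  have hN : (Ω.card : ℝ) ≤ 2 ^ (n ^ 2) := by
    have a : Ω.card ≤ 2 ^ (n ^ 2) := by
      refine (Finset.card_le_univ _).trans ?_
      rw [Fintype.card_finset]
      refine Nat.pow_le_pow_right (by norm_num) ?_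
      have := Sym2.card_subtype_not_diag (α := Fin n)
      rw [Fintype.card_fin] at this
      exact (le_of_eq (by convert this)).trans (Nat.choose_le_pow n 2)
    exact_mod_cast a
  obtain ⟨a, -, b⟩ := R299.mixing hK h0 hs h1 h2 hc hP hG (2 * n ^ 8)
  have c := R299.numeric hn hc hc' hN
  unfold Crest.SwitchChain.tvDist
  rw [← Finset.sum_subset (Finset.subset_univ Ω) fun y _ hy => by
    simp [a y hy, Crest.SwitchChain.unifOn, hy], Finset.sum_congr rfl
      (g := fun y => |(Crest.SwitchChain.kernel n ^ (2 * n ^ 8)) G y - 1 / Ω.card|) fun y hy => by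
        simp only [Crest.SwitchChain.unifOn, if_pos hy]]
  have cs := sq_sum_le_card_mul_sum_sq (s := Ω)
    (f := fun y => |(Crest.SwitchChain.kernel n ^ (2 * n ^ 8)) G y - 1 / Ω.card|)
  simp only [sq_abs] at cs
  have e := cs.trans ((mul_le_mul_of_nonneg_left b (Nat.cast_nonneg _)).trans c)
  rw [div_le_iff₀ (by norm_num)]
  exact (abs_le_of_sq_le_sq' (e.trans (by norm_num)) (by norm_num)).2

end Crest.Agent.S0453
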