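import Crest.Statements.S0480
import Crest.Agent.R309.Fin80

set_option autoImplicit false
open Crest.Enc Crest.FinProb Crest.Randomized Crest.Tables
open Crest Crest.LogicCS

namespace Crest.Agent.S0480

/-- An almost-uniform sampler for contingency tables in randomized polynomial time: one algorithm and one polynomial r such that, on the code of margins with equal totals followed by a unary block of length k ≥ 1, run with r(input length) fair random bits, every tape yields the code of a table with those margins, and half the sum over matrices of the absolute difference between the probability of being output and the uniform weight on such tables is at most 2^(−k). -/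
theorem result :
    ∃ (A : List Bool × List Bool → List Bool) (r : Polynomial ℕ), RandPolyTime A ∧
      ∀ (m n : ℕ) (rs : Fin m → ℕ) (cs : Fin n → ℕ) (k : ℕ), 1 ≤ k → ∑ i, rs i = ∑ j, cs j →
        (∀ ω : Fin (r.eval (marginsCode rs cs ++ List.replicate k true).length) → Bool,
          ∃ X : Fin m → Fin n → ℕ, IsTable rs cs X ∧
            A (marginsCode rs cs ++ List.replicate k true, List.ofFn ω) = matrixCode X) ∧
        (∑ X : (i : Fin m) → (j : Fin n) → Fin (∑ i, rs i + 1),
            |uniformProb {ω : Fin (r.eval (marginsCode rs cs ++ List.replicate k true).length) → Bool |
                A (marginsCode rs cs ++ List.replicate k true, List.ofFn ω) =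
                  matrixCode (fun i j => (X i j : ℕ))} -
              uniformTableWeight rs cs (fun i j => (X i j : ℕ))|) / 2
          ≤ (2 : ℝ)⁻¹ ^ k := by
  exact Crest.Agent.R309.fin80

end Crest.Agent.S0480
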