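import Crest.Statements.S0481
import Crest.Agent.R309.Fin81

set_option autoImplicit false
open Crest.Tables
open Crest Crest.LogicCS

namespace Crest.Agent.S0481

/-- An exact uniform sampler for contingency tables in polynomial expected time on the unit-cost word RAM: one randomized program and constants c₀, c₁, C, d such that for all margins r, c of equal total N, writing S = m+n+⌈log₂(N+2)⌉+1, given the words m, n, r, c with word length c₀·S^c₁ the expected number of instructions is at most C·S^d, every halting run outputs (row by row) a table with these margins, and each such table is output with probability exactly one over the number of tables. -/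
theorem result :
    ∃ (P : Crest.WordRAM.Program) (c₀ c₁ C d : ℕ),
      ∀ (m n : ℕ) (rs : Fin m → ℕ) (cs : Fin n → ℕ), ∑ i, rs i = ∑ j, cs j →
        Crest.WordRAM.expectedTime P (c₀ * (m + n + Nat.clog 2 (∑ i, rs i + 2) + 1) ^ c₁)
            (m :: n :: (List.ofFn rs ++ List.ofFn cs))
          ≤ ((C * (m + n + Nat.clog 2 (∑ i, rs i + 2) + 1) ^ d : ℕ) : ENNReal) ∧
        (∀ (ρ : ℕ → ℕ) (T : ℕ) (out : List ℕ),
          Crest.WordRAM.HaltsWithin P (c₀ * (m + n + Nat.clog 2 (∑ i, rs i + 2) + 1) ^ c₁) ρ
            (m :: n :: (List.ofFn rs ++ List.ofFn cs)) T out →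
          ∃ X : Fin m → Fin n → ℕ, IsTable rs cs X ∧ out = (List.ofFn fun i => List.ofFn (X i)).flatten) ∧
        ∀ X : Fin m → Fin n → ℕ, IsTable rs cs X →
          Crest.WordRAM.probHaltsWith P (c₀ * (m + n + Nat.clog 2 (∑ i, rs i + 2) + 1) ^ c₁)
              (m :: n :: (List.ofFn rs ++ List.ofFn cs))
              (fun out => out = (List.ofFn fun i => List.ofFn (X i)).flatten)
            = 1 / (numBoundedTables rs cs (fun _ _ => ∑ i, rs i) : ℝ) := by
  exact Crest.Agent.R309.fin81

end Crest.Agent.S0481
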