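import Crest.Statements.S0499
import Crest.Agent.R322.Final

set_option autoImplicit false
open Crest Crest.LogicCS

namespace Crest.Agent.S0499

open Crest.Agent.R322 in
lemma gro_le (a d q : ℕ) (hq : 4 * q ≤ d) (hd : 3 ≤ d) :
    gro ((2 ^ (a * d + 1) : ℕ) : ENNReal) (q + q) d q ≤ 2 ^ ((a + 4) * d) := by
  have h : 2 ^ (a * d + 1) * (2 * 8 ^ (q + q)) * (2 ^ d * 4 ^ q) + 1 ≤ 2 ^ ((a + 4) * d) := by
    have e : 2 ^ (a * d + 1) * (2 * 8 ^ (q + q)) * (2 ^ d * 4 ^ q) =
        2 ^ (a * d + 2 + 8 * q + d) := by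
      rw [show (8 : ℕ) = 2 ^ 3 by norm_num, show (4 : ℕ) = 2 ^ 2 by norm_num, ← pow_mul, ← pow_mul]
      ring
    rw [e]
    have h1 : 1 ≤ 2 ^ (a * d + 2 + 8 * q + d) := Nat.one_le_two_pow
    have h2 : 2 ^ (a * d + 2 + 8 * q + d + 1) ≤ 2 ^ ((a + 4) * d) :=
      Nat.pow_le_pow_right (by norm_num) (by rw [add_mul]; omega)
    rw [pow_succ] at h2
    omega
  unfold gro
  exact_mod_cast h

/-- For each A > 0 there are c > 0 and d₀ such that for all d ≥ d₀, naturals M ≤ A·d² and T, and 0 < ε ≤ 1/10: if a randomized one-pass learner with at most 2^M states (own seed independent of the data; transitions read one pair (x_t, ⟪x_t, s⟫) at a time; optional early stopping; unit-vector output from stopping index, seed and final state), fed T independent standard Gaussian samples in ℝ^d with s uniform on the sphere, is within angle ε of s with probability ≥ 2/3, then T ≥ c·d·log(1/ε). -/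
theorem result :
    ∀ A : ℝ, 0 < A → ∃ c : ℝ, 0 < c ∧ ∃ d₀ : ℕ, ∀ d ≥ d₀, ∀ (M T : ℕ),
      (M : ℝ) ≤ A * (d : ℝ) ^ 2 → ∀ ε : ℝ, 0 < ε → ε ≤ 1 / 10 →
        ∀ L : Crest.StreamLearn.RLearner d T M,
          2 / 3 ≤ L.successProb ε → c * d * Real.log (1 / ε) ≤ T := by
  intro A hA
  set a : ℕ := ⌈5 * A⌉₊ with ha
  refine ⟨1 / (4 * (10 * a + 45)), by positivity, 16, fun d hd M T hM ε hε hε' L hL => ?_⟩
  haveI : Nontrivial (Crest.StreamLearn.E d) :=
    Module.nontrivial_of_finrank_pos (R := ℝ) (by simp; omega)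
  have hT : d < 4 * T := by
    by_contra h
    have h1 := R322.successProb_le L ε _ ENNReal.ofReal_ne_top
      (R322.good_le_few L hε' (by omega) (by omega))
    rw [ENNReal.toReal_ofReal (by norm_num)] at h1
    linarith
  set q := d / 4 with hq
  have hq1 : 4 * q ≤ d := by omega
  have hq2 : d ≤ 5 * q := by omega
  have hq0 : 0 < q := by omega
  have hMa : M ≤ a * d * q := by
    have h1 : 5 * A ≤ a := Nat.le_ceil _
    have h2 : (d : ℝ) ≤ 5 * q := by exact_mod_cast hq2
    have h3 : (M : ℝ) ≤ a * d * q := by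
      calc (M : ℝ) ≤ A * d * d := by rw [mul_assoc, ← sq]; exact hM
        _ ≤ A * d * (5 * q) := by gcongr
        _ = (5 * A) * d * q := by ring
        _ ≤ a * d * q := by gcongr
    exact_mod_cast h3
  have hκ : 2 ^ M * (q + 1) ≤ (2 ^ (a * d + 1)) ^ q := by
    rw [← pow_mul, add_mul, one_mul, pow_add]
    exact Nat.mul_le_mul (Nat.pow_le_pow_right (by norm_num) hMa) Nat.lt_two_pow_self
  set b := T / q + 1 with hb
  have hb1 : T ≤ b * q := by
    have := Nat.lt_div_mul_add (a := T) hq0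
    rw [hb, add_mul, one_mul]; omega
  have hb2 : b * d ≤ 10 * T := by
    have h1 : T / q * q ≤ T := Nat.div_mul_le_self _ _
    calc b * d ≤ b * (5 * q) := Nat.mul_le_mul_left _ hq2
      _ = 5 * (T / q * q) + 5 * q := by rw [hb]; ring
      _ ≤ 10 * T := by omega
  set e := d - 1 - (q + q) with he
  have hde : d ≤ 4 * e := by omega
  have hB : ∀ ω, ((R322.sph (Crest.StreamLearn.E d)).prod (R322.Gam (Crest.StreamLearn.E d) T))
      (R322.good L ε ω) ≤ ENNReal.ofReal (2 ^ ((10 * a + 44) * T) * ε ^ e) := by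
    intro ω
    refine (R322.good_le_main L hε (q := q) (b := b) (by omega) hb1 (by positivity) hκ ω).trans ?_
    rw [ENNReal.ofReal_mul (by positivity), ENNReal.ofReal_pow (by norm_num),
      ENNReal.ofReal_pow hε.le, ENNReal.ofReal_ofNat, ← mul_assoc]
    gcongr
    calc _ ≤ ((2 : ENNReal) ^ ((a + 4) * d)) ^ b * 2 ^ d := by
          gcongr
          exact gro_le a d q hq1 (by omega)
      _ = 2 ^ ((a + 4) * (b * d) + d) := by rw [← pow_mul, ← pow_add]; congr 1; ring
      _ ≤ _ := by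
          refine pow_le_pow_right₀ (by norm_num) ?_
          have : (a + 4) * (b * d) ≤ (a + 4) * (10 * T) := Nat.mul_le_mul_left _ hb2
          nlinarith
  have h1 := hL.trans (R322.successProb_le L ε _ ENNReal.ofReal_ne_top hB)
  rw [ENNReal.toReal_ofReal (by positivity)] at h1
  have h2 := Real.log_le_log (by norm_num) h1
  rw [Real.log_mul (by positivity) (by positivity), Real.log_pow, Real.log_pow] at h2
  have hl2 : Real.log 2 ≤ 1 := by
    have := Real.log_le_sub_one_of_pos (x := 2) (by norm_num); linarith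
  have hl3 : -1 ≤ Real.log (2 / 3) := by
    have := Real.one_sub_inv_le_log_of_pos (x := 2 / 3) (by norm_num); linarith
  have hL0 : 0 ≤ Real.log (1 / ε) := Real.log_nonneg (by rw [le_div_iff₀ hε]; linarith)
  have hLε : Real.log ε = -Real.log (1 / ε) := by rw [one_div, Real.log_inv, neg_neg]
  rw [hLε] at h2
  have hT1 : (1 : ℝ) ≤ T := by exact_mod_cast (show 1 ≤ T by omega)
  have hde' : (d : ℝ) ≤ 4 * e := by exact_mod_cast hde
  have h3 : (((10 * a + 44) * T : ℕ) : ℝ) * Real.log 2 ≤ (10 * a + 44) * T := by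
    push_cast
    exact mul_le_of_le_one_right (by positivity) hl2
  have h4 : (e : ℝ) * Real.log (1 / ε) ≤ (10 * a + 45) * T := by nlinarith
  have h5 : (d : ℝ) * Real.log (1 / ε) ≤ 4 * ((10 * a + 45) * T) := by nlinarith
  rw [mul_assoc, one_div, inv_mul_le_iff₀ (by positivity)]
  linarith

end Crest.Agent.S0499
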