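import Crest.Statements.S0500
import Crest.Agent.R323.Smash
import Crest.Agent.R323.Pell
import Crest.Agent.R323.Count
import Crest.Agent.R323.Partrec

set_option autoImplicit false
open Crest Crest.LogicCS

namespace Crest.Agent.S0500

/-- For every n ≥ 1 and every recursively enumerable set S of n-tuples of natural numbers there are m ≥ 1 and an integer polynomial P in n + m variables such that, for every n-tuple a of naturals, P(a, w) = 0 has exactly one solution w among m-tuples of naturals when a ∈ S and no solution when a ∉ S. Tuples are functions on Fin n; the variables of P are indexed by Fin n ⊕ Fin m, inputs on the left, unknowns on the right. -/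
theorem result (n : ℕ) (hn : 1 ≤ n) (S : Set (Fin n → ℕ)) (hS : REPred fun a => a ∈ S) : ∃ m : ℕ, 1 ≤ m ∧ ∃ P : MvPolynomial (Fin n ⊕ Fin m) ℤ, ∀ a : Fin n → ℕ, (a ∈ S → ∃! w : Fin m → ℕ, MvPolynomial.eval (Sum.elim (fun i => (a i : ℤ)) (fun j => (w j : ℤ))) P = 0) ∧ (a ∉ S → ∀ w : Fin m → ℕ, MvPolynomial.eval (Sum.elim (fun i => (a i : ℤ)) (fun j => (w j : ℤ))) P ≠ 0) := by
  obtain ⟨s, A₀, hs, hb⟩ := R323.exists_smash
  have H := R323.hasPow_of_smash s A₀ hs hb
  exact (R323.sf_of_rePred H H.hasBall hS).final

end Crest.Agent.S0500
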