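import Crest.Statements.S0516
import Crest.Agent.R332.Main
import Crest.Agent.R332.Soliton

set_option autoImplicit false
open MeasureTheory
open scoped ComplexOrder
open Crest.MathPhysics.LiebThirring
open Crest Crest.MathPhysics

namespace Crest.Agent.S0516

/-- Equality cases, variational form, same setting (1/2 < γ < 3/2, r = 1/(γ-1/2), W measurable Hermitian positive semidefinite with ∫ tr(W^{γ+1/2}) < ∞): trial families come within every ε > 0 of C_γ ∫ tr(W^{γ+1/2}) with the γ-moment of the negative part of their energy matrix if and only if, for some constant unitary U and numbers a_i ≥ 0, c_i, almost everywhere W(x) = U diag((r+1) a_i² sech²(r a_i (x - c_i))) U*. -/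
theorem result
    (γ : ℝ) (hγ : 1 / 2 < γ) (hγ' : γ < 3 / 2) (m : ℕ) (hm : 1 ≤ m)
    (W : ℝ → Matrix (Fin m) (Fin m) ℂ) (hW : ∀ i j, Measurable fun x => W x i j)
    (hWp : ∀ x, (W x).PosSemidef)
    (hWi : Integrable fun x => tracePow (W x) (γ + 1 / 2)) :
    (∀ ε : ℝ, 0 < ε → ∃ (n : ℕ) (φ : Fin n → ℝ → Vec m), IsTrialFamily φ ∧
        sharpConst γ * (∫ x, tracePow (W x) (γ + 1 / 2)) - ε < negMoment (energyMatrix W φ) γ) ↔
      ∃ (U : Matrix.unitaryGroup (Fin m) ℂ) (a c : Fin m → ℝ), (∀ i, 0 ≤ a i) ∧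
        ∀ᵐ x : ℝ, W x = (U : Matrix (Fin m) (Fin m) ℂ) *
          Matrix.diagonal (fun i => ((soliton (γ - 1 / 2)⁻¹ (a i) (c i) x : ℝ) : ℂ)) *
            star (U : Matrix (Fin m) (Fin m) ℂ) := by
  constructor
  · intro h
    obtain ⟨M, C, hC, hmain⟩ := Crest.Agent.R332.main hγ hγ' hW hWp hWi
    have h0 : 0 < γ - 1 / 2 := by linarith
    obtain ⟨U, a, c, ha, hU⟩ := Crest.Agent.R332.rigid h0 (by linarith)
      (fun x => (1 + (γ - 1 / 2)⁻¹)⁻¹ • W x)
      (fun x => Crest.Agent.R332.psd_smul (hWp x) (by positivity)) M fun ε hε => by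
        obtain ⟨n, φ, hφ, hlt⟩ := h (ε / C) (by positivity)
        have := (hmain n φ hφ).2 (ε / C) (by positivity) hlt
        rwa [mul_div_cancel₀ _ hC.ne'] at this
    refine ⟨U, a, c, ha, ?_⟩
    filter_upwards [hU] with x hx
    rwa [smul_smul, mul_inv_cancel₀ (by positivity), one_smul] at hx
  · rintro ⟨U, a, c, ha, hU⟩ ε hε
    exact Crest.Agent.R332.soliton_extremal γ hγ m W U a c ha hU ε hε

end Crest.Agent.S0516
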