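import Crest.Statements.S0530
import Crest.Agent.R339.Glue
import Crest.Agent.R339.Cls.Main
import Crest.Agent.R339.F.Main
import Crest.Agent.R339.C.Main
import Crest.Agent.R339.T.Main
import Crest.Agent.R339.L.Main
import Crest.Agent.R339.D1.Main
import Crest.Agent.R339.D2.Main

set_option autoImplicit false
open MeasureTheory Crest.MathPhysics.SpinGlass
open Crest Crest.MathPhysics

namespace Crest.Agent.S0530

/-- For every accuracy `ε > 0` there are finitely many alternating cost and mixer angles, fixed once and for all, such that for all sufficiently many spins the disorder-averaged expected energy per spin of the alternating state prepared from the uniform superposition is at least the disorder-averaged maximal energy per spin minus `ε`; the model is the mean-field Ising spin glass with independent standard Gaussian pair couplings and normalisation `1/√n`. -/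
theorem result :
    ∀ ε > (0 : ℝ), ∃ angles : List (ℝ × ℝ), ∃ N : ℕ, ∀ n ≥ N,
      (∫ J, maxPairEnergy n J ∂(gaussianCouplings n)) / n - ε ≤
        (∫ J, expectedEnergy n J (alternatingState n J angles) ∂(gaussianCouplings n)) / n := by
  obtain ⟨E, K, _, _, _, _, _, M, ⟨j0⟩, ⟨j⟩⟩ := R339.fock
  exact R339.glue R339.cls M j0 j (R339.climit M j0) (R339.d1 M j0 j) (R339.lsim M j)
    (R339.d2 M) (R339.trig M)

end Crest.Agent.S0530
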